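import Vale.Agent.P030.H792.PadicDet

/-!
# p-adic determinant bounds from a sublattice and from a kernel modulo p
-/

open Finset Module Matrix

namespace Vale.Agent.P030.H792

variable {p : ℕ} [hp : Fact p.Prime] {n : Type*} [Fintype n] [DecidableEq n]

/-! ### reduction modulo `p` -/

theorem den_ne_zero_of_norm {q : ℚ} (h : padicNorm p q ≤ 1) : ((q.den : ℕ) : ZMod p) ≠ 0 := by
  intro h0
  rw [ZMod.natCast_eq_zero_iff] at h0
  have h1 : padicNorm p (q.den : ℚ) < 1 := (padicNorm.nat_lt_one_iff _).2 h0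
  have h2 : (q.num : ℚ) = q * q.den := (Rat.mul_den_eq_num q).symm
  have h3 : padicNorm p (q.num : ℚ) < 1 := by
    rw [h2, padicNorm.mul]
    calc padicNorm p q * padicNorm p (q.den : ℚ) ≤ 1 * padicNorm p (q.den : ℚ) :=
          mul_le_mul_of_nonneg_right h (padicNorm.nonneg _)
      _ < 1 := by rw [one_mul]; exact h1
  have h4 : (p : ℤ) ∣ q.num := (padicNorm.int_lt_one_iff _).1 h3
  have h5 : p ∣ Nat.gcd q.num.natAbs q.den := Nat.dvd_gcd (Int.natCast_dvd.1 h4) h0
  rw [q.reduced] at h5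
  exact hp.out.one_lt.ne' (Nat.dvd_one.1 h5)

theorem norm_of_den_ne_zero {q : ℚ} (h : ((q.den : ℕ) : ZMod p) ≠ 0) : padicNorm p q ≤ 1 := by
  have h1 : padicNorm p (q.den : ℚ) = 1 := by
    rw [padicNorm.nat_eq_one_iff]
    intro h2
    exact h ((ZMod.natCast_eq_zero_iff _ _).2 h2)
  have h2 : padicNorm p (q.num : ℚ) = padicNorm p q := by
    rw [← Rat.mul_den_eq_num q, padicNorm.mul, h1, mul_one]
  rw [← h2]
  exact padicNorm.of_int _

theorem red_add {a b : ℚ} (ha : padicNorm p a ≤ 1) (hb : padicNorm p b ≤ 1) :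
    ((a + b : ℚ) : ZMod p) = a + b :=
  Rat.cast_add_of_ne_zero (den_ne_zero_of_norm ha) (den_ne_zero_of_norm hb)

theorem red_sub {a b : ℚ} (ha : padicNorm p a ≤ 1) (hb : padicNorm p b ≤ 1) :
    ((a - b : ℚ) : ZMod p) = a - b :=
  Rat.cast_sub_of_ne_zero (den_ne_zero_of_norm ha) (den_ne_zero_of_norm hb)

theorem red_mul {a b : ℚ} (ha : padicNorm p a ≤ 1) (hb : padicNorm p b ≤ 1) :
    ((a * b : ℚ) : ZMod p) = a * b :=
  Rat.cast_mul_of_ne_zero (den_ne_zero_of_norm ha) (den_ne_zero_of_norm hb)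

theorem red_sum {ι : Type*} (s : Finset ι) (F : ι → ℚ) (h : ∀ i ∈ s, padicNorm p (F i) ≤ 1) :
    ((∑ i ∈ s, F i : ℚ) : ZMod p) = ∑ i ∈ s, (F i : ZMod p) := by
  classical
  induction s using Finset.induction_on with
  | empty => simp
  | insert a s ha ih =>
    rw [Finset.sum_insert ha, Finset.sum_insert ha,
      red_add (h a (Finset.mem_insert_self _ _)) (padicNorm_sum_le' s zero_le_one fun i hi =>
        h i (Finset.mem_insert_of_mem hi)), ih fun i hi => h i (Finset.mem_insert_of_mem hi)]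

theorem norm_le_inv_of_lt_one {q : ℚ} (h : padicNorm p q < 1) : padicNorm p q ≤ (p : ℚ)⁻¹ := by
  by_cases hq : q = 0
  · rw [hq, padicNorm.zero]; positivity
  · have hp1 : (1 : ℚ) < p := by exact_mod_cast hp.out.one_lt
    rw [padicNorm.eq_zpow_of_nonzero hq] at h ⊢
    rw [← _root_.zpow_neg_one]
    refine (zpow_le_zpow_iff_right₀ hp1).2 ?_
    have h1 : ((p : ℚ)) ^ (-padicValRat p q) < (p : ℚ) ^ (0 : ℤ) := by simpa using h
    have := (zpow_lt_zpow_iff_right₀ hp1).1 h1
    omega

theorem norm_le_inv_of_red {q : ℚ} (hq : padicNorm p q ≤ 1) (h : ((q : ℚ) : ZMod p) = 0) :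
    padicNorm p q ≤ (p : ℚ)⁻¹ := by
  refine norm_le_inv_of_lt_one ?_
  rw [Rat.cast_def, div_eq_zero_iff] at h
  rcases h with h | h
  · have h1 : padicNorm p (q.num : ℚ) < 1 := by
      rw [padicNorm.int_lt_one_iff]
      exact (ZMod.intCast_zmod_eq_zero_iff_dvd _ _).1 h
    have h2 : padicNorm p (q.den : ℚ) = 1 := by
      rw [padicNorm.nat_eq_one_iff]
      intro h3
      exact den_ne_zero_of_norm hq ((ZMod.natCast_eq_zero_iff _ _).2 h3)
    rwa [← Rat.mul_den_eq_num q, padicNorm.mul, h2, mul_one] at h1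
  · exact absurd h (den_ne_zero_of_norm hq)

theorem red_eq_zero_of_lt {q : ℚ} (h : padicNorm p q < 1) : ((q : ℚ) : ZMod p) = 0 := by
  rw [Rat.cast_def, div_eq_zero_iff]
  left
  rw [ZMod.intCast_zmod_eq_zero_iff_dvd, ← padicNorm.int_lt_one_iff, ← Rat.mul_den_eq_num q,
    padicNorm.mul]
  calc padicNorm p q * padicNorm p (q.den : ℚ) ≤ padicNorm p q * 1 :=
        mul_le_mul_of_nonneg_left (padicNorm.of_nat _) (padicNorm.nonneg _)
    _ < 1 := by rw [mul_one]; exact h

/-- congruent numbers have the same reduction -/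
theorem red_congr {a b : ℚ} (hb : padicNorm p b ≤ 1) (h : padicNorm p (a - b) < 1) :
    ((a : ℚ) : ZMod p) = b := by
  have h1 : a = (a - b) + b := by ring
  rw [h1, red_add h.le hb, red_eq_zero_of_lt h, zero_add]

/-! ### triangular determinants -/

/-- a matrix which is triangular for some weight function -/
theorem det_of_weight {R : Type*} [CommRing R] (M : Matrix n n R) (b : n → ℕ)
    (h : ∀ i j, i ≠ j → M i j ≠ 0 → b i < b j) : M.det = ∏ i, M i i := by
  classical
  rw [Matrix.det_apply]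
  rw [Finset.sum_eq_single (1 : Equiv.Perm n)]
  · simp
  · intro σ _ hσ
    have h1 : ∃ i, M (σ i) i = 0 := by
      by_contra hcon
      have hcon' : ∀ i, M (σ i) i ≠ 0 := fun i hi => hcon ⟨i, hi⟩
      have h2 : ∃ i, σ i ≠ i := by
        by_contra hc
        apply hσ
        ext i
        by_contra hi
        exact hc ⟨i, hi⟩
      obtain ⟨i0, hi0⟩ := h2
      have h3 : ∑ i, b (σ i) < ∑ i, b i := by
        refine Finset.sum_lt_sum (fun i _ => ?_) ⟨i0, Finset.mem_univ _, h _ _ hi0 (hcon' i0)⟩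
        by_cases hi : σ i = i
        · rw [hi]
        · exact (h _ _ hi (hcon' i)).le
      rw [Equiv.sum_comp σ b] at h3
      exact lt_irrefl _ h3
    obtain ⟨i, hi⟩ := h1
    have h4 : ∏ i, M (σ i) i = 0 := Finset.prod_eq_zero (Finset.mem_univ i) hi
    exact (congrArg (fun t => Equiv.Perm.sign σ • t) h4).trans (smul_zero _)
  · intro h1
    exact absurd (Finset.mem_univ _) h1

/-! ### kernel modulo `p` -/

/-- an invertible matrix some of whose rows span a given subspace -/
theorem exists_matrix_rows {F : Type*} [Field F] (K : Submodule F (n → F)) :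
    ∃ (U : Matrix n n F) (C : Finset n), U.det ≠ 0 ∧ C.card = finrank F K ∧ ∀ i ∈ C, U i ∈ K := by
  classical
  obtain ⟨K', hK⟩ := Submodule.exists_isCompl K
  let b0 := Module.finBasis F K
  let b1 := Module.finBasis F K'
  let B := (b0.prod b1).map (Submodule.prodEquivOfIsCompl K K' hK)
  have hcard : Fintype.card (Fin (finrank F K) ⊕ Fin (finrank F K')) = Fintype.card n := by
    rw [← Module.finrank_eq_card_basis B, Module.finrank_fintype_fun_eq_card]
  let e : (Fin (finrank F K) ⊕ Fin (finrank F K')) ≃ n := Fintype.equivOfCardEq hcard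
  let B' := B.reindex e
  let U : Matrix n n F := Matrix.of fun i => B' i
  refine ⟨U, (Finset.univ : Finset (Fin (finrank F K))).map
    ⟨fun i => e (Sum.inl i), fun a b h => Sum.inl_injective (e.injective h)⟩, ?_, ?_, ?_⟩
  · have h1 : IsUnit U := by
      rw [← Matrix.linearIndependent_rows_iff_isUnit]
      exact B'.linearIndependent
    exact (((Matrix.isUnit_iff_isUnit_det U).1 h1)).ne_zero
  · rw [Finset.card_map, Finset.card_univ, Fintype.card_fin]
  · intro i hi
    obtain ⟨j, _, rfl⟩ := Finset.mem_map.1 hi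
    have h2 : U (e (Sum.inl j)) = (b0 j : n → F) := by
      change B' (e (Sum.inl j)) = _
      rw [Module.Basis.reindex_apply, Equiv.symm_apply_apply]
      simp [B]
    change U (e (Sum.inl j)) ∈ K
    rw [h2]
    exact (b0 j).2

/-- **kernel form**: `k` independent relations modulo `p` between the rows give `p ^ k ∣ det` -/
theorem padicNorm_det_le_ker (M : Matrix n n ℚ) (hM : ∀ i c, padicNorm p (M i c) ≤ 1)
    (K : Submodule (ZMod p) (n → ZMod p))
    (hK : ∀ v ∈ K, ∀ c, ∑ i, v i * ((M i c : ℚ) : ZMod p) = 0) :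
    padicNorm p M.det ≤ (p : ℚ) ^ (-(finrank (ZMod p) K : ℤ)) := by
  classical
  obtain ⟨U, C, hU, hC, hUC⟩ := exists_matrix_rows K
  let UZ : Matrix n n ℤ := Matrix.of fun i j => ((U i j).val : ℤ)
  have hUZ : UZ.map (Int.castRingHom (ZMod p)) = U := by
    ext i j
    simp [UZ]
  have hdet : ((UZ.det : ℤ) : ZMod p) = U.det := by
    have := (Int.castRingHom (ZMod p)).map_det UZ
    rw [RingHom.mapMatrix_apply, hUZ] at this
    simpa using this
  let UQ : Matrix n n ℚ := UZ.map (Int.castRingHom ℚ)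
  have hUQ : UQ.det = (UZ.det : ℚ) := by
    have := (Int.castRingHom ℚ).map_det UZ
    rw [RingHom.mapMatrix_apply] at this
    exact this.symm
  have hUn : padicNorm p UQ.det = 1 := by
    rw [hUQ, padicNorm.int_eq_one_iff]
    intro h
    apply hU
    rw [← hdet]
    exact (ZMod.intCast_zmod_eq_zero_iff_dvd _ _).2 h
  have hUi : ∀ i j, padicNorm p (UQ i j) ≤ 1 := fun i j => padicNorm.of_int _
  have hUr : ∀ i j, ((UQ i j : ℚ) : ZMod p) = U i j := by
    intro i j
    have : UQ i j = ((UZ i j : ℤ) : ℚ) := rfl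
    rw [this, Rat.cast_intCast]
    simp [UZ]
  have hprod : ∀ i c, padicNorm p ((UQ * M) i c) ≤ 1 := by
    intro i c
    rw [Matrix.mul_apply]
    refine padicNorm_sum_le' _ zero_le_one fun j _ => ?_
    rw [padicNorm.mul]
    exact mul_le_one₀ (hUi i j) (padicNorm.nonneg _) (hM j c)
  have hprodC : ∀ i ∈ C, ∀ c, padicNorm p ((UQ * M) i c) ≤ (p : ℚ)⁻¹ := by
    intro i hi c
    refine norm_le_inv_of_red (hprod i c) ?_
    rw [Matrix.mul_apply, red_sum _ _ fun j _ => by
      rw [padicNorm.mul]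
      exact mul_le_one₀ (hUi i j) (padicNorm.nonneg _) (hM j c)]
    rw [← hK (U i) (hUC i hi) c]
    refine Finset.sum_congr rfl fun j _ => ?_
    rw [red_mul (hUi i j) (hM j c), hUr]
  have h1 : padicNorm p ((UQ * M)ᵀ).det
      ≤ (p : ℚ) ^ (-(∑ i, (if i ∈ C then (1 : ℤ) else 0))) := by
    refine padicNorm_det_le_cols _ _ fun c i => ?_
    rw [Matrix.transpose_apply]
    split_ifs with h
    · rw [_root_.zpow_neg, zpow_one]; exact hprodC i h c
    · simpa using hprod i c
  rw [Matrix.det_transpose, Matrix.det_mul, padicNorm.mul, hUn, one_mul] at h1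
  refine h1.trans (le_of_eq ?_)
  congr 2
  rw [← hC]
  simp

/-- **kernel form by dimension count** -/
theorem padicNorm_det_le_finrank {κ : Type*} (M : Matrix n n ℚ)
    (hM : ∀ i c, padicNorm p (M i c) ≤ 1) (σ : n → κ)
    (W : Submodule (ZMod p) (n → ZMod p)) (V : Submodule (ZMod p) (κ → ZMod p))
    [FiniteDimensional (ZMod p) V]
    (h : ∀ v ∈ W, ∃ g ∈ V, ∀ c, ∑ i, v i * ((M i c : ℚ) : ZMod p) = g (σ c)) :
    padicNorm p M.det
      ≤ (p : ℚ) ^ (-((finrank (ZMod p) W : ℤ) - (finrank (ZMod p) V : ℤ))) := by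
  classical
  have hp1 : (1 : ℚ) ≤ p := by exact_mod_cast hp.out.one_lt.le
  let Mb : Matrix n n (ZMod p) := M.map fun q => ((q : ℚ) : ZMod p)
  -- restriction of sections along `σ`
  let res : (κ → ZMod p) →ₗ[ZMod p] (n → ZMod p) := LinearMap.funLeft (ZMod p) (ZMod p) σ
  let f : W →ₗ[ZMod p] (n → ZMod p) := (Matrix.vecMulLinear Mb).comp W.subtype
  have hf : ∀ v : W, f v ∈ V.map res := by
    intro v
    obtain ⟨g, hg, hgc⟩ := h v v.2
    refine ⟨g, hg, ?_⟩
    ext c
    have h1 : f v c = ∑ i, (v : n → ZMod p) i * Mb i c := by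
      change (Matrix.vecMul (v : n → ZMod p) Mb) c = _
      rw [Matrix.vecMul, dotProduct]
    rw [h1]
    exact (hgc c).symm
  have hr : finrank (ZMod p) (LinearMap.range f) ≤ finrank (ZMod p) V := by
    calc finrank (ZMod p) (LinearMap.range f) ≤ finrank (ZMod p) (V.map res) :=
          Submodule.finrank_mono (by
            rintro _ ⟨v, rfl⟩
            exact hf v)
      _ ≤ finrank (ZMod p) V := Submodule.finrank_map_le res V
  have hrk := LinearMap.finrank_range_add_finrank_ker f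
  let K : Submodule (ZMod p) (n → ZMod p) := (LinearMap.ker f).map W.subtype
  have hKd : finrank (ZMod p) K = finrank (ZMod p) (LinearMap.ker f) :=
    LinearEquiv.finrank_eq (Submodule.equivMapOfInjective W.subtype W.injective_subtype _).symm
  have h2 := padicNorm_det_le_ker M hM K (by
    rintro v ⟨w, hw, rfl⟩ c
    have h3 : f w = 0 := hw
    have h4 : f w c = ∑ i, (w : n → ZMod p) i * Mb i c := by
      change (Matrix.vecMul (w : n → ZMod p) Mb) c = _
      rw [Matrix.vecMul, dotProduct]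
    rw [h3] at h4
    exact h4.symm)
  refine h2.trans ?_
  refine zpow_le_zpow_right₀ hp1 ?_
  rw [hKd]
  omega

/-! ### lattices -/

/-- **lattice form**: `N` = basis of a sublattice, `p ^ ν` its index, the section columns have
values in `p ^ (w c)` -/
theorem padicNorm_det_le_lattice (M N : Matrix n n ℚ) (ν : ℤ) (w : n → ℤ) (k : ℤ)
    (hN : padicNorm p N.det = (p : ℚ) ^ (-ν))
    (h : padicNorm p (Matrix.det fun i c => (N * M) i c * (p : ℚ) ^ (-w c)) ≤ (p : ℚ) ^ (-k)) :
    padicNorm p M.det ≤ (p : ℚ) ^ (-(∑ c, w c + k - ν)) := by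
  have hp0 : (p : ℚ) ≠ 0 := by exact_mod_cast hp.out.ne_zero
  have h1 := padicNorm_det_scale (N * M) (fun _ => 0) (fun c => -w c) k (by
    simpa only [zpow_zero, one_mul] using h)
  rw [Matrix.det_mul, padicNorm.mul, hN] at h1
  have h2 : padicNorm p M.det = (p : ℚ) ^ ν * ((p : ℚ) ^ (-ν) * padicNorm p M.det) := by
    rw [← mul_assoc, ← zpow_add₀ hp0]
    simp
  rw [h2]
  calc _ ≤ (p : ℚ) ^ ν * (p : ℚ) ^ (-(k - ∑ _i : n, (0 : ℤ) - ∑ c, -w c)) :=
        mul_le_mul_of_nonneg_left h1 (zpow_pos' _).le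
    _ = _ := by
        rw [← zpow_add₀ hp0]
        congr 1
        rw [Finset.sum_neg_distrib]
        simp only [Finset.sum_const_zero]
        ring

end Vale.Agent.P030.H792
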