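import Vale.Agent.P030.T.Frame
import Vale.Agent.P030.H792.LatKer

/-!
# The Frobenius lattice for the matrix of frame T

`latN` is the basis of the lattice: row `(a, j)`, `j < 7`, is `p ^ (e j) μ_a e_j`; row `(a, 7)` is
`p ^ t0 (H(u) μ_a e_7 - θH(u) μ_a e_6)` if `a + p ≤ D` and `p ^ t1 μ_a e_7` otherwise.
-/

open Finset Module Matrix

namespace Vale.Agent.P030.H792

open Vale.Agent.P030.T

variable {p : ℕ} [hp : Fact p.Prime]

/-- the basis of the lattice -/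
noncomputable def latN (p D : ℕ) (e : Fin 8 → ℤ) (t0 t1 : ℤ) (H : ℕ → ℚ) :
    Matrix (Fin D × Fin 8) (Fin D × Fin 8) ℚ :=
  Matrix.of fun r c =>
    if r.2 = 7 then
      (if (r.1 : ℕ) + p ≤ D then
        (if (r.1 : ℕ) ≤ c.1 ∧ (c.1 : ℕ) < r.1 + p then
          (if c.2 = 7 then (p : ℚ) ^ t0 * H (c.1 - r.1)
            else if c.2 = 6 then -((p : ℚ) ^ t0 * (((c.1 : ℕ) - (r.1 : ℕ) : ℕ) * H (c.1 - r.1)))
            else 0)
        else 0)
      else if c = r then (p : ℚ) ^ t1 else 0)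
    else if c = r then (p : ℚ) ^ (e r.2) else 0

/-- the index of the lattice -/
def latIdx (p D : ℕ) (e : Fin 8 → ℤ) (t0 t1 : ℤ) : ℤ :=
  (D : ℤ) * (e 0 + e 1 + e 2 + e 3 + e 4 + e 5 + e 6) + t0 * ((D + 1 - p : ℕ) : ℤ)
    + t1 * ((D - (D + 1 - p) : ℕ) : ℤ)

/-- the diagonal exponents -/
def latE (p D : ℕ) (e : Fin 8 → ℤ) (t0 t1 : ℤ) (r : Fin D × Fin 8) : ℤ :=
  if r.2 = 7 then (if (r.1 : ℕ) + p ≤ D then t0 else t1) else e r.2

theorem sum_latE (p D : ℕ) (h1 : 1 ≤ p) (e : Fin 8 → ℤ) (t0 t1 : ℤ) :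
    ∑ r : Fin D × Fin 8, latE p D e t0 t1 r = latIdx p D e t0 t1 := by
  rw [Fintype.sum_prod_type]
  have h2 : ∀ i : Fin D, ∑ j : Fin 8, latE p D e t0 t1 (i, j)
      = (e 0 + e 1 + e 2 + e 3 + e 4 + e 5 + e 6) + (if (i : ℕ) + p ≤ D then t0 else t1) := by
    intro i
    rw [Fin.sum_univ_eight]
    have h3 : ∀ j : Fin 8, j ≠ 7 → latE p D e t0 t1 (i, j) = e j := fun j hj => by
      simp only [latE, if_neg hj]
    rw [h3 0 (by decide), h3 1 (by decide), h3 2 (by decide), h3 3 (by decide), h3 4 (by decide),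
      h3 5 (by decide), h3 6 (by decide)]
    simp only [latE, if_true]
  rw [Finset.sum_congr rfl fun i _ => h2 i, Finset.sum_add_distrib]
  rw [Finset.sum_const, Finset.card_univ, Fintype.card_fin, nsmul_eq_mul]
  have h4 : ∑ i : Fin D, (if (i : ℕ) + p ≤ D then t0 else t1)
      = t0 * ((D + 1 - p : ℕ) : ℤ) + t1 * ((D - (D + 1 - p) : ℕ) : ℤ) := by
    rw [Fin.sum_univ_eq_sum_range (fun i => if i + p ≤ D then t0 else t1) D]
    have h5 : ∀ i ∈ Finset.range D, (if i + p ≤ D then t0 else t1)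
        = (if i < D + 1 - p then t0 else t1) := by
      intro i _
      by_cases h : i + p ≤ D
      · rw [if_pos h, if_pos (by omega)]
      · rw [if_neg h, if_neg (by omega)]
    rw [Finset.sum_congr rfl h5]
    have h6 : D + 1 - p ≤ D := by omega
    obtain ⟨m, hm⟩ : ∃ m, D + 1 - p = m := ⟨_, rfl⟩
    rw [hm] at h6 ⊢
    rw [← Nat.add_sub_cancel' h6, Finset.sum_range_add, Nat.add_sub_cancel' h6]
    have h7 : ∑ i ∈ Finset.range m, (if i < m then t0 else t1) = ∑ i ∈ Finset.range m, t0 :=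
      Finset.sum_congr rfl fun i hi => if_pos (Finset.mem_range.1 hi)
    have h8 : ∑ i ∈ Finset.range (D - m), (if m + i < m then t0 else t1)
        = ∑ i ∈ Finset.range (D - m), t1 :=
      Finset.sum_congr rfl fun i _ => if_neg (by omega)
    rw [h7, h8]
    simp only [Finset.sum_const, Finset.card_range, nsmul_eq_mul]
    ring
  rw [h4, latIdx]
  ring

theorem latN_diag (p D : ℕ) (h1 : 1 ≤ p) (e : Fin 8 → ℤ) (t0 t1 : ℤ) (H : ℕ → ℚ) (hH : H 0 = 1)
    (r : Fin D × Fin 8) : latN p D e t0 t1 H r r = (p : ℚ) ^ (latE p D e t0 t1 r) := by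
  unfold latN latE
  simp only [Matrix.of_apply]
  by_cases h7 : r.2 = 7
  · simp only [h7, if_true]
    by_cases h8 : (r.1 : ℕ) + p ≤ D
    · rw [if_pos h8, if_pos ⟨le_rfl, by omega⟩, if_pos h8, Nat.sub_self, hH, mul_one]
    · rw [if_neg h8, if_neg h8]
  · simp only [h7, if_false, if_true]

theorem det_latN (p D : ℕ) (h1 : 1 ≤ p) (e : Fin 8 → ℤ) (t0 t1 : ℤ) (H : ℕ → ℚ) (hH : H 0 = 1)
    (hp0 : (p : ℚ) ≠ 0) :
    (latN p D e t0 t1 H).det = (p : ℚ) ^ (latIdx p D e t0 t1) := by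
  rw [det_of_weight _ (fun r : Fin D × Fin 8 => if r.2 = 7 then (r.1 : ℕ) else D)]
  · rw [← sum_latE p D h1 e t0 t1]
    rw [Finset.prod_congr rfl fun r _ => latN_diag p D h1 e t0 t1 H hH r]
    induction (Finset.univ : Finset (Fin D × Fin 8)) using Finset.induction_on with
    | empty => simp
    | insert a s ha ih => rw [Finset.prod_insert ha, Finset.sum_insert ha, zpow_add₀ hp0, ih]
  · intro r c hrc h
    unfold latN at h
    simp only [Matrix.of_apply] at h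
    by_cases h7 : r.2 = 7
    · simp only [h7, if_true] at h ⊢
      by_cases h8 : (r.1 : ℕ) + p ≤ D
      · rw [if_pos h8] at h
        by_cases h9 : (r.1 : ℕ) ≤ c.1 ∧ (c.1 : ℕ) < r.1 + p
        · rw [if_pos h9] at h
          by_cases h10 : c.2 = 7
          · simp only [h10, if_true]
            rcases lt_or_eq_of_le h9.1 with h11 | h11
            · exact h11
            · exfalso
              apply hrc
              exact Prod.ext (Fin.ext h11) (h7.trans h10.symm)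
          · simp only [h10, if_false]
            exact r.1.2
        · rw [if_neg h9] at h
          exact absurd rfl h
      · rw [if_neg h8] at h
        rw [if_neg (fun h12 => hrc h12.symm)] at h
        exact absurd rfl h
    · simp only [h7, if_false] at h
      rw [if_neg (fun h12 => hrc h12.symm)] at h
      exact absurd rfl h

theorem norm_det_latN (D : ℕ) (e : Fin 8 → ℤ) (t0 t1 : ℤ) (H : ℕ → ℚ) (hH : H 0 = 1) :
    padicNorm p (latN p D e t0 t1 H).det = (p : ℚ) ^ (-latIdx p D e t0 t1) := by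
  have hp0 : (p : ℚ) ≠ 0 := by exact_mod_cast hp.out.ne_zero
  rw [det_latN p D hp.out.one_lt.le e t0 t1 H hH hp0, padicNorm_zpow',
    padicNorm.padicNorm_p hp.out.one_lt, _root_.inv_zpow, _root_.zpow_neg]

/-! ### rows of the product -/

omit hp in
/-- the uncorrected rows -/
theorem latN_mul_of_ne (D : ℕ) (e : Fin 8 → ℤ) (t0 t1 : ℤ) (H : ℕ → ℚ) {κ : Type*}
    (E : Fin D × Fin 8 → κ → ℚ) (a : Fin D) (j : Fin 8) (hj : j ≠ 7) (k : κ) :
    ∑ r, latN p D e t0 t1 H (a, j) r * E r k = (p : ℚ) ^ (e j) * E (a, j) k := by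
  rw [Finset.sum_eq_single (a, j)]
  · simp [latN, hj]
  · intro r _ hr
    simp [latN, hj, hr]
  · intro h; exact absurd (Finset.mem_univ _) h

omit hp in
theorem latN_mul_top (D : ℕ) (e : Fin 8 → ℤ) (t0 t1 : ℤ) (H : ℕ → ℚ) {κ : Type*}
    (E : Fin D × Fin 8 → κ → ℚ) (a : Fin D) (ha : ¬ (a : ℕ) + p ≤ D) (k : κ) :
    ∑ r, latN p D e t0 t1 H (a, 7) r * E r k = (p : ℚ) ^ t1 * E (a, 7) k := by
  rw [Finset.sum_eq_single (a, 7)]
  · simp [latN, ha]
  · intro r _ hr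
    simp [latN, ha, hr]
  · intro h; exact absurd (Finset.mem_univ _) h

omit hp in
/-- the corrected rows -/
theorem latN_mul_cor (D : ℕ) (e : Fin 8 → ℤ) (t0 t1 : ℤ) (H : ℕ → ℚ) {κ : Type*}
    (E : ℕ → Fin 8 → κ → ℚ) (a : Fin D) (ha : (a : ℕ) + p ≤ D) (k : κ) :
    ∑ r : Fin D × Fin 8, latN p D e t0 t1 H (a, 7) r * E r.1 r.2 k
      = (p : ℚ) ^ t0 * (∑ q ∈ Finset.range p, H q * E (a + q) 7 k
          - ∑ q ∈ Finset.range p, (q : ℚ) * H q * E (a + q) 6 k) := by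
  rw [Fintype.sum_prod_type]
  have h1 : ∀ i : Fin D, ∑ j : Fin 8, latN p D e t0 t1 H (a, 7) (i, j) * E i j k
      = if (a : ℕ) ≤ i ∧ (i : ℕ) < a + p then
        (p : ℚ) ^ t0 * (H (i - a) * E i 7 k - (((i : ℕ) - (a : ℕ) : ℕ) : ℚ) * H (i - a) * E i 6 k)
        else 0 := by
    intro i
    rw [Fin.sum_univ_eight]
    have h2 : ∀ j : Fin 8, j ≠ 7 → j ≠ 6 → latN p D e t0 t1 H (a, 7) (i, j) = 0 := by
      intro j hj hj'
      simp [latN, ha, hj, hj']
    rw [h2 0 (by decide) (by decide), h2 1 (by decide) (by decide), h2 2 (by decide) (by decide),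
      h2 3 (by decide) (by decide), h2 4 (by decide) (by decide), h2 5 (by decide) (by decide)]
    have h67 : (6 : Fin 8) ≠ 7 := by decide
    by_cases hi : (a : ℕ) ≤ i ∧ (i : ℕ) < a + p
    · simp only [latN, Matrix.of_apply, ha, hi, h67, if_true, if_false, and_self]
      ring
    · simp only [latN, Matrix.of_apply, ha, hi, if_true, if_false]
      ring
  rw [Finset.sum_congr rfl fun i _ => h1 i]
  rw [Fin.sum_univ_eq_sum_range (fun i => if (a : ℕ) ≤ i ∧ i < a + p then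
        (p : ℚ) ^ t0 * (H (i - a) * E i 7 k - ((i - (a : ℕ) : ℕ) : ℚ) * H (i - a) * E i 6 k)
        else 0) D]
  rw [← Finset.sum_filter]
  have h3 : (Finset.range D).filter (fun i => (a : ℕ) ≤ i ∧ i < a + p)
      = (Finset.range p).map ⟨fun q => (a : ℕ) + q, add_right_injective _⟩ := by
    ext i
    simp only [Finset.mem_filter, Finset.mem_range, Finset.mem_map, Function.Embedding.coeFn_mk]
    constructor
    · rintro ⟨h4, h5, h6⟩
      exact ⟨i - a, by omega, by omega⟩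
    · rintro ⟨q, h4, h5⟩
      omega
  rw [h3, Finset.sum_map]
  simp only [Function.Embedding.coeFn_mk, Nat.add_sub_cancel_left]
  rw [← Finset.mul_sum, Finset.sum_sub_distrib]

/-! ### the determinant of frame T -/

/-- rows of the lattice evaluated at the column `c` -/
noncomputable def latRow (p D : ℕ) (e : Fin 8 → ℤ) (t0 t1 : ℤ) (H : ℕ → ℚ) (x : ℚ)
    (r : Fin D × Fin 8) (c : Cl) : ℚ :=
  if r.2 = 7 ∧ (r.1 : ℕ) + p ≤ D then
    (p : ℚ) ^ t0 * (∑ q ∈ Finset.range p,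
        H q * (ent0 D c.1 c.2 (r.1 + q) 7 + x * ent1 D c.1 c.2 (r.1 + q) 7)
      - ∑ q ∈ Finset.range p,
        (q : ℚ) * H q * (ent0 D c.1 c.2 (r.1 + q) 6 + x * ent1 D c.1 c.2 (r.1 + q) 6))
  else (p : ℚ) ^ (latE p D e t0 t1 r)
    * (ent0 D c.1 c.2 r.1 r.2 + x * ent1 D c.1 c.2 r.1 r.2)

theorem latN_mul_Mx (D : ℕ) (e : Fin 8 → ℤ) (t0 t1 : ℤ) (H : ℕ → ℚ) (x : ℚ)
    (σ : Fin D × Fin 8 → Cl) (r c : Fin D × Fin 8) :
    (latN p D e t0 t1 H * Mx D x σ) r c = latRow p D e t0 t1 H x r (σ c) := by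
  obtain ⟨a, j⟩ := r
  rw [Matrix.mul_apply]
  have hM : ∀ i, Mx D x σ i c = ent0 D (σ c).1 (σ c).2 i.1 i.2
      + x * ent1 D (σ c).1 (σ c).2 i.1 i.2 := by
    intro i
    simp [Mx]
  rw [Finset.sum_congr rfl fun i _ => by rw [hM i]]
  unfold latRow
  by_cases hj : j = 7
  · subst hj
    by_cases ha : (a : ℕ) + p ≤ D
    · rw [if_pos ⟨rfl, ha⟩]
      exact latN_mul_cor D e t0 t1 H (fun i j (k : Cl) => ent0 D k.1 k.2 i j
        + x * ent1 D k.1 k.2 i j) a ha (σ c)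
    · rw [if_neg (fun h => ha h.2)]
      have := latN_mul_top (p := p) D e t0 t1 H (fun (r : Fin D × Fin 8) (k : Cl) =>
        ent0 D k.1 k.2 r.1 r.2 + x * ent1 D k.1 k.2 r.1 r.2) a ha (σ c)
      rw [this]
      simp only [latE, if_true, if_neg ha]
  · rw [if_neg (fun h => hj h.1)]
    have := latN_mul_of_ne (p := p) D e t0 t1 H (fun (r : Fin D × Fin 8) (k : Cl) =>
      ent0 D k.1 k.2 r.1 r.2 + x * ent1 D k.1 k.2 r.1 r.2) a j hj (σ c)
    rw [this]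
    simp only [latE, if_neg hj]

/-- the number of columns of the pool with a small weight -/
theorem sum_weight_ge {P : Par} {c0 s : ℕ} {σ : Fin (P.D0 * s) × Fin 8 → Cl}
    (hσ : Adm P c0 s σ) (w : Cl → ℤ) (m : ℤ) :
    8 * ((P.D0 * s : ℕ) : ℤ) * m
        - ∑ g : Gp, ∑ k ∈ Finset.range (P.ht g * s + c0), max (m - w (g, k)) 0
      ≤ ∑ c, w (σ c) := by
  classical
  have h1 : ∑ c, (m - w (σ c)) ≤ ∑ c, max (m - w (σ c)) 0 :=
    Finset.sum_le_sum fun c _ => le_max_left _ _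
  have h2 : ∑ c, max (m - w (σ c)) 0 = ∑ k ∈ Finset.univ.image σ, max (m - w k) 0 := by
    rw [Finset.sum_image fun a _ b _ h => hσ.1 h]
  have h3 : Finset.univ.image σ ⊆ pool P c0 s := by
    intro k hk
    obtain ⟨c, _, rfl⟩ := Finset.mem_image.1 hk
    exact mem_pool.2 (hσ.2 c)
  have h4 : ∑ k ∈ Finset.univ.image σ, max (m - w k) 0 ≤ ∑ k ∈ pool P c0 s, max (m - w k) 0 :=
    Finset.sum_le_sum_of_subset_of_nonneg h3 fun _ _ _ => le_max_right _ _
  have h5 : ∑ k ∈ pool P c0 s, max (m - w k) 0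
      = ∑ g : Gp, ∑ k ∈ Finset.range (P.ht g * s + c0), max (m - w (g, k)) 0 := by
    unfold pool
    rw [Finset.sum_biUnion]
    · refine Finset.sum_congr rfl fun g _ => ?_
      rw [Finset.sum_image]
      intro a _ b _ h
      exact (Prod.ext_iff.1 h).2
    · intro g _ g' _ hgg
      rw [Function.onFun, Finset.disjoint_left]
      intro k hk hk'
      obtain ⟨_, _, rfl⟩ := Finset.mem_image.1 hk
      obtain ⟨_, _, h6⟩ := Finset.mem_image.1 hk'
      exact hgg (Prod.ext_iff.1 h6).1.symm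
  have h6 : ∑ c : Fin (P.D0 * s) × Fin 8, (m - w (σ c))
      = 8 * ((P.D0 * s : ℕ) : ℤ) * m - ∑ c, w (σ c) := by
    rw [Finset.sum_sub_distrib, Finset.sum_const, Finset.card_univ, Fintype.card_prod,
      Fintype.card_fin, Fintype.card_fin, nsmul_eq_mul]
    push_cast
    ring
  linarith

/-- **lattice bound** -/
theorem le_val_of_lattice {P : Par} {c0 s : ℕ} {x : ℚ} {σ : Fin (P.D0 * s) × Fin 8 → Cl}
    (hσ : Adm P c0 s σ) (hdet : (Mx (P.D0 * s) x σ).det ≠ 0)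
    (e : Fin 8 → ℤ) (t0 t1 : ℤ) (H : ℕ → ℚ) (hH : H 0 = 1) (w : Cl → ℤ)
    (hint : ∀ c : Cl, c.2 < P.ht c.1 * s + c0 → ∀ r,
      padicNorm p (latRow p (P.D0 * s) e t0 t1 H x r c) ≤ (p : ℚ) ^ (-w c)) :
    ∑ c, w (σ c) - latIdx p (P.D0 * s) e t0 t1 ≤ padicValRat p (Mx (P.D0 * s) x σ).det := by
  have hp0 : (p : ℚ) ≠ 0 := by exact_mod_cast hp.out.ne_zero
  refine le_padicValRat_of_norm hdet ?_
  have h1 := padicNorm_det_le_lattice (p := p) (Mx (P.D0 * s) x σ) (latN p (P.D0 * s) e t0 t1 H)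
    (latIdx p (P.D0 * s) e t0 t1) (fun c => w (σ c)) 0 (norm_det_latN _ e t0 t1 H hH) (by
      have h2 := padicNorm_det_le_cols (p := p)
        (fun i c => (latN p (P.D0 * s) e t0 t1 H * Mx (P.D0 * s) x σ) i c * (p : ℚ) ^ (-w (σ c)))
        (fun _ => 0) (fun i c => ?_)
      · simpa using h2
      · rw [latN_mul_Mx, padicNorm.mul, padicNorm_zpow', padicNorm.padicNorm_p hp.out.one_lt,
          _root_.inv_zpow, _root_.zpow_neg, inv_inv, neg_zero, zpow_zero]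
        calc _ ≤ (p : ℚ) ^ (-w (σ c)) * (p : ℚ) ^ (w (σ c)) :=
              mul_le_mul_of_nonneg_right (hint _ (hσ.2 c) _) (zpow_pos' _).le
          _ = 1 := by rw [← zpow_add₀ hp0]; simp)
  simpa using h1

/-- **lattice bound with a kernel modulo `p`** -/
theorem le_val_of_lattice_ker {P : Par} {c0 s : ℕ} {x : ℚ} {σ : Fin (P.D0 * s) × Fin 8 → Cl}
    (hσ : Adm P c0 s σ) (hdet : (Mx (P.D0 * s) x σ).det ≠ 0)
    (e : Fin 8 → ℤ) (t0 t1 : ℤ) (H : ℕ → ℚ) (hH : H 0 = 1) (w : Cl → ℤ)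
    (hint : ∀ c : Cl, c.2 < P.ht c.1 * s + c0 → ∀ r,
      padicNorm p (latRow p (P.D0 * s) e t0 t1 H x r c) ≤ (p : ℚ) ^ (-w c))
    (W : Submodule (ZMod p) (Fin (P.D0 * s) × Fin 8 → ZMod p))
    (V : Submodule (ZMod p) (Cl → ZMod p)) [FiniteDimensional (ZMod p) V]
    (hWV : ∀ v ∈ W, ∃ g ∈ V, ∀ c : Cl, c.2 < P.ht c.1 * s + c0 →
      ∑ r, v r * ((latRow p (P.D0 * s) e t0 t1 H x r c * (p : ℚ) ^ (-w c) : ℚ) : ZMod p) = g c) :
    ∑ c, w (σ c) + ((finrank (ZMod p) W : ℤ) - finrank (ZMod p) V)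
      - latIdx p (P.D0 * s) e t0 t1 ≤ padicValRat p (Mx (P.D0 * s) x σ).det := by
  have hp0 : (p : ℚ) ≠ 0 := by exact_mod_cast hp.out.ne_zero
  refine le_padicValRat_of_norm hdet ?_
  refine padicNorm_det_le_lattice (p := p) (Mx (P.D0 * s) x σ) (latN p (P.D0 * s) e t0 t1 H)
    (latIdx p (P.D0 * s) e t0 t1) (fun c => w (σ c)) _ (norm_det_latN _ e t0 t1 H hH) ?_
  refine padicNorm_det_le_finrank _ (fun i c => ?_) σ W V fun v hv => ?_
  · rw [latN_mul_Mx, padicNorm.mul, padicNorm_zpow', padicNorm.padicNorm_p hp.out.one_lt,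
      _root_.inv_zpow, _root_.zpow_neg, inv_inv]
    calc _ ≤ (p : ℚ) ^ (-w (σ c)) * (p : ℚ) ^ (w (σ c)) :=
          mul_le_mul_of_nonneg_right (hint _ (hσ.2 c) _) (zpow_pos' _).le
      _ = 1 := by rw [← zpow_add₀ hp0]; simp
  · obtain ⟨g, hg, hgc⟩ := hWV v hv
    refine ⟨g, hg, fun c => ?_⟩
    rw [← hgc (σ c) (hσ.2 c)]
    refine Finset.sum_congr rfl fun i _ => ?_
    rw [latN_mul_Mx]

/-! ### the bound (B) -/

theorem ent1_eq_zero (D : ℕ) {g : Gp} (hg : g ≠ .z1) (k i : ℕ) (j : Fin 8) :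
    ent1 D g k i j = 0 := by
  cases g <;> first | exact absurd rfl hg | simp [ent1, tup1]

/-- exponents of the rows of the Frobenius lattice -/
def wr8 : Fin 8 → ℤ := ![0, 1, 1, 2, 2, 2, 2, 2]

/-- **integrality on the Frobenius lattice**: weights `wg` of the groups, bounds (O1), (O2) for the
entries -/
theorem latRow_le {D : ℕ} {x : ℚ} (hx : padicNorm p x ≤ 1) {H : ℕ → ℚ} {wg : Gp → ℤ}
    (hz1 : wg .z1 = 0) (hw2 : ∀ g, wg g ≤ 2) {N : Gp → ℕ}
    (h0 : ∀ g k i j, k < N g → i < D →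
      padicNorm p (ent0 D g k i j) ≤ (p : ℚ) ^ (-(wg g - wr8 j)))
    (h1 : ∀ g k i j, k < N g → i < D → padicNorm p (ent1 D g k i j) ≤ 1)
    (h2 : ∀ g k a, k < N g → a + p ≤ D → padicNorm p (∑ q ∈ Finset.range p,
      H q * ent0 D g k (a + q) 7 - ∑ q ∈ Finset.range p, (q : ℚ) * H q * ent0 D g k (a + q) 6)
        ≤ (p : ℚ) ^ (-(wg g - 1)))
    (h3 : ∀ g k a, k < N g → a + p ≤ D → padicNorm p (∑ q ∈ Finset.range p,
      H q * ent1 D g k (a + q) 7 - ∑ q ∈ Finset.range p, (q : ℚ) * H q * ent1 D g k (a + q) 6)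
        ≤ (p : ℚ) ^ (-(1 : ℤ)))
    (c : Cl) (hc : c.2 < N c.1) (r : Fin D × Fin 8) :
    padicNorm p (latRow p D wr8 1 2 H x r c) ≤ (p : ℚ) ^ (-wg c.1) := by
  have hp0 : (p : ℚ) ≠ 0 := by exact_mod_cast hp.out.ne_zero
  have hp1 : (1 : ℚ) ≤ p := by exact_mod_cast hp.out.one_lt.le
  have hpow : ∀ a : ℤ, padicNorm p ((p : ℚ) ^ a) = (p : ℚ) ^ (-a) := fun a => by
    rw [padicNorm_zpow', padicNorm.padicNorm_p hp.out.one_lt, _root_.inv_zpow, _root_.zpow_neg]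
  unfold latRow
  split_ifs with h
  · have e1 : ∑ q ∈ Finset.range p,
          H q * (ent0 D c.1 c.2 (r.1 + q) 7 + x * ent1 D c.1 c.2 (r.1 + q) 7)
        - ∑ q ∈ Finset.range p,
          (q : ℚ) * H q * (ent0 D c.1 c.2 (r.1 + q) 6 + x * ent1 D c.1 c.2 (r.1 + q) 6)
        = (∑ q ∈ Finset.range p, H q * ent0 D c.1 c.2 (r.1 + q) 7
            - ∑ q ∈ Finset.range p, (q : ℚ) * H q * ent0 D c.1 c.2 (r.1 + q) 6)
          + x * (∑ q ∈ Finset.range p, H q * ent1 D c.1 c.2 (r.1 + q) 7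
            - ∑ q ∈ Finset.range p, (q : ℚ) * H q * ent1 D c.1 c.2 (r.1 + q) 6) := by
      rw [mul_sub, Finset.mul_sum, Finset.mul_sum]
      have e2 : ∑ q ∈ Finset.range p,
          H q * (ent0 D c.1 c.2 (r.1 + q) 7 + x * ent1 D c.1 c.2 (r.1 + q) 7)
          = ∑ q ∈ Finset.range p, H q * ent0 D c.1 c.2 (r.1 + q) 7
            + ∑ q ∈ Finset.range p, x * (H q * ent1 D c.1 c.2 (r.1 + q) 7) := by
        rw [← Finset.sum_add_distrib]
        exact Finset.sum_congr rfl fun q _ => by ring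
      have e3 : ∑ q ∈ Finset.range p,
          (q : ℚ) * H q * (ent0 D c.1 c.2 (r.1 + q) 6 + x * ent1 D c.1 c.2 (r.1 + q) 6)
          = ∑ q ∈ Finset.range p, (q : ℚ) * H q * ent0 D c.1 c.2 (r.1 + q) 6
            + ∑ q ∈ Finset.range p, x * ((q : ℚ) * H q * ent1 D c.1 c.2 (r.1 + q) 6) := by
        rw [← Finset.sum_add_distrib]
        exact Finset.sum_congr rfl fun q _ => by ring
      rw [e2, e3]
      ring
    rw [e1, padicNorm.mul, hpow]
    have h4 := h2 c.1 c.2 r.1 hc h.2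
    have h5 := h3 c.1 c.2 r.1 hc h.2
    have h6 : ∀ A B : ℚ, padicNorm p A ≤ (p : ℚ) ^ (-(wg c.1 - 1)) →
        padicNorm p B ≤ (p : ℚ) ^ (-(1 : ℤ)) →
        padicNorm p (A + x * B) ≤ (p : ℚ) ^ (-(wg c.1 - 1)) := by
      intro A B hA hB
      refine (padicNorm.nonarchimedean).trans (max_le hA ?_)
      rw [padicNorm.mul]
      calc padicNorm p x * padicNorm p B ≤ 1 * (p : ℚ) ^ (-(1 : ℤ)) :=
            mul_le_mul hx hB (padicNorm.nonneg _) zero_le_one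
        _ ≤ _ := by
            rw [one_mul]
            exact zpow_le_zpow_right₀ hp1 (by have := hw2 c.1; omega)
    calc (p : ℚ) ^ (-(1 : ℤ)) * _ ≤ (p : ℚ) ^ (-(1 : ℤ)) * (p : ℚ) ^ (-(wg c.1 - 1)) :=
          mul_le_mul_of_nonneg_left (h6 _ _ h4 h5) (zpow_pos' _).le
      _ = (p : ℚ) ^ (-wg c.1) := by rw [← zpow_add₀ hp0]; congr 1; ring
  · rw [padicNorm.mul, hpow]
    have hE : wr8 r.2 ≤ latE p D wr8 1 2 r := by
      unfold latE
      by_cases h7 : r.2 = 7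
      · have h8 : ¬ (r.1 : ℕ) + p ≤ D := fun h8 => h ⟨h7, h8⟩
        simp only [h7, if_true, if_neg h8]
        decide
      · simp only [h7, if_false]
        exact le_rfl
    have h4 := h0 c.1 c.2 r.1 r.2 hc r.1.2
    have hwr0 : 0 ≤ wr8 r.2 := by
      generalize r.2 = j
      fin_cases j <;> decide
    have h6 : padicNorm p (ent0 D c.1 c.2 r.1 r.2 + x * ent1 D c.1 c.2 r.1 r.2)
        ≤ (p : ℚ) ^ (-(wg c.1 - wr8 r.2)) := by
      refine (padicNorm.nonarchimedean).trans (max_le h4 ?_)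
      by_cases hg : c.1 = .z1
      · rw [padicNorm.mul, hg, hz1]
        calc padicNorm p x * padicNorm p _ ≤ 1 * 1 :=
              mul_le_mul hx (hg ▸ h1 c.1 c.2 r.1 r.2 hc r.1.2) (padicNorm.nonneg _) zero_le_one
          _ = (p : ℚ) ^ (0 : ℤ) := by simp
          _ ≤ _ := zpow_le_zpow_right₀ hp1 (by omega)
      · rw [ent1_eq_zero D hg, mul_zero, padicNorm.zero]
        exact (zpow_pos' _).le
    calc (p : ℚ) ^ (-latE p D wr8 1 2 r) * _
        ≤ (p : ℚ) ^ (-latE p D wr8 1 2 r) * (p : ℚ) ^ (-(wg c.1 - wr8 r.2)) :=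
          mul_le_mul_of_nonneg_left h6 (zpow_pos' _).le
      _ = (p : ℚ) ^ (-latE p D wr8 1 2 r + -(wg c.1 - wr8 r.2)) := by rw [← zpow_add₀ hp0]
      _ ≤ _ := zpow_le_zpow_right₀ hp1 (by omega)

theorem latIdx_B {D : ℕ} (hp1 : 1 ≤ p) (h : p ≤ D + 1) :
    latIdx p D wr8 1 2 = 11 * (D : ℤ) + p - 1 := by
  have e1 : ((D + 1 - p : ℕ) : ℤ) = D + 1 - p := by omega
  have e2 : ((D - (D + 1 - p) : ℕ) : ℤ) = p - 1 := by omega
  have e3 : wr8 0 + wr8 1 + wr8 2 + wr8 3 + wr8 4 + wr8 5 + wr8 6 = 10 := by decide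
  unfold latIdx
  rw [e1, e2, e3]
  ring

/-- **(B)**: the index `11 D + p - 1` and the weights of the columns -/
theorem le_val_B {P : Par} {c0 s : ℕ} {x : ℚ} {σ : Fin (P.D0 * s) × Fin 8 → Cl}
    (hσ : Adm P c0 s σ) (hdet : (Mx (P.D0 * s) x σ).det ≠ 0) (hpD : p ≤ P.D0 * s)
    (hx : padicNorm p x ≤ 1) {H : ℕ → ℚ} (hH : H 0 = 1) {wg : Gp → ℤ}
    (hz1 : wg .z1 = 0) (hw2 : ∀ g, wg g ≤ 2)
    (h0 : ∀ g k i j, k < P.ht g * s + c0 → i < P.D0 * s →
      padicNorm p (ent0 (P.D0 * s) g k i j) ≤ (p : ℚ) ^ (-(wg g - wr8 j)))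
    (h1 : ∀ g k i j, k < P.ht g * s + c0 → i < P.D0 * s →
      padicNorm p (ent1 (P.D0 * s) g k i j) ≤ 1)
    (h2 : ∀ g k a, k < P.ht g * s + c0 → a + p ≤ P.D0 * s →
      padicNorm p (∑ q ∈ Finset.range p, H q * ent0 (P.D0 * s) g k (a + q) 7
        - ∑ q ∈ Finset.range p, (q : ℚ) * H q * ent0 (P.D0 * s) g k (a + q) 6)
        ≤ (p : ℚ) ^ (-(wg g - 1)))
    (h3 : ∀ g k a, k < P.ht g * s + c0 → a + p ≤ P.D0 * s →
      padicNorm p (∑ q ∈ Finset.range p, H q * ent1 (P.D0 * s) g k (a + q) 7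
        - ∑ q ∈ Finset.range p, (q : ℚ) * H q * ent1 (P.D0 * s) g k (a + q) 6)
        ≤ (p : ℚ) ^ (-(1 : ℤ))) :
    5 * ((P.D0 * s : ℕ) : ℤ) - p + 1 - ∑ g : Gp, (2 - wg g) * (P.ht g * s + c0 : ℕ)
      ≤ padicValRat p (Mx (P.D0 * s) x σ).det := by
  have h4 := le_val_of_lattice (p := p) hσ hdet wr8 1 2 H hH (fun c => wg c.1)
    (fun c hc r => latRow_le (N := fun g => P.ht g * s + c0) hx hz1 hw2 h0 h1 h2 h3 c hc r)
  have h5 := sum_weight_ge hσ (fun c => wg c.1) 2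
  have h6 : ∑ g : Gp, ∑ k ∈ Finset.range (P.ht g * s + c0), max (2 - wg g) 0
      = ∑ g : Gp, (2 - wg g) * (P.ht g * s + c0 : ℕ) := by
    refine Finset.sum_congr rfl fun g _ => ?_
    rw [Finset.sum_const, Finset.card_range, nsmul_eq_mul,
      max_eq_left (by have := hw2 g; omega)]
    ring
  have h7 := latIdx_B (p := p) (D := P.D0 * s) hp.out.one_lt.le (by omega)
  simp only at h5
  rw [h6] at h5
  rw [h7] at h4
  linarith

end Vale.Agent.P030.H792
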