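import Vale.Agent.P030.H792.Lattice

/-!
# Three lattices `m = 0, 1, 2` in one statement

`m = 0` is the Frobenius lattice (B), `m = 1` is the lattice (II), `m = 2` the standard lattice (I).
-/

open Finset Module Matrix

namespace Vale.Agent.P030.H792

open Vale.Agent.P030.T

variable {p : ℕ} [hp : Fact p.Prime]

/-- the local input at `p` : weights of the groups, (O1), (O2), (O3) -/
structure LocIn (p D : ℕ) (N : Gp → ℕ) (wg : Gp → ℤ) (H : ℕ → ℚ) : Prop where
  H0 : H 0 = 1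
  Hint : ∀ q, q < p → padicNorm p (H q) ≤ 1
  z1 : wg .z1 = 0
  nn : ∀ g, 0 ≤ wg g
  le2 : ∀ g, wg g ≤ 2
  o2 : ∀ g k i j, k < N g → i < D → padicNorm p (ent0 D g k i j) ≤ (p : ℚ) ^ (-(wg g - wr8 j))
  o2' : ∀ g k i j, k < N g → i < D → padicNorm p (ent1 D g k i j) ≤ 1
  o1 : ∀ g k a, k < N g → a + p ≤ D → padicNorm p (∑ q ∈ Finset.range p,
      H q * ent0 D g k (a + q) 7 - ∑ q ∈ Finset.range p, (q : ℚ) * H q * ent0 D g k (a + q) 6)
        ≤ (p : ℚ) ^ (-(wg g - 1))
  o1' : ∀ g k a, k < N g → a + p ≤ D → padicNorm p (∑ q ∈ Finset.range p,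
      H q * ent1 D g k (a + q) 7 - ∑ q ∈ Finset.range p, (q : ℚ) * H q * ent1 D g k (a + q) 6)
        ≤ (p : ℚ) ^ (-(1 : ℤ))
  o3 : ∀ g k i j, k < N g → k + 3 < p → i < D → padicNorm p (ent0 D g k i j) ≤ 1

/-- row exponents of the lattice `m` -/
def em (m : ℤ) (j : Fin 8) : ℤ := max (wr8 j - m) 0

/-- weights of the columns for the lattice `m` -/
def wm (p : ℕ) (wg : Gp → ℤ) (m : ℤ) (c : Cl) : ℤ :=
  if c.2 + 3 < p then max (wg c.1 - m) 0 else wg c.1 - m

theorem wr8_nonneg (j : Fin 8) : 0 ≤ wr8 j := by fin_cases j <;> decide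

theorem wr8_le (j : Fin 8) : wr8 j ≤ 2 := by fin_cases j <;> decide

theorem latRow_le_m {D : ℕ} {x : ℚ} (hx : padicNorm p x ≤ 1) {H : ℕ → ℚ} {wg : Gp → ℤ}
    {N : Gp → ℕ} (h : LocIn p D N wg H) (m : ℤ)
    (c : Cl) (hc : c.2 < N c.1) (r : Fin D × Fin 8) :
    padicNorm p (latRow p D (em m) (max (1 - m) 0) (max (2 - m) 0) H x r c)
      ≤ (p : ℚ) ^ (-wm p wg m c) := by
  have hp0 : (p : ℚ) ≠ 0 := by exact_mod_cast hp.out.ne_zero
  have hp1 : (1 : ℚ) ≤ p := by exact_mod_cast hp.out.one_lt.le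
  have hpow : ∀ a : ℤ, padicNorm p ((p : ℚ) ^ a) = (p : ℚ) ^ (-a) := fun a => by
    rw [padicNorm_zpow', padicNorm.padicNorm_p hp.out.one_lt, _root_.inv_zpow, _root_.zpow_neg]
  -- two bounds for a single entry
  have hx1 : ∀ i j, i < D → padicNorm p (x * ent1 D c.1 c.2 i j) ≤ 1 := by
    intro i j hi
    rw [padicNorm.mul]
    calc padicNorm p x * padicNorm p _ ≤ 1 * 1 :=
          mul_le_mul hx (h.o2' c.1 c.2 i j hc hi) (padicNorm.nonneg _) zero_le_one
      _ = 1 := one_mul 1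
  have hE2 : ∀ i j, i < D → padicNorm p (ent0 D c.1 c.2 i j + x * ent1 D c.1 c.2 i j)
      ≤ (p : ℚ) ^ (-(wg c.1 - wr8 j)) := by
    intro i j hi
    refine (padicNorm.nonarchimedean).trans (max_le (h.o2 c.1 c.2 i j hc hi) ?_)
    by_cases hg : c.1 = .z1
    · refine (hx1 i j hi).trans ?_
      rw [hg, h.z1]
      calc (1 : ℚ) = (p : ℚ) ^ (0 : ℤ) := by simp
        _ ≤ _ := zpow_le_zpow_right₀ hp1 (by have := wr8_nonneg j; omega)
    · rw [ent1_eq_zero D hg, mul_zero, padicNorm.zero]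
      exact (zpow_pos' _).le
  have hE3 : c.2 + 3 < p → ∀ i j, i < D →
      padicNorm p (ent0 D c.1 c.2 i j + x * ent1 D c.1 c.2 i j) ≤ 1 := by
    intro hk i j hi
    exact (padicNorm.nonarchimedean).trans (max_le (h.o3 c.1 c.2 i j hc hk hi) (hx1 i j hi))
  unfold latRow
  split_ifs with hcor
  · rw [padicNorm.mul, hpow]
    have hi : ∀ q, q < p → (r.1 : ℕ) + q < D := fun q hq => by have := hcor.2; omega
    -- second bound: from (O1)
    have e1 : ∑ q ∈ Finset.range p,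
          H q * (ent0 D c.1 c.2 (r.1 + q) 7 + x * ent1 D c.1 c.2 (r.1 + q) 7)
        - ∑ q ∈ Finset.range p,
          (q : ℚ) * H q * (ent0 D c.1 c.2 (r.1 + q) 6 + x * ent1 D c.1 c.2 (r.1 + q) 6)
        = (∑ q ∈ Finset.range p, H q * ent0 D c.1 c.2 (r.1 + q) 7
            - ∑ q ∈ Finset.range p, (q : ℚ) * H q * ent0 D c.1 c.2 (r.1 + q) 6)
          + x * (∑ q ∈ Finset.range p, H q * ent1 D c.1 c.2 (r.1 + q) 7
            - ∑ q ∈ Finset.range p, (q : ℚ) * H q * ent1 D c.1 c.2 (r.1 + q) 6) := by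
      rw [mul_sub, Finset.mul_sum, Finset.mul_sum]
      have e2 : ∑ q ∈ Finset.range p,
          H q * (ent0 D c.1 c.2 (r.1 + q) 7 + x * ent1 D c.1 c.2 (r.1 + q) 7)
          = ∑ q ∈ Finset.range p, H q * ent0 D c.1 c.2 (r.1 + q) 7
            + ∑ q ∈ Finset.range p, x * (H q * ent1 D c.1 c.2 (r.1 + q) 7) := by
        rw [← Finset.sum_add_distrib]
        exact Finset.sum_congr rfl fun q _ => by ring
      have e3 : ∑ q ∈ Finset.range p,
          (q : ℚ) * H q * (ent0 D c.1 c.2 (r.1 + q) 6 + x * ent1 D c.1 c.2 (r.1 + q) 6)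
          = ∑ q ∈ Finset.range p, (q : ℚ) * H q * ent0 D c.1 c.2 (r.1 + q) 6
            + ∑ q ∈ Finset.range p, x * ((q : ℚ) * H q * ent1 D c.1 c.2 (r.1 + q) 6) := by
        rw [← Finset.sum_add_distrib]
        exact Finset.sum_congr rfl fun q _ => by ring
      rw [e2, e3]
      ring
    set S : ℚ := ∑ q ∈ Finset.range p,
          H q * (ent0 D c.1 c.2 (r.1 + q) 7 + x * ent1 D c.1 c.2 (r.1 + q) 7)
        - ∑ q ∈ Finset.range p,
          (q : ℚ) * H q * (ent0 D c.1 c.2 (r.1 + q) 6 + x * ent1 D c.1 c.2 (r.1 + q) 6) with hS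
    have hS1 : padicNorm p S ≤ (p : ℚ) ^ (-(wg c.1 - 1)) := by
      rw [e1]
      refine (padicNorm.nonarchimedean).trans (max_le (h.o1 c.1 c.2 r.1 hc hcor.2) ?_)
      rw [padicNorm.mul]
      calc padicNorm p x * padicNorm p _ ≤ 1 * (p : ℚ) ^ (-(1 : ℤ)) :=
            mul_le_mul hx (h.o1' c.1 c.2 r.1 hc hcor.2) (padicNorm.nonneg _) zero_le_one
        _ ≤ _ := by
            rw [one_mul]
            exact zpow_le_zpow_right₀ hp1 (by have := h.le2 c.1; omega)
    have hS3 : c.2 + 3 < p → padicNorm p S ≤ 1 := by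
      intro hk
      rw [hS]
      refine (padicNorm.sub).trans (max_le ?_ ?_)
      · refine padicNorm_sum_le' _ zero_le_one fun q hq => ?_
        rw [padicNorm.mul]
        exact mul_le_one₀ (h.Hint q (Finset.mem_range.1 hq)) (padicNorm.nonneg _)
          (hE3 hk _ _ (hi q (Finset.mem_range.1 hq)))
      · refine padicNorm_sum_le' _ zero_le_one fun q hq => ?_
        rw [padicNorm.mul, padicNorm.mul]
        exact mul_le_one₀ (mul_le_one₀ (padicNorm.of_nat q) (padicNorm.nonneg _)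
          (h.Hint q (Finset.mem_range.1 hq))) (padicNorm.nonneg _)
          (hE3 hk _ _ (hi q (Finset.mem_range.1 hq)))
    have b1 : (p : ℚ) ^ (-(max (1 - m) 0)) * padicNorm p S ≤ (p : ℚ) ^ (-(wg c.1 - m)) := by
      calc _ ≤ (p : ℚ) ^ (-(max (1 - m) 0)) * (p : ℚ) ^ (-(wg c.1 - 1)) :=
            mul_le_mul_of_nonneg_left hS1 (zpow_pos' _).le
        _ = (p : ℚ) ^ (-(max (1 - m) 0) + -(wg c.1 - 1)) := by rw [← zpow_add₀ hp0]
        _ ≤ _ := zpow_le_zpow_right₀ hp1 (by have := le_max_left (1 - m) 0; omega)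
    unfold wm
    split_ifs with hk
    · rcases le_total (wg c.1 - m) 0 with hle | hle
      · rw [max_eq_right hle]
        calc _ ≤ (p : ℚ) ^ (-(max (1 - m) 0)) * 1 :=
              mul_le_mul_of_nonneg_left (hS3 hk) (zpow_pos' _).le
          _ ≤ _ := by
              rw [mul_one]
              exact zpow_le_zpow_right₀ hp1 (by have := le_max_right (1 - m) 0; omega)
      · rw [max_eq_left hle]; exact b1
    · exact b1
  · rw [padicNorm.mul, hpow]
    have hE : em m r.2 ≤ latE p D (em m) (max (1 - m) 0) (max (2 - m) 0) r := by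
      unfold latE
      by_cases h7 : r.2 = 7
      · have h8 : ¬ (r.1 : ℕ) + p ≤ D := fun h8 => hcor ⟨h7, h8⟩
        simp only [h7, if_true, if_neg h8]
        unfold em
        have : wr8 7 = 2 := by decide
        rw [this]
      · simp only [h7, if_false]
        exact le_rfl
    have hE0 : 0 ≤ em m r.2 := le_max_right _ _
    have hE1 : wr8 r.2 - m ≤ em m r.2 := le_max_left _ _
    have b1 : (p : ℚ) ^ (-latE p D (em m) (max (1 - m) 0) (max (2 - m) 0) r)
        * padicNorm p (ent0 D c.1 c.2 r.1 r.2 + x * ent1 D c.1 c.2 r.1 r.2)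
        ≤ (p : ℚ) ^ (-(wg c.1 - m)) := by
      calc _ ≤ (p : ℚ) ^ (-latE p D (em m) (max (1 - m) 0) (max (2 - m) 0) r)
            * (p : ℚ) ^ (-(wg c.1 - wr8 r.2)) :=
            mul_le_mul_of_nonneg_left (hE2 _ _ r.1.2) (zpow_pos' _).le
        _ = (p : ℚ) ^ (-latE p D (em m) (max (1 - m) 0) (max (2 - m) 0) r
            + -(wg c.1 - wr8 r.2)) := by rw [← zpow_add₀ hp0]
        _ ≤ _ := zpow_le_zpow_right₀ hp1 (by omega)
    unfold wm
    split_ifs with hk
    · rcases le_total (wg c.1 - m) 0 with hle | hle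
      · rw [max_eq_right hle]
        calc _ ≤ (p : ℚ) ^ (-latE p D (em m) (max (1 - m) 0) (max (2 - m) 0) r) * 1 :=
              mul_le_mul_of_nonneg_left (hE3 hk _ _ r.1.2) (zpow_pos' _).le
          _ ≤ _ := by
              rw [mul_one]
              exact zpow_le_zpow_right₀ hp1 (by omega)
      · rw [max_eq_left hle]; exact b1
    · exact b1

/-- **the three lattice bounds** -/
theorem le_val_m {P : Par} {c0 s : ℕ} {x : ℚ} {σ : Fin (P.D0 * s) × Fin 8 → Cl}
    (hσ : Adm P c0 s σ) (hdet : (Mx (P.D0 * s) x σ).det ≠ 0)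
    (hx : padicNorm p x ≤ 1) {H : ℕ → ℚ} {wg : Gp → ℤ}
    (h : LocIn p (P.D0 * s) (fun g => P.ht g * s + c0) wg H) {m : ℤ} (hm0 : 0 ≤ m) (hm2 : m ≤ 2) :
    8 * (2 - m) * ((P.D0 * s : ℕ) : ℤ)
        - latIdx p (P.D0 * s) (em m) (max (1 - m) 0) (max (2 - m) 0)
        - ∑ g : Gp, ((2 - wg g) * (P.ht g * s + c0 : ℕ)
          - max (m - wg g) 0 * (min (P.ht g * s + c0) (p - 3) : ℕ))
      ≤ padicValRat p (Mx (P.D0 * s) x σ).det := by
  have h4 := le_val_of_lattice (p := p) hσ hdet (em m) (max (1 - m) 0) (max (2 - m) 0) H h.H0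
    (wm p wg m) (fun c hc r => latRow_le_m hx h m c hc r)
  have h5 := sum_weight_ge hσ (wm p wg m) (2 - m)
  have h6 : ∑ g : Gp, ∑ k ∈ Finset.range (P.ht g * s + c0), max (2 - m - wm p wg m (g, k)) 0
      ≤ ∑ g : Gp, ((2 - wg g) * (P.ht g * s + c0 : ℕ)
          - max (m - wg g) 0 * (min (P.ht g * s + c0) (p - 3) : ℕ)) := by
    refine Finset.sum_le_sum fun g _ => ?_
    have h7 : ∀ k ∈ Finset.range (P.ht g * s + c0), max (2 - m - wm p wg m (g, k)) 0
        ≤ (2 - wg g) - (if k < p - 3 then max (m - wg g) 0 else 0) := by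
      intro k _
      have hle2 := h.le2 g
      have hnn := h.nn g
      unfold wm
      by_cases hk : k + 3 < p
      · have hk' : k < p - 3 := by omega
        simp only [hk, if_true, hk']
        omega
      · have hk' : ¬ k < p - 3 := by omega
        simp only [hk, if_false, hk']
        omega
    refine (Finset.sum_le_sum h7).trans (le_of_eq ?_)
    rw [Finset.sum_sub_distrib, Finset.sum_const, Finset.card_range, nsmul_eq_mul]
    have h8 : ∑ k ∈ Finset.range (P.ht g * s + c0), (if k < p - 3 then max (m - wg g) 0 else 0)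
        = max (m - wg g) 0 * (min (P.ht g * s + c0) (p - 3) : ℕ) := by
      rw [← Finset.sum_filter, Finset.sum_const, nsmul_eq_mul, mul_comm]
      congr 2
      have : (Finset.range (P.ht g * s + c0)).filter (fun k => k < p - 3)
          = Finset.range (min (P.ht g * s + c0) (p - 3)) := by
        ext k
        simp [Finset.mem_filter, lt_min_iff]
      rw [this, Finset.card_range]
    rw [h8]
    ring
  linarith

theorem latIdx_m0 {D : ℕ} :
    latIdx p D (em 0) (max (1 - 0) 0) (max (2 - 0) 0)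
      = 10 * (D : ℤ) + ((D + 1 - p : ℕ) : ℤ) + 2 * ((D - (D + 1 - p) : ℕ) : ℤ) := by
  unfold latIdx
  have e3 : em 0 0 + em 0 1 + em 0 2 + em 0 3 + em 0 4 + em 0 5 + em 0 6 = 10 := by decide
  have e4 : max (1 - 0 : ℤ) 0 = 1 := by decide
  have e5 : max (2 - 0 : ℤ) 0 = 2 := by decide
  rw [e3, e4, e5]
  ring

theorem latIdx_m1 {D : ℕ} :
    latIdx p D (em 1) (max (1 - 1) 0) (max (2 - 1) 0)
      = 4 * (D : ℤ) + ((D - (D + 1 - p) : ℕ) : ℤ) := by
  unfold latIdx
  have e3 : em 1 0 + em 1 1 + em 1 2 + em 1 3 + em 1 4 + em 1 5 + em 1 6 = 4 := by decide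
  have e4 : max (1 - 1 : ℤ) 0 = 0 := by decide
  have e5 : max (2 - 1 : ℤ) 0 = 1 := by decide
  rw [e3, e4, e5]
  ring

theorem latIdx_m2 {D : ℕ} :
    latIdx p D (em 2) (max (1 - 2) 0) (max (2 - 2) 0) = 0 := by
  unfold latIdx
  have e3 : em 2 0 + em 2 1 + em 2 2 + em 2 3 + em 2 4 + em 2 5 + em 2 6 = 0 := by decide
  have e4 : max (1 - 2 : ℤ) 0 = 0 := by decide
  have e5 : max (2 - 2 : ℤ) 0 = 0 := by decide
  rw [e3, e4, e5]
  ring

end Vale.Agent.P030.H792
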