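import Vale.Agent.P030.H404.Triv
import Vale.Agent.P030.H792.Lat3

/-!
# The three lattice bounds as local cost profiles
-/

open Finset

namespace Vale.Agent.P030.H792

open Vale.Agent.P030.T

/-- the number of rows of the lattice index, per `s`, at `p = t s` -/
noncomputable def idxm (D0 : ℕ) (m : ℤ) (t : ℝ) : ℝ :=
  ((em m 0 + em m 1 + em m 2 + em m 3 + em m 4 + em m 5 + em m 6 : ℤ) : ℝ) * D0
    + ((max (1 - m) 0 : ℤ) : ℝ) * max (D0 - t) 0 + ((max (2 - m) 0 : ℤ) : ℝ) * min (D0 : ℝ) t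

/-- the cost profile of the lattice `m` -/
noncomputable def cstm (P : Par) (wg : Gp → ℤ) (m : ℤ) (t : ℝ) : ℝ :=
  idxm P.D0 m t - 8 * (2 - m) * P.D0
    + ∑ g : Gp, ((2 - (wg g : ℝ)) * P.ht g - ((max (m - wg g) 0 : ℤ) : ℝ) * min (P.ht g : ℝ) t)

theorem norm_x_le_one {p : ℕ} [hp : Fact p.Prime] {x : ℚ} (h : x.den < p) :
    padicNorm p x ≤ 1 := by
  refine norm_of_den_ne_zero ?_
  intro h0
  rw [ZMod.natCast_eq_zero_iff] at h0
  exact absurd (Nat.le_of_dvd x.den_pos h0) (by omega)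

theorem latIdx_le {p D : ℕ} (hp1 : 1 ≤ p) {m : ℤ} (hm0 : 0 ≤ m) :
    (latIdx p D (em m) (max (1 - m) 0) (max (2 - m) 0) : ℝ)
      ≤ ((em m 0 + em m 1 + em m 2 + em m 3 + em m 4 + em m 5 + em m 6 : ℤ) : ℝ) * D
        + ((max (1 - m) 0 : ℤ) : ℝ) * max ((D : ℝ) - p) 0
        + ((max (2 - m) 0 : ℤ) : ℝ) * min (D : ℝ) p + 1 := by
  unfold latIdx
  have h1 : ((D + 1 - p : ℕ) : ℝ) ≤ max ((D : ℝ) - p) 0 + 1 := by
    rcases le_total p (D + 1) with h | h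
    · have : ((D + 1 - p : ℕ) : ℝ) = D + 1 - p := by
        rw [Nat.cast_sub h]; push_cast; ring
      rw [this]
      have := le_max_left ((D : ℝ) - p) 0
      linarith
    · rw [Nat.sub_eq_zero_of_le h]
      have := le_max_right ((D : ℝ) - p) 0
      push_cast
      linarith
  have h2 : ((D - (D + 1 - p) : ℕ) : ℝ) ≤ min (D : ℝ) p := by
    refine le_min ?_ ?_
    · exact_mod_cast Nat.sub_le _ _
    · exact_mod_cast (by omega : D - (D + 1 - p) ≤ p)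
  have h3 : ((max (1 - m) 0 : ℤ) : ℝ) ≤ 1 := by
    exact_mod_cast max_le (by omega) zero_le_one
  have h4 : (0 : ℝ) ≤ ((max (1 - m) 0 : ℤ) : ℝ) := by exact_mod_cast le_max_right _ _
  have h5 : (0 : ℝ) ≤ ((max (2 - m) 0 : ℤ) : ℝ) := by exact_mod_cast le_max_right _ _
  have h6 := mul_le_mul_of_nonneg_left h1 h4
  have h7 := mul_le_mul_of_nonneg_left h2 h5
  push_cast at h3 h4 h5 h6 h7 ⊢
  nlinarith

/-- thresholds -/
theorem exists_s0 (Hm c0 : ℕ) {C δ η : ℝ} (hδ : 0 < δ) (hη : 0 < η) :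
    ∃ s0 : ℕ, ∀ s : ℕ, s0 ≤ s → 0 < s ∧ C ≤ η * s ∧
      ∀ p : ℕ, δ * s < p → 5 ≤ p ∧ ∀ h, h ≤ Hm → h * s + c0 + 2 ≤ p ^ 2 := by
  obtain ⟨s1, hs1⟩ := exists_nat_gt (C / η)
  obtain ⟨s2, hs2⟩ := exists_nat_gt ((Hm + c0 + 2 : ℝ) / δ ^ 2)
  obtain ⟨s3, hs3⟩ := exists_nat_gt (5 / δ : ℝ)
  refine ⟨max (max s1 s2) (max s3 1), fun s hs => ?_⟩
  have hss1 : (s1 : ℝ) ≤ s := by
    exact_mod_cast ((le_max_left s1 s2).trans (le_max_left _ _)).trans hs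
  have hss2 : (s2 : ℝ) ≤ s := by
    exact_mod_cast ((le_max_right s1 s2).trans (le_max_left _ _)).trans hs
  have hss3 : (s3 : ℝ) ≤ s := by
    exact_mod_cast ((le_max_left s3 1).trans (le_max_right _ _)).trans hs
  have hs1N : 1 ≤ s := ((le_max_right s3 1).trans (le_max_right _ _)).trans hs
  have hs1' : (1 : ℝ) ≤ s := by exact_mod_cast hs1N
  refine ⟨by omega, ?_, fun p hp => ⟨?_, fun h hh => ?_⟩⟩
  · have h1 := (div_lt_iff₀ hη).1 hs1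
    have h2 := mul_le_mul_of_nonneg_right hss1 hη.le
    linarith
  · have h2 := (div_lt_iff₀ hδ).1 hs3
    have h3 := mul_le_mul_of_nonneg_right hss3 hδ.le
    have h1 : (5 : ℝ) < p := by linarith
    exact_mod_cast h1.le
  · have h1 : ((h * s + c0 + 2 : ℕ) : ℝ) ≤ (p : ℝ) ^ 2 := by
      have hδ2 : (0 : ℝ) < δ ^ 2 := by positivity
      have h2 := (div_lt_iff₀ hδ2).1 hs2
      have h3 : ((h : ℕ) : ℝ) ≤ Hm := by exact_mod_cast hh
      have h4 : (Hm + c0 + 2 : ℝ) ≤ s * δ ^ 2 := by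
        have := mul_le_mul_of_nonneg_right hss2 hδ2.le
        linarith
      have h5 : (Hm + c0 + 2 : ℝ) * s ≤ (s * δ ^ 2) * s :=
        mul_le_mul_of_nonneg_right h4 (by linarith)
      have h6 : (δ * s) ^ 2 ≤ (p : ℝ) ^ 2 := by
        have h8 : 0 ≤ δ * s := by positivity
        exact pow_le_pow_left₀ h8 hp.le 2
      have h7 : (0 : ℝ) ≤ c0 := Nat.cast_nonneg _
      have h9 : (h : ℝ) * s ≤ Hm * s := mul_le_mul_of_nonneg_right h3 (by linarith)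
      have h10 : (c0 + 2 : ℝ) * 1 ≤ (c0 + 2) * s := mul_le_mul_of_nonneg_left hs1' (by linarith)
      push_cast
      have h11 : (s * δ ^ 2) * s = (δ * s) ^ 2 := by ring
      linarith
    exact_mod_cast h1

/-- the contribution of one group -/
theorem group_term {s p h c0 : ℕ} (hs : 0 < s) (hp3 : 3 ≤ p) {w m : ℤ} (hw0 : 0 ≤ w)
    (hw2 : w ≤ 2) (hm2 : m ≤ 2) :
    (((2 - w) * (h * s + c0 : ℕ) - max (m - w) 0 * (min (h * s + c0) (p - 3) : ℕ) : ℤ) : ℝ)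
      ≤ s * ((2 - (w : ℝ)) * h - ((max (m - w) 0 : ℤ) : ℝ) * min (h : ℝ) (p / s))
        + (2 * c0 + 6) := by
  have hs0 : (0 : ℝ) < s := by exact_mod_cast hs
  have ht : (s : ℝ) * (p / s) = p := by field_simp
  have e2 : (s : ℝ) * min (h : ℝ) (p / s) = min ((h * s : ℕ) : ℝ) p := by
    rw [mul_min_of_nonneg _ _ hs0.le, ht]
    push_cast
    rw [mul_comm]
  have h7 : (0 : ℝ) ≤ c0 := Nat.cast_nonneg _
  have h3 : (min ((h * s : ℕ) : ℝ) p) - 3 ≤ ((min (h * s + c0) (p - 3) : ℕ) : ℝ) := by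
    rw [Nat.cast_min, Nat.cast_sub hp3]
    refine le_min ?_ ?_
    · have := min_le_left ((h * s : ℕ) : ℝ) p
      push_cast at this ⊢
      linarith
    · have := min_le_right ((h * s : ℕ) : ℝ) p
      push_cast at this ⊢
      linarith
  obtain ⟨M, hM⟩ : ∃ M : ℤ, max (m - w) 0 = M := ⟨_, rfl⟩
  have hM0 : 0 ≤ M := hM ▸ le_max_right _ _
  have hM2 : M ≤ 2 := hM ▸ max_le (by omega) (by norm_num)
  rw [hM]
  have h4 : (0 : ℝ) ≤ (M : ℝ) := by exact_mod_cast hM0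
  have h5 : (M : ℝ) ≤ 2 := by exact_mod_cast hM2
  have h8 := mul_le_mul_of_nonneg_left h3 h4
  have h10 : (s : ℝ) * ((M : ℝ) * min (h : ℝ) (p / s)) = (M : ℝ) * min ((h * s : ℕ) : ℝ) p := by
    rw [← e2]; ring
  have h11 : (s : ℝ) * ((2 - (w : ℝ)) * h - (M : ℝ) * min (h : ℝ) (p / s))
      = (2 - (w : ℝ)) * (h * s) - (M : ℝ) * min ((h * s : ℕ) : ℝ) p := by
    rw [mul_sub, h10]; ring
  have h12 : (2 - (w : ℝ)) * c0 ≤ 2 * c0 := by
    have : (0 : ℝ) ≤ (w : ℝ) := by exact_mod_cast hw0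
    exact mul_le_mul_of_nonneg_right (by linarith) h7
  rw [h11]
  push_cast at h8 ⊢
  linarith

/-- **local profile of the lattice `m`** -/
theorem loc_m {P : Par} {c0 : ℕ} {wg : Gp → ℤ} {H : ℕ → ℕ → ℚ}
    (hIn : ∀ (p : ℕ) [Fact p.Prime], 5 ≤ p → ∀ (D : ℕ) (N : Gp → ℕ), (∀ g, N g + 2 ≤ p ^ 2) →
      LocIn p D N wg (H p)) {m : ℤ} (hm0 : 0 ≤ m) (hm2 : m ≤ 2) :
    ∀ x : ℚ, ∀ δ : ℝ, 0 < δ → ∀ η : ℝ, 0 < η → ∃ s0 : ℕ, ∀ s : ℕ, s0 ≤ s →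
      ∀ p : ℕ, p.Prime → p ≠ 2 → x.den < p → δ * s < p →
      ∀ σ, Adm P c0 s σ → (Mx (P.D0 * s) x σ).det ≠ 0 →
      -(s * (cstm P wg m (p / s) + η)) ≤ (padicValRat p (Mx (P.D0 * s) x σ).det : ℝ) := by
  intro x δ hδ η hη
  obtain ⟨s0, hs0⟩ := exists_s0 (∑ g : Gp, P.ht g) c0 (C := 1 + 17 * (2 * c0 + 6)) hδ hη
  refine ⟨s0, fun s hs p hpp hp2 hxp hδp σ hσ hdet => ?_⟩
  have := Fact.mk hpp
  obtain ⟨hspos, hC, hpN⟩ := hs0 s hs
  obtain ⟨hp5, hN⟩ := hpN p hδp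
  have hs0 : (0 : ℝ) < s := by exact_mod_cast hspos
  have hL := hIn p hp5 (P.D0 * s) (fun g => P.ht g * s + c0) fun g =>
    hN _ (Finset.single_le_sum (f := P.ht) (fun _ _ => Nat.zero_le _) (Finset.mem_univ g))
  have h1 := le_val_m hσ hdet (norm_x_le_one hxp) hL hm0 hm2
  have h1' : (((8 * (2 - m) * ((P.D0 * s : ℕ) : ℤ)
        - latIdx p (P.D0 * s) (em m) (max (1 - m) 0) (max (2 - m) 0)
        - ∑ g : Gp, ((2 - wg g) * (P.ht g * s + c0 : ℕ)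
          - max (m - wg g) 0 * (min (P.ht g * s + c0) (p - 3) : ℕ)) : ℤ)) : ℝ)
      ≤ (padicValRat p (Mx (P.D0 * s) x σ).det : ℝ) := by exact_mod_cast h1
  refine le_trans ?_ h1'
  have h2 := latIdx_le (D := P.D0 * s) hpp.one_lt.le hm0
  have ht : (s : ℝ) * (p / s) = p := by field_simp
  have e1 : (s : ℝ) * max ((P.D0 : ℝ) - p / s) 0 = max (((P.D0 * s : ℕ) : ℝ) - p) 0 := by
    rw [mul_max_of_nonneg _ _ hs0.le, mul_sub, ht, mul_zero]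
    push_cast
    rw [mul_comm]
  have e2 : (s : ℝ) * min (P.D0 : ℝ) (p / s) = min ((P.D0 * s : ℕ) : ℝ) p := by
    rw [mul_min_of_nonneg _ _ hs0.le, ht]
    push_cast
    rw [mul_comm]
  have e3 : (s : ℝ) * idxm P.D0 m (p / s)
      = ((em m 0 + em m 1 + em m 2 + em m 3 + em m 4 + em m 5 + em m 6 : ℤ) : ℝ)
          * ((P.D0 * s : ℕ) : ℝ)
        + ((max (1 - m) 0 : ℤ) : ℝ) * max (((P.D0 * s : ℕ) : ℝ) - p) 0
        + ((max (2 - m) 0 : ℤ) : ℝ) * min ((P.D0 * s : ℕ) : ℝ) p := by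
    unfold idxm
    rw [mul_add, mul_add, ← e1, ← e2]
    push_cast
    ring
  have h3 : (((∑ g : Gp, ((2 - wg g) * (P.ht g * s + c0 : ℕ)
          - max (m - wg g) 0 * (min (P.ht g * s + c0) (p - 3) : ℕ)) : ℤ)) : ℝ)
      ≤ s * (∑ g : Gp, ((2 - (wg g : ℝ)) * P.ht g
        - ((max (m - wg g) 0 : ℤ) : ℝ) * min (P.ht g : ℝ) (p / s))) + 17 * (2 * c0 + 6) := by
    rw [Int.cast_sum, Finset.mul_sum]
    have h4 : ∑ _g : Gp, (2 * (c0 : ℝ) + 6) = 17 * (2 * c0 + 6) := by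
      rw [Finset.sum_const, Finset.card_univ, nsmul_eq_mul]
      rfl
    rw [← h4, ← Finset.sum_add_distrib]
    exact Finset.sum_le_sum fun g _ =>
      group_term hspos (by omega) (hL.nn g) (hL.le2 g) hm2
  have h5 : (s : ℝ) * (cstm P wg m (p / s) + η)
      = s * idxm P.D0 m (p / s) - 8 * (2 - m) * ((P.D0 * s : ℕ) : ℝ)
        + s * (∑ g : Gp, ((2 - (wg g : ℝ)) * P.ht g
          - ((max (m - wg g) 0 : ℤ) : ℝ) * min (P.ht g : ℝ) (p / s))) + η * s := by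
    unfold cstm
    push_cast
    ring
  rw [h5, e3]
  rw [Int.cast_sub, Int.cast_sub]
  have h6 : (((8 * (2 - m) * ((P.D0 * s : ℕ) : ℤ) : ℤ)) : ℝ)
      = 8 * (2 - m) * ((P.D0 * s : ℕ) : ℝ) := by push_cast; ring
  rw [h6]
  linarith

end Vale.Agent.P030.H792
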