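import Vale.Agent.P030.H404.OdGlue
import Vale.Agent.P030.H392.Int
import Vale.Agent.P030.H678.Rows
import Vale.Agent.P030.H792.LocM

/-!
# The odd part: the three lattices, unconditionally
-/

open Finset Set

namespace Vale.Agent.P030.H792

open Vale.Agent.P030.T

theorem wg_eq (g : Gp) : H392.wg g = H678.wg g := by cases g <;> rfl

/-- the local input holds for every prime `p ≥ 5` and orders `< p² - 1` -/
theorem locIn (p : ℕ) [hp : Fact p.Prime] (hp5 : 5 ≤ p) (D : ℕ) (N : Gp → ℕ)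
    (hN : ∀ g, N g + 2 ≤ p ^ 2) : LocIn p D N H678.wg H678.hK where
  H0 := H678.hK_zero
  Hint := by
    intro q hq
    have h1 := (H678.VBK (p := p) (by omega : p ≠ 2) (N := q + 1)) q (by omega)
    have h2 : padicNorm p (PowerSeries.coeff q serK) ≤ (p : ℚ) ^ (-(0 : ℤ)) := h1
    simpa [H678.hK] using h2
  z1 := rfl
  nn := by intro g; cases g <;> decide
  le2 := by intro g; cases g <;> decide
  o2 := by
    intro g k i j hk _
    rw [← wg_eq]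
    exact H392.ent0_norm (by omega) (by omega) D g k i j (by have := hN g; omega)
  o2' := by
    intro g k i j hk _
    exact H392.ent1_norm (by omega) D g k i j (by have := hN g; omega)
  o1 := by
    intro g k a hk ha
    exact H678.O1_ent0 (by omega) ha (by have := hN g; omega) g
  o1' := by
    intro g k a hk ha
    exact H678.O1_ent1 (by omega) ha (by have := hN g; omega) g
  o3 := by
    intro g k i j _ hk _
    have h1 := H404.norm_ent0 (p := p) (by omega) D g k i j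
    rwa [Nat.log_of_lt hk, mul_zero, pow_zero] at h1

/-- the profile of the lattice `m` at a prime, without hypotheses -/
theorem loc_lat (P : Par) (c0 : ℕ) {m : ℤ} (hm0 : 0 ≤ m) (hm2 : m ≤ 2) :
    ∀ x : ℚ, ∀ δ : ℝ, 0 < δ → ∀ η : ℝ, 0 < η → ∃ s0 : ℕ, ∀ s : ℕ, s0 ≤ s →
      ∀ p : ℕ, p.Prime → p ≠ 2 → x.den < p → δ * s < p →
      ∀ σ, Adm P c0 s σ → (Mx (P.D0 * s) x σ).det ≠ 0 →
      -(s * (cstm P H678.wg m (p / s) + η)) ≤ (padicValRat p (Mx (P.D0 * s) x σ).det : ℝ) :=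
  loc_m (fun p _ hp5 D N hN => locIn p hp5 D N hN) hm0 hm2

theorem continuous_cstm (P : Par) (wg : Gp → ℤ) (m : ℤ) : Continuous (cstm P wg m) := by
  unfold cstm idxm
  fun_prop

/-- the profile of the three lattices -/
noncomputable def phi3 (P : Par) (t : ℝ) : ℝ :=
  min (min (cstm P H678.wg 0 t) (cstm P H678.wg 1 t)) (cstm P H678.wg 2 t)

theorem continuous_phi3 (P : Par) : Continuous (phi3 P) :=
  ((continuous_cstm _ _ _).min (continuous_cstm _ _ _)).min (continuous_cstm _ _ _)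

/-- two local profiles give their minimum -/
theorem loc_min {P : Par} {c0 : ℕ} {b : ℝ} {φ ψ : ℝ → ℝ}
    (h1 : ∀ x : ℚ, ∀ δ : ℝ, 0 < δ → ∀ η : ℝ, 0 < η → ∃ s0 : ℕ, ∀ s : ℕ, s0 ≤ s →
      ∀ p : ℕ, p.Prime → p ≠ 2 → x.den < p → δ * s < p → (p : ℝ) < b * s →
      ∀ σ, Adm P c0 s σ → (Mx (P.D0 * s) x σ).det ≠ 0 →
      -(s * (φ (p / s) + η)) ≤ (padicValRat p (Mx (P.D0 * s) x σ).det : ℝ))
    (h2 : ∀ x : ℚ, ∀ δ : ℝ, 0 < δ → ∀ η : ℝ, 0 < η → ∃ s0 : ℕ, ∀ s : ℕ, s0 ≤ s →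
      ∀ p : ℕ, p.Prime → p ≠ 2 → x.den < p → δ * s < p → (p : ℝ) < b * s →
      ∀ σ, Adm P c0 s σ → (Mx (P.D0 * s) x σ).det ≠ 0 →
      -(s * (ψ (p / s) + η)) ≤ (padicValRat p (Mx (P.D0 * s) x σ).det : ℝ)) :
    ∀ x : ℚ, ∀ δ : ℝ, 0 < δ → ∀ η : ℝ, 0 < η → ∃ s0 : ℕ, ∀ s : ℕ, s0 ≤ s →
      ∀ p : ℕ, p.Prime → p ≠ 2 → x.den < p → δ * s < p → (p : ℝ) < b * s →
      ∀ σ, Adm P c0 s σ → (Mx (P.D0 * s) x σ).det ≠ 0 →
      -(s * (min (φ (p / s)) (ψ (p / s)) + η))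
        ≤ (padicValRat p (Mx (P.D0 * s) x σ).det : ℝ) := by
  intro x δ hδ η hη
  obtain ⟨s1, hs1⟩ := h1 x δ hδ η hη
  obtain ⟨s2, hs2⟩ := h2 x δ hδ η hη
  refine ⟨max s1 s2, fun s hs p hpp hp2 hxp hδp hbp σ hσ hdet => ?_⟩
  rcases le_total (φ (p / s)) (ψ (p / s)) with h | h
  · rw [min_eq_left h]
    exact hs1 s ((le_max_left _ _).trans hs) p hpp hp2 hxp hδp hbp σ hσ hdet
  · rw [min_eq_right h]
    exact hs2 s ((le_max_right _ _).trans hs) p hpp hp2 hxp hδp hbp σ hσ hdet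

/-- `StOD` from a continuous profile -/
theorem stOD_of_cont (P : Par) (c0 : ℕ) {φ : ℝ → ℝ} (hφ : Continuous φ) {b : ℝ} (hb : 0 < b)
    (hHb : ∀ g, (P.ht g : ℝ) ≤ b)
    (hloc : ∀ x : ℚ, ∀ δ : ℝ, 0 < δ → ∀ η : ℝ, 0 < η → ∃ s0 : ℕ, ∀ s : ℕ, s0 ≤ s →
      ∀ p : ℕ, p.Prime → p ≠ 2 → x.den < p → δ * s < p → (p : ℝ) < b * s →
      ∀ σ, Adm P c0 s σ → (Mx (P.D0 * s) x σ).det ≠ 0 →
      -(s * (φ (p / s) + η)) ≤ (padicValRat p (Mx (P.D0 * s) x σ).det : ℝ)) :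
    StOD P c0 (∫ t in (0 : ℝ)..b, φ t) := by
  obtain ⟨M, hM⟩ := (isCompact_Icc (a := (0 : ℝ)) (b := b)).exists_bound_of_continuousOn
    hφ.continuousOn
  have hHb' : ((Finset.univ.sup P.ht : ℕ) : ℝ) ≤ b := by
    obtain ⟨g, _, hg⟩ := Finset.exists_mem_eq_sup Finset.univ ⟨Gp.z1, Finset.mem_univ _⟩ P.ht
    rw [hg]
    exact hHb g
  exact H404.stOD_of_local P c0 (Finset.univ.sup P.ht) (fun g => Finset.le_sup (Finset.mem_univ g))
    hb hHb' (fun t ht => hM t ⟨ht.1.le, ht.2.le⟩) (fun δ _ => ⟨∅, hφ.continuousOn⟩) hloc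

/-- **the odd part from the three lattices, unconditional** -/
theorem stOD_base (P : Par) (c0 : ℕ) {b : ℝ} (hb : 0 < b) (hHb : ∀ g, (P.ht g : ℝ) ≤ b) :
    StOD P c0 (∫ t in (0 : ℝ)..b, phi3 P t) := by
  refine stOD_of_cont P c0 (continuous_phi3 P) hb hHb ?_
  refine loc_min (φ := fun t => min (cstm P H678.wg 0 t) (cstm P H678.wg 1 t))
    (ψ := cstm P H678.wg 2) (loc_min (φ := cstm P H678.wg 0) (ψ := cstm P H678.wg 1) ?_ ?_) ?_ <;>
    intro x δ hδ η hη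
  · obtain ⟨s0, h⟩ := loc_lat P c0 (m := 0) (by norm_num) (by norm_num) x δ hδ η hη
    exact ⟨s0, fun s hs p a1 a2 a3 a4 _ => h s hs p a1 a2 a3 a4⟩
  · obtain ⟨s0, h⟩ := loc_lat P c0 (m := 1) (by norm_num) (by norm_num) x δ hδ η hη
    exact ⟨s0, fun s hs p a1 a2 a3 a4 _ => h s hs p a1 a2 a3 a4⟩
  · obtain ⟨s0, h⟩ := loc_lat P c0 (m := 2) (by norm_num) (by norm_num) x δ hδ η hη
    exact ⟨s0, fun s hs p a1 a2 a3 a4 _ => h s hs p a1 a2 a3 a4⟩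

end Vale.Agent.P030.H792
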