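import Vale.Agent.P030.H579.DesA
import Vale.Agent.P030.H792.OdBase

/-!
# The odd part of design A: the final plug
-/

open Finset Set MeasureTheory

namespace Vale.Agent.P030.H792

open Vale.Agent.P030.T

/-- the cost profile of the odd part of design A, `q = p / s` -/
noncomputable def phiA (q : ℝ) : ℝ :=
  if q < 27 / 2 then 65 + q
  else if q < 15 then 143 - 5 * q
  else if q < 16 then 83 - q
  else if q < 86 / 5 then 5 * q - 13
  else if q < 25 then 159 - 5 * q
  else if q < 28 then 184 - 6 * q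
  else if q < 30 then 156 - 5 * q
  else 96 - 3 * q

theorem cstm0_A {t : ℝ} (ht : t ≤ 27) :
    cstm H579.parA H678.wg 0 t = 65 + t := by
  unfold cstm idxm
  have e3 : em 0 0 + em 0 1 + em 0 2 + em 0 3 + em 0 4 + em 0 5 + em 0 6 = 10 := by decide
  have hm : ∀ g : Gp, max (0 - H678.wg g) 0 = 0 := by intro g; cases g <;> decide
  have h1 : ∑ g : Gp, ((2 - (H678.wg g : ℝ)) * H579.parA.ht g
      - ((max (0 - H678.wg g) 0 : ℤ) : ℝ) * min (H579.parA.ht g : ℝ) t) = 200 := by
    rw [Finset.sum_congr rfl fun g _ => by rw [hm g, Int.cast_zero, zero_mul, sub_zero]]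
    rw [H579.sum_Gp]
    simp only [H678.wg, H579.parA]
    norm_num
  have hD : H579.parA.D0 = 27 := rfl
  rw [e3, hD]
  have e4 : max (1 - 0 : ℤ) 0 = 1 := by decide
  have e5 : max (2 - 0 : ℤ) 0 = 2 := by decide
  rw [e4, e5]
  have e6 : max (((27 : ℕ) : ℝ) - t) 0 = 27 - t := by
    rw [max_eq_left (by push_cast; linarith)]; push_cast; ring
  have e7 : min ((27 : ℕ) : ℝ) t = t := min_eq_right (by push_cast; linarith)
  rw [e6, e7]
  have h1' : ∑ g : Gp, ((2 - (H678.wg g : ℝ)) * H579.parA.ht g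
      - ((max (0 - H678.wg g) 0 : ℤ) : ℝ) * min (H579.parA.ht g : ℝ) t) = 200 := h1
  push_cast at h1' ⊢
  rw [h1']
  ring

/-! ### the integral -/

/-- an affine piece -/
theorem int_piece {φ : ℝ → ℝ} {a b c d : ℝ} (hab : a ≤ b)
    (h : ∀ t ∈ Ioo a b, φ t = c + d * t) :
    IntervalIntegrable φ volume a b ∧
      ∫ t in a..b, φ t = c * (b - a) + d * ((b ^ 2 - a ^ 2) / 2) := by
  have hc : Continuous fun t : ℝ => c + d * t := by fun_prop
  have hi : IntervalIntegrable (fun t : ℝ => c + d * t) volume a b := hc.intervalIntegrable a b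
  have hae : ∀ᵐ t ∂volume, t ∈ Set.uIoc a b → (fun t : ℝ => c + d * t) t = φ t := by
    have hb : ∀ᵐ t ∂(volume : Measure ℝ), t ≠ b := by
      rw [ae_iff]
      simp
    filter_upwards [hb] with t htb ht
    rw [Set.uIoc_of_le hab] at ht
    exact (h t ⟨ht.1, lt_of_le_of_ne ht.2 htb⟩).symm
  constructor
  · rw [intervalIntegrable_iff] at hi ⊢
    refine hi.congr ?_
    rw [Filter.EventuallyEq, ae_restrict_iff' measurableSet_uIoc]
    exact hae
  · rw [← intervalIntegral.integral_congr_ae hae]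
    have hd : Continuous fun t : ℝ => d * t := by fun_prop
    have h1 : ∫ t in a..b, (c + d * t) = (∫ _t in a..b, c) + ∫ t in a..b, d * t :=
      intervalIntegral.integral_add (continuous_const.intervalIntegrable a b)
        (hd.intervalIntegrable a b)
    rw [h1, intervalIntegral.integral_const, intervalIntegral.integral_const_mul, integral_id]
    simp only [smul_eq_mul]
    ring

theorem int_phiA : ∫ t in (0 : ℝ)..32, phiA t = 34961 / 20 := by
  have p1 := int_piece (φ := phiA) (a := 0) (b := 27 / 2) (c := 65) (d := 1) (by norm_num)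
    (fun t ht => by
      obtain ⟨h1, h2⟩ := ht
      unfold phiA
      rw [if_pos h2]; ring)
  have p2 := int_piece (φ := phiA) (a := 27 / 2) (b := 15) (c := 143) (d := -5) (by norm_num)
    (fun t ht => by
      obtain ⟨h1, h2⟩ := ht
      unfold phiA
      rw [if_neg (by linarith), if_pos h2]; ring)
  have p3 := int_piece (φ := phiA) (a := 15) (b := 16) (c := 83) (d := -1) (by norm_num)
    (fun t ht => by
      obtain ⟨h1, h2⟩ := ht
      unfold phiA
      rw [if_neg (by linarith), if_neg (by linarith), if_pos h2]; ring)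
  have p4 := int_piece (φ := phiA) (a := 16) (b := 86 / 5) (c := -13) (d := 5) (by norm_num)
    (fun t ht => by
      obtain ⟨h1, h2⟩ := ht
      unfold phiA
      rw [if_neg (by linarith), if_neg (by linarith), if_neg (by linarith), if_pos h2]; ring)
  have p5 := int_piece (φ := phiA) (a := 86 / 5) (b := 25) (c := 159) (d := -5) (by norm_num)
    (fun t ht => by
      obtain ⟨h1, h2⟩ := ht
      unfold phiA
      rw [if_neg (by linarith), if_neg (by linarith), if_neg (by linarith), if_neg (by linarith),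
        if_pos h2]; ring)
  have p6 := int_piece (φ := phiA) (a := 25) (b := 28) (c := 184) (d := -6) (by norm_num)
    (fun t ht => by
      obtain ⟨h1, h2⟩ := ht
      unfold phiA
      rw [if_neg (by linarith), if_neg (by linarith), if_neg (by linarith), if_neg (by linarith),
        if_neg (by linarith), if_pos h2]; ring)
  have p7 := int_piece (φ := phiA) (a := 28) (b := 30) (c := 156) (d := -5) (by norm_num)
    (fun t ht => by
      obtain ⟨h1, h2⟩ := ht
      unfold phiA
      rw [if_neg (by linarith), if_neg (by linarith), if_neg (by linarith), if_neg (by linarith),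
        if_neg (by linarith), if_neg (by linarith), if_pos h2]; ring)
  have p8 := int_piece (φ := phiA) (a := 30) (b := 32) (c := 96) (d := -3) (by norm_num)
    (fun t ht => by
      obtain ⟨h1, h2⟩ := ht
      unfold phiA
      rw [if_neg (by linarith), if_neg (by linarith), if_neg (by linarith), if_neg (by linarith),
        if_neg (by linarith), if_neg (by linarith), if_neg (by linarith)]; ring)
  rw [← intervalIntegral.integral_add_adjacent_intervals p1.1 (p2.1.trans (p3.1.trans (p4.1.trans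
      (p5.1.trans (p6.1.trans (p7.1.trans p8.1)))))),
    ← intervalIntegral.integral_add_adjacent_intervals p2.1 (p3.1.trans (p4.1.trans
      (p5.1.trans (p6.1.trans (p7.1.trans p8.1))))),
    ← intervalIntegral.integral_add_adjacent_intervals p3.1 (p4.1.trans
      (p5.1.trans (p6.1.trans (p7.1.trans p8.1)))),
    ← intervalIntegral.integral_add_adjacent_intervals p4.1
      (p5.1.trans (p6.1.trans (p7.1.trans p8.1))),
    ← intervalIntegral.integral_add_adjacent_intervals p5.1 (p6.1.trans (p7.1.trans p8.1)),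
    ← intervalIntegral.integral_add_adjacent_intervals p6.1 (p7.1.trans p8.1),
    ← intervalIntegral.integral_add_adjacent_intervals p7.1 p8.1,
    p1.2, p2.2, p3.2, p4.2, p5.2, p6.2, p7.2, p8.2]
  norm_num

theorem abs_phiA_le {t : ℝ} (ht : t ∈ Ioo (0 : ℝ) 32) : |phiA t| ≤ 200 := by
  obtain ⟨h1, h2⟩ := ht
  rw [abs_le]
  unfold phiA
  split_ifs <;> constructor <;> linarith

/-- a function which is continuous near every point of a set off `E` -/
theorem contOn_phiA : ContinuousOn phiA
    (Ioo (0 : ℝ) 32 \ ({27 / 2, 15, 16, 86 / 5, 25, 28, 30} : Finset ℝ)) := by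
  intro t ht
  obtain ⟨⟨h1, h2⟩, h3⟩ := ht
  simp only [Finset.coe_insert, Finset.coe_singleton, mem_insert_iff, mem_singleton_iff,
    not_or] at h3
  obtain ⟨a1, a2, a3, a4, a5, a6, a7⟩ := h3
  have key : ∀ (a b c d : ℝ), a < t → t < b → (∀ u ∈ Ioo a b, phiA u = c + d * u) →
      ContinuousAt phiA t := by
    intro a b c d ha hb h
    have hc : ContinuousAt (fun u : ℝ => c + d * u) t := by fun_prop
    refine hc.congr ?_
    filter_upwards [Ioo_mem_nhds ha hb] with u hu
    exact (h u hu).symm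
  refine ContinuousAt.continuousWithinAt ?_
  rcases lt_or_gt_of_ne a1 with b1 | b1
  · refine key 0 (27 / 2) 65 1 h1 b1 fun u hu => ?_
    obtain ⟨g1, g2⟩ := hu
    unfold phiA
    rw [if_pos g2]; ring
  rcases lt_or_gt_of_ne a2 with b2 | b2
  · refine key (27 / 2) 15 143 (-5) b1 b2 fun u hu => ?_
    obtain ⟨g1, g2⟩ := hu
    unfold phiA
    rw [if_neg (by linarith), if_pos g2]; ring
  rcases lt_or_gt_of_ne a3 with b3 | b3
  · refine key 15 16 83 (-1) b2 b3 fun u hu => ?_
    obtain ⟨g1, g2⟩ := hu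
    unfold phiA
    rw [if_neg (by linarith), if_neg (by linarith), if_pos g2]; ring
  rcases lt_or_gt_of_ne a4 with b4 | b4
  · refine key 16 (86 / 5) (-13) 5 b3 b4 fun u hu => ?_
    obtain ⟨g1, g2⟩ := hu
    unfold phiA
    rw [if_neg (by linarith), if_neg (by linarith), if_neg (by linarith), if_pos g2]; ring
  rcases lt_or_gt_of_ne a5 with b5 | b5
  · refine key (86 / 5) 25 159 (-5) b4 b5 fun u hu => ?_
    obtain ⟨g1, g2⟩ := hu
    unfold phiA
    rw [if_neg (by linarith), if_neg (by linarith), if_neg (by linarith), if_neg (by linarith),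
      if_pos g2]; ring
  rcases lt_or_gt_of_ne a6 with b6 | b6
  · refine key 25 28 184 (-6) b5 b6 fun u hu => ?_
    obtain ⟨g1, g2⟩ := hu
    unfold phiA
    rw [if_neg (by linarith), if_neg (by linarith), if_neg (by linarith), if_neg (by linarith),
      if_neg (by linarith), if_pos g2]; ring
  rcases lt_or_gt_of_ne a7 with b7 | b7
  · refine key 28 30 156 (-5) b6 b7 fun u hu => ?_
    obtain ⟨g1, g2⟩ := hu
    unfold phiA
    rw [if_neg (by linarith), if_neg (by linarith), if_neg (by linarith), if_neg (by linarith),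
      if_neg (by linarith), if_neg (by linarith), if_pos g2]; ring
  · refine key 30 32 96 (-3) b7 h2 fun u hu => ?_
    obtain ⟨g1, g2⟩ := hu
    unfold phiA
    rw [if_neg (by linarith), if_neg (by linarith), if_neg (by linarith), if_neg (by linarith),
      if_neg (by linarith), if_neg (by linarith), if_neg (by linarith)]; ring

/-- a local bound of profile `φ` in the range `a ≤ q < b` -/
def LocRange (P : Par) (c0 : ℕ) (a b : ℝ) (φ : ℝ → ℝ) : Prop :=
  ∀ x : ℚ, ∀ η : ℝ, 0 < η → ∃ s0 : ℕ, ∀ s : ℕ, s0 ≤ s →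
    ∀ p : ℕ, p.Prime → p ≠ 2 → x.den < p → a ≤ (p : ℝ) / s → (p : ℝ) / s < b →
    ∀ σ, Adm P c0 s σ → (Mx (P.D0 * s) x σ).det ≠ 0 →
    -(s * (φ (p / s) + η)) ≤ (padicValRat p (Mx (P.D0 * s) x σ).det : ℝ)

theorem LocRange.union {P : Par} {c0 : ℕ} {a b c : ℝ} {φ : ℝ → ℝ}
    (h1 : LocRange P c0 a b φ) (h2 : LocRange P c0 b c φ) : LocRange P c0 a c φ := by
  intro x η hη
  obtain ⟨s1, hs1⟩ := h1 x η hη
  obtain ⟨s2, hs2⟩ := h2 x η hη
  refine ⟨max s1 s2, fun s hs p hpp hp2 hxp hap hbp σ hσ hdet => ?_⟩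
  by_cases hb : (p : ℝ) / s < b
  · exact hs1 s ((le_max_left _ _).trans hs) p hpp hp2 hxp hap hb σ hσ hdet
  · exact hs2 s ((le_max_right _ _).trans hs) p hpp hp2 hxp (not_lt.1 hb) hbp σ hσ hdet

theorem LocRange.mono {P : Par} {c0 : ℕ} {a b : ℝ} {φ ψ : ℝ → ℝ} (h1 : LocRange P c0 a b φ)
    (h : ∀ q, a ≤ q → q < b → φ q ≤ ψ q) : LocRange P c0 a b ψ := by
  intro x η hη
  obtain ⟨s1, hs1⟩ := h1 x η hη
  refine ⟨s1, fun s hs p hpp hp2 hxp hap hbp σ hσ hdet => le_trans ?_
    (hs1 s hs p hpp hp2 hxp hap hbp σ hσ hdet)⟩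
  have h2 := h _ hap hbp
  have h3 : (0 : ℝ) ≤ s := Nat.cast_nonneg _
  nlinarith

/-- **the plug**: line (I) on `[17.2, 32)`, the class gain on `[13.5, 17.2)` -/
theorem stOD_A_of (c0 : ℕ) (hM : LocRange H579.parA c0 (27 / 2) (86 / 5) phiA)
    (hI : LocRange H579.parA c0 (86 / 5) 32 phiA) :
    StOD H579.parA c0 (34961 / 20) := by
  rw [← int_phiA]
  refine H404.stOD_of_local H579.parA c0 32 (fun g => by cases g <;> decide) (by norm_num)
    (by norm_num) (M := 200) (fun t ht => abs_phiA_le ht)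
    (fun δ hδ => ⟨{27 / 2, 15, 16, 86 / 5, 25, 28, 30}, contOn_phiA.mono ?_⟩) ?_
  · exact Set.sdiff_subset_sdiff_left (Ioo_subset_Ioo_left hδ.le)
  · intro x δ hδ η hη
    obtain ⟨s1, hs1⟩ := (hM.union hI) x η hη
    obtain ⟨s2, hs2⟩ := loc_lat H579.parA c0 (m := 0) (by norm_num) (by norm_num) x δ hδ η hη
    refine ⟨max (max s1 s2) 1, fun s hs p hpp hp2 hxp hδp hbp σ hσ hdet => ?_⟩
    have hs0 : (0 : ℝ) < s := by
      have : 1 ≤ s := (le_max_right _ _).trans hs
      exact_mod_cast this
    by_cases hq : (p : ℝ) / s < 27 / 2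
    · have h1 := hs2 s (((le_max_right _ _).trans (le_max_left _ _)).trans hs) p hpp hp2 hxp hδp σ
        hσ hdet
      have h2 : phiA (p / s) = cstm H579.parA H678.wg 0 (p / s) := by
        rw [cstm0_A (by linarith)]
        unfold phiA
        rw [if_pos hq]
      rw [h2]
      exact h1
    · exact hs1 s (((le_max_left _ _).trans (le_max_left _ _)).trans hs) p hpp hp2 hxp
        (not_lt.1 hq) ((div_lt_iff₀ hs0).2 hbp) σ hσ hdet

end Vale.Agent.P030.H792
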