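import Vale.Agent.P030.H792.Mid
import Vale.Agent.P030.H792.PlugA

/-!
# From the class gain at one prime to the local range `[13.5, 17.2)` of design A
-/

open Finset Module

namespace Vale.Agent.P030.H792

open Vale.Agent.P030.T

/-- the gain of the interval family (design A), natural subtractions -/
def gainA (s p y : ℕ) : ℤ :=
  4 * ((27 * s - p - y : ℕ) : ℤ) - 2 * ((32 * s - 2 * p : ℕ) : ℤ) - 2 * (4 * s : ℕ)
    - 3 * ((32 * s - 2 * p - y : ℕ) : ℤ) - 3 * ((2 * s - y : ℕ) : ℤ) - 2 * (4 * s : ℕ)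
    - 2 * (4 * s : ℕ)

/-- the bound at one prime -/
def MidBound (c0 : ℕ) (C : ℤ) : Prop :=
  ∀ (p : ℕ) [Fact p.Prime], 5 ≤ p → ∀ (s y : ℕ) (x : ℚ)
    (σ : Fin (H579.parA.D0 * s) × Fin 8 → Cl), Adm H579.parA c0 s σ →
    (Mx (H579.parA.D0 * s) x σ).det ≠ 0 → padicNorm p x ≤ 1 →
    p ≤ 27 * s → 27 * s ≤ 2 * p → 32 * s + c0 + 2 ≤ 3 * p → y + p ≤ 27 * s →
    32 * s + c0 + 2 ≤ p ^ 2 →
    gainA s p y - (65 * s + p) - C ≤ padicValRat p (Mx (H579.parA.D0 * s) x σ).det

/-- the weights of the columns of design A -/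
theorem sum_wg_A {c0 s : ℕ} {σ : Fin (H579.parA.D0 * s) × Fin 8 → Cl}
    (hσ : Adm H579.parA c0 s σ) :
    232 * (s : ℤ) - 8 * c0 ≤ ∑ c, H678.wg (σ c).1 := by
  have h5 := sum_weight_ge hσ (fun c => H678.wg c.1) 2
  have h6 : ∑ g : Gp, ∑ k ∈ Finset.range (H579.parA.ht g * s + c0), max (2 - H678.wg g) 0
      = 200 * (s : ℤ) + 8 * c0 := by
    have h7 : ∀ g : Gp, ∑ k ∈ Finset.range (H579.parA.ht g * s + c0), max (2 - H678.wg g) 0
        = (2 - H678.wg g) * (H579.parA.ht g * s + c0) := by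
      intro g
      rw [Finset.sum_const, Finset.card_range, nsmul_eq_mul,
        max_eq_left (by cases g <;> decide)]
      push_cast
      ring
    rw [Finset.sum_congr rfl fun g _ => h7 g, H579.sum_Gp]
    simp only [H678.wg, H579.parA]
    push_cast
    ring
  simp only at h5
  rw [h6] at h5
  have hD : ((H579.parA.D0 * s : ℕ) : ℤ) = 27 * s := by
    have : H579.parA.D0 = 27 := rfl
    rw [this]; push_cast; ring
  rw [hD] at h5
  linarith

/-- from `le_val_of_comp` to `MidBound`: only the count is left -/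
theorem midBound_of_count {c0 : ℕ} {C : ℤ}
    (h : ∀ (p : ℕ) [Fact p.Prime], 5 ≤ p → ∀ (s y : ℕ) (x : ℚ)
      (σ : Fin (H579.parA.D0 * s) × Fin 8 → Cl), Adm H579.parA c0 s σ →
      (Mx (H579.parA.D0 * s) x σ).det ≠ 0 → padicNorm p x ≤ 1 →
      p ≤ 27 * s → 27 * s ≤ 2 * p → 32 * s + c0 + 2 ≤ 3 * p → y + p ≤ 27 * s →
      32 * s + c0 + 2 ≤ p ^ 2 →
      ∑ c, H678.wg (σ c).1 + (gainA s p y - C) - latIdx p (H579.parA.D0 * s) wr8 1 2
        ≤ padicValRat p (Mx (H579.parA.D0 * s) x σ).det) :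
    MidBound c0 (C + 8 * c0) := by
  intro p hp hp5 s y x σ hσ hdet hx h1 h2 h3 h4 h5
  have h6 := h p hp5 s y x σ hσ hdet hx h1 h2 h3 h4 h5
  have h7 := sum_wg_A hσ
  have h8 := latIdx_B (p := p) (D := H579.parA.D0 * s) (by omega) (by
    have : H579.parA.D0 = 27 := rfl
    rw [this]; omega)
  rw [h8] at h6
  have hD : ((H579.parA.D0 * s : ℕ) : ℤ) = 27 * s := by
    have : H579.parA.D0 = 27 := rfl
    rw [this]; push_cast; ring
  rw [hD] at h6
  linarith

/-- **the local range of the class gain** -/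
theorem locRange_mid {c0 : ℕ} {C : ℤ} (h : MidBound c0 C) :
    LocRange H579.parA c0 (27 / 2) (86 / 5) phiA := by
  intro x η hη
  obtain ⟨s1, hs1⟩ := exists_nat_gt (C / η : ℝ)
  refine ⟨max s1 (c0 + 2), fun s hs p hpp hp2 hxp hap hbp σ hσ hdet => ?_⟩
  have := Fact.mk hpp
  have hsc : c0 + 2 ≤ s := (le_max_right _ _).trans hs
  have hs0 : (0 : ℝ) < s := by
    have : 1 ≤ s := by omega
    exact_mod_cast this
  have hss1 : (s1 : ℝ) ≤ s := by exact_mod_cast (le_max_left _ _).trans hs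
  have hC : (C : ℝ) ≤ η * s := by
    have h1 := (div_lt_iff₀ hη).1 hs1
    have h2 := mul_le_mul_of_nonneg_right hss1 hη.le
    linarith
  rw [le_div_iff₀ hs0] at hap
  rw [div_lt_iff₀ hs0] at hbp
  have n1 : 27 * s ≤ 2 * p := by
    have : (27 : ℝ) * s ≤ 2 * p := by linarith
    exact_mod_cast this
  have n2 : 5 * p < 86 * s := by
    have : (5 : ℝ) * p < 86 * s := by linarith
    exact_mod_cast this
  have hp5 : 5 ≤ p := by omega
  have hsq : 32 * s + c0 + 2 ≤ p ^ 2 := by
    have : 13 * s ≤ p := by omega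
    nlinarith
  have hxn := norm_x_le_one hxp
  set v := padicValRat p (Mx (H579.parA.D0 * s) x σ).det with hv
  have hps : (s : ℝ) * ((p : ℝ) / s) = p := by field_simp
  unfold phiA
  rw [if_neg (by rw [not_lt, le_div_iff₀ hs0]; linarith)]
  by_cases h15 : p < 15 * s
  · have g := h p hp5 s (2 * s) x σ hσ hdet hxn (by omega) n1 (by omega) (by omega) hsq
    have hr : (p : ℝ) / s < 15 := by
      rw [div_lt_iff₀ hs0]; exact_mod_cast h15
    rw [if_pos hr]
    have e : gainA s p (2 * s) = 6 * p - 78 * s := by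
      unfold gainA
      omega
    rw [e, ← hv] at g
    have g' : ((6 * p - 78 * s - (65 * s + p) - C : ℤ) : ℝ) ≤ (v : ℝ) := by exact_mod_cast g
    push_cast at g'
    have : (s : ℝ) * (143 - 5 * ((p : ℝ) / s) + η) = 143 * s - 5 * (s * ((p : ℝ) / s)) + η * s := by
      ring
    rw [this, hps]
    linarith
  · by_cases h16 : p < 16 * s
    · have g := h p hp5 s (32 * s - 2 * p) x σ hσ hdet hxn (by omega) n1 (by omega) (by omega) hsq
      have hr : ¬ (p : ℝ) / s < 15 := by
        rw [not_lt, le_div_iff₀ hs0]; exact_mod_cast not_lt.1 h15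
      have hr' : (p : ℝ) / s < 16 := by
        rw [div_lt_iff₀ hs0]; exact_mod_cast h16
      rw [if_neg hr, if_pos hr']
      have e : gainA s p (32 * s - 2 * p) = 2 * p - 18 * s := by
        unfold gainA
        omega
      rw [e, ← hv] at g
      have g' : ((2 * p - 18 * s - (65 * s + p) - C : ℤ) : ℝ) ≤ (v : ℝ) := by exact_mod_cast g
      push_cast at g'
      have : (s : ℝ) * (83 - ((p : ℝ) / s) + η) = 83 * s - (s * ((p : ℝ) / s)) + η * s := by
        ring
      rw [this, hps]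
      linarith
    · have g := h p hp5 s 0 x σ hσ hdet hxn (by omega) n1 (by omega) (by omega) hsq
      have hr : ¬ (p : ℝ) / s < 15 := by
        rw [not_lt, le_div_iff₀ hs0]; exact_mod_cast not_lt.1 h15
      have hr' : ¬ (p : ℝ) / s < 16 := by
        rw [not_lt, le_div_iff₀ hs0]; exact_mod_cast not_lt.1 h16
      have hr'' : (p : ℝ) / s < 86 / 5 := by
        rw [div_lt_iff₀ hs0]; linarith
      rw [if_neg hr, if_neg hr', if_pos hr'']
      have e : gainA s p 0 = 78 * s - 4 * p := by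
        unfold gainA
        omega
      rw [e, ← hv] at g
      have g' : ((78 * s - 4 * p - (65 * s + p) - C : ℤ) : ℝ) ≤ (v : ℝ) := by exact_mod_cast g
      push_cast at g'
      have : (s : ℝ) * (5 * ((p : ℝ) / s) - 13 + η) = 5 * (s * ((p : ℝ) / s)) - 13 * s + η * s := by
        ring
      rw [this, hps]
      linarith

end Vale.Agent.P030.H792
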