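import Vale.Agent.P030.H678.Red
import Vale.Agent.P030.H792.Lat3

/-!
# Reduction modulo `p` of power series, relation form
-/

open PowerSeries

namespace Vale.Agent.P030.H792

open Vale.Agent.P030.T

variable {p : ℕ} [hp : Fact p.Prime]

/-- the first `N` coefficients of `f` are `p`-integral and reduce to those of `F` -/
def Rd (p : ℕ) [Fact p.Prime] (N : ℕ) (f : ℚ⟦X⟧) (F : (ZMod p)⟦X⟧) : Prop :=
  ∀ k < N, padicNorm p (coeff k f) ≤ 1 ∧ ((coeff k f : ℚ) : ZMod p) = coeff k F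

variable {N M : ℕ} {f g : ℚ⟦X⟧} {F G : (ZMod p)⟦X⟧}

theorem Rd.le (h : Rd p N f F) (hM : M ≤ N) : Rd p M f F := fun k hk => h k (by omega)

theorem Rd.vb (h : Rd p N f F) : H678.VB p N 0 f := fun k hk => by
  have h1 := (h k hk).1
  change padicNorm p (coeff k f) ≤ (p : ℚ) ^ (-(0 : ℤ))
  simpa using h1

theorem Rd.add (h1 : Rd p N f F) (h2 : Rd p N g G) : Rd p N (f + g) (F + G) := by
  intro k hk
  obtain ⟨a1, a2⟩ := h1 k hk
  obtain ⟨b1, b2⟩ := h2 k hk
  rw [map_add, map_add, red_add a1 b1, a2, b2]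
  exact ⟨(padicNorm.nonarchimedean).trans (max_le a1 b1), rfl⟩

theorem Rd.neg (h1 : Rd p N f F) : Rd p N (-f) (-F) := by
  intro k hk
  obtain ⟨a1, a2⟩ := h1 k hk
  rw [map_neg, map_neg, padicNorm.neg, Rat.cast_neg, a2]
  exact ⟨a1, rfl⟩

theorem Rd.sub (h1 : Rd p N f F) (h2 : Rd p N g G) : Rd p N (f - g) (F - G) := by
  rw [sub_eq_add_neg, sub_eq_add_neg]
  exact h1.add h2.neg

theorem Rd.mul (h1 : Rd p N f F) (h2 : Rd p N g G) : Rd p N (f * g) (F * G) := by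
  intro k hk
  have h3 : ∀ ij ∈ Finset.HasAntidiagonal.antidiagonal k,
      padicNorm p (coeff ij.1 f * coeff ij.2 g) ≤ 1 ∧
        ((coeff ij.1 f * coeff ij.2 g : ℚ) : ZMod p) = coeff ij.1 F * coeff ij.2 G := by
    intro ij hij
    rw [Finset.HasAntidiagonal.mem_antidiagonal] at hij
    obtain ⟨a1, a2⟩ := h1 ij.1 (by omega)
    obtain ⟨b1, b2⟩ := h2 ij.2 (by omega)
    rw [padicNorm.mul, red_mul a1 b1, a2, b2]
    exact ⟨mul_le_one₀ a1 (padicNorm.nonneg _) b1, rfl⟩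
  rw [coeff_mul, coeff_mul]
  refine ⟨padicNorm_sum_le' _ zero_le_one fun ij hij => (h3 ij hij).1, ?_⟩
  rw [red_sum _ _ fun ij hij => (h3 ij hij).1]
  exact Finset.sum_congr rfl fun ij hij => (h3 ij hij).2

theorem Rd.C {q : ℚ} (hq : padicNorm p q ≤ 1) : Rd p N (C q) (PowerSeries.C ((q : ℚ) : ZMod p)) := by
  intro k _
  rw [coeff_C, coeff_C]
  split_ifs
  · exact ⟨hq, rfl⟩
  · simp

theorem Rd.zero : Rd p N 0 0 := by
  intro k _
  simp

theorem Rd.one : Rd p N 1 1 := by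
  have := Rd.C (p := p) (N := N) (q := 1) (by simp)
  simpa using this

theorem Rd.X : Rd p N X X := by
  intro k _
  rw [coeff_X, coeff_X]
  split_ifs <;> simp

theorem Rd.pow (h1 : Rd p N f F) (n : ℕ) : Rd p N (f ^ n) (F ^ n) := by
  induction n with
  | zero => rw [pow_zero, pow_zero]; exact Rd.one
  | succ n ih => rw [pow_succ, pow_succ]; exact ih.mul h1

theorem Rd.sum {ι : Type*} {s : Finset ι} {f : ι → ℚ⟦X⟧} {F : ι → (ZMod p)⟦X⟧}
    (h : ∀ i ∈ s, Rd p N (f i) (F i)) : Rd p N (∑ i ∈ s, f i) (∑ i ∈ s, F i) := by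
  classical
  induction s using Finset.induction_on with
  | empty => simpa using Rd.zero
  | insert a s ha ih =>
    rw [Finset.sum_insert ha, Finset.sum_insert ha]
    exact (h a (Finset.mem_insert_self _ _)).add (ih fun i hi => h i (Finset.mem_insert_of_mem hi))

/-- a series which is divisible by `p` reduces to zero -/
theorem Rd.of_VB1 (h : H678.VB p N 1 f) : Rd p N f 0 := by
  intro k hk
  have h1 : padicNorm p (coeff k f) ≤ (p : ℚ) ^ (-(1 : ℤ)) := h k hk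
  have hp1 : (1 : ℚ) < p := by exact_mod_cast hp.out.one_lt
  have h2 : (p : ℚ) ^ (-(1 : ℤ)) < 1 := by
    rw [zpow_neg, zpow_one]
    exact inv_lt_one_of_one_lt₀ hp1
  refine ⟨(h1.trans_lt h2).le, ?_⟩
  rw [red_eq_zero_of_lt (h1.trans_lt h2), map_zero]

theorem Rd.congr (h : H678.EqP p N f g) (h1 : Rd p N g F) : Rd p N f F := by
  have h2 : Rd p N (f - g) 0 := Rd.of_VB1 h
  have h3 := h2.add h1
  rwa [sub_add_cancel, zero_add] at h3

theorem Rd.geo : Rd p N T.geo (PowerSeries.mk fun _ => 1) := by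
  intro k _
  simp [T.geo]

theorem Rd.sc {q : ℚ} (hq : padicNorm p q ≤ 1) (h : Rd p N f F) :
    Rd p N (T.sc q f) (PowerSeries.C ((q : ℚ) : ZMod p) * F) := (Rd.C hq).mul h

/-- `F(t^p)` -/
noncomputable def upF (p : ℕ) (F : (ZMod p)⟦X⟧) : (ZMod p)⟦X⟧ :=
  mk fun n => if p ∣ n then coeff (n / p) F else 0

theorem Rd.up (h : ∀ k, p * k < N → padicNorm p (coeff k f) ≤ 1 ∧
    ((coeff k f : ℚ) : ZMod p) = coeff k F) : Rd p N (H678.up p f) (upF p F) := by
  intro k hk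
  unfold H678.up upF
  rw [coeff_mk, coeff_mk]
  split_ifs with hd
  · obtain ⟨m, rfl⟩ := hd
    rw [Nat.mul_div_cancel_left m hp.out.pos]
    exact h m hk
  · simp

/-- two reductions of the same series agree -/
theorem Rd.unique (h1 : Rd p N f F) (h2 : Rd p N f G) {k : ℕ} (hk : k < N) :
    coeff k F = coeff k G := by
  rw [← (h1 k hk).2, ← (h2 k hk).2]

theorem norm_half (h2 : p ≠ 2) : padicNorm p (1 / 2 : ℚ) ≤ 1 := by
  have h1 : padicNorm p ((2 : ℕ) : ℚ) = 1 := by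
    rw [padicNorm.nat_eq_one_iff]
    intro hd
    exact h2 ((Nat.prime_dvd_prime_iff_eq hp.out Nat.prime_two).1 hd)
  have h3 : padicNorm p (1 / 2 : ℚ) = 1 := by
    rw [padicNorm.div, padicNorm.one]
    have : padicNorm p (2 : ℚ) = 1 := by exact_mod_cast h1
    rw [this, div_one]
  exact h3.le

end Vale.Agent.P030.H792
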