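import Vale.Agent.P030.H678.Ent
import Vale.Agent.P030.H792.RdCalc

/-!
# Entries of the Frobenius lattice modulo `p`
-/

open PowerSeries

namespace Vale.Agent.P030.H792

open Vale.Agent.P030.T

variable {p : ℕ} [hp : Fact p.Prime]

/-! ### cusp series -/

/-- `1/(1-t)` -/
noncomputable def gR (R : Type*) [Ring R] : R⟦X⟧ := mk fun _ => 1

/-- `μ_i = A^i B^(D-1-i)` -/
noncomputable def cA (R : Type*) [Field R] : Fin 4 → R⟦X⟧ :=
  ![X * gR R, C (-1 / 2) * (1 + X), -gR R, C (-1 / 2) * (1 + X)]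

/-- `μ_i = A^i B^(D-1-i)` -/
noncomputable def cB (R : Type*) [Field R] : Fin 4 → R⟦X⟧ :=
  ![gR R, C (1 / 2) * (1 - X), -(X * gR R), C (-1 / 2) * (1 - X)]

theorem mon_eq_AB {D i : ℕ} (h : i ≤ D - 1) (c : Fin 4) :
    mon D c i = cA ℚ c ^ i * cB ℚ c ^ (D - 1 - i) := by
  obtain ⟨m, hm⟩ : ∃ m, D - 1 = i + m := ⟨D - 1 - i, by omega⟩
  have hm' : D - 1 - i = m := by omega
  have hg : T.geo = gR ℚ := rfl
  rw [hm']
  fin_cases c
  · change X ^ i * T.geo ^ (D - 1) = (X * gR ℚ) ^ i * gR ℚ ^ m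
    rw [hm, hg, mul_pow, pow_add]; ring
  · change T.sc ((-1) ^ i / 2 ^ (D - 1)) ((1 + X) ^ i * (1 - X) ^ (D - 1 - i))
      = (C (-1 / 2 : ℚ) * (1 + X)) ^ i * (C (1 / 2 : ℚ) * (1 - X)) ^ m
    rw [hm', hm, T.sc, mul_pow, mul_pow, ← map_pow, ← map_pow]
    have : ((-1 : ℚ) ^ i / 2 ^ (i + m)) = (-1 / 2 : ℚ) ^ i * (1 / 2 : ℚ) ^ m := by
      rw [div_pow, div_pow, pow_add, one_pow]; field_simp
    rw [this, map_mul]; ring
  · change T.sc ((-1) ^ (D - 1)) (X ^ (D - 1 - i) * T.geo ^ (D - 1))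
      = (-gR ℚ) ^ i * (-(X * gR ℚ)) ^ m
    rw [hm', hm, hg, T.sc, map_pow, map_neg, map_one, neg_pow (gR ℚ), neg_pow (X * gR ℚ),
      mul_pow, pow_add, pow_add]
    ring
  · change T.sc (1 / (-2) ^ (D - 1)) ((1 + X) ^ i * (1 - X) ^ (D - 1 - i))
      = (C (-1 / 2 : ℚ) * (1 + X)) ^ i * (C (-1 / 2 : ℚ) * (1 - X)) ^ m
    rw [hm', hm, T.sc, mul_pow, mul_pow, ← map_pow, ← map_pow]
    have : (1 / (-2 : ℚ) ^ (i + m)) = (-1 / 2 : ℚ) ^ i * (-1 / 2 : ℚ) ^ m := by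
      rw [← pow_add]
      have : (-1 / 2 : ℚ) = 1 / (-2) := by norm_num
      rw [this, div_pow, one_pow]
    rw [this, map_mul]; ring

theorem rd_gR {N : ℕ} : Rd p N (gR ℚ) (gR (ZMod p)) := by
  intro k _
  simp [gR]

theorem two_ne_zmod (h2 : p ≠ 2) : (2 : ZMod p) ≠ 0 := by
  intro h
  have h1 : ((2 : ℕ) : ZMod p) = 0 := by exact_mod_cast h
  rw [ZMod.natCast_eq_zero_iff] at h1
  exact h2 ((Nat.prime_dvd_prime_iff_eq hp.out Nat.prime_two).1 h1)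

theorem cast_half (h2 : p ≠ 2) : (((1 / 2 : ℚ)) : ZMod p) = 1 / 2 := by
  have h1 : padicNorm p (2 : ℚ) ≤ 1 := by
    have := padicNorm.of_nat (p := p) 2
    exact_mod_cast this
  have h3 := red_mul (p := p) (norm_half h2) h1
  have h4 : ((1 / 2 : ℚ) * 2) = 1 := by norm_num
  rw [h4] at h3
  have h5 : ((2 : ℚ) : ZMod p) = 2 := by
    have := Rat.cast_natCast (α := ZMod p) 2
    exact_mod_cast this
  rw [h5, Rat.cast_one] at h3
  rw [eq_div_iff (two_ne_zmod h2)]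
  exact h3.symm

theorem rd_half {N : ℕ} (h2 : p ≠ 2) : Rd p N (C (1 / 2 : ℚ)) (C (1 / 2 : ZMod p)) := by
  have := Rd.C (p := p) (N := N) (norm_half h2)
  rwa [cast_half h2] at this

theorem rd_nhalf {N : ℕ} (h2 : p ≠ 2) : Rd p N (C (-1 / 2 : ℚ)) (C (-1 / 2 : ZMod p)) := by
  have h := (rd_half (N := N) h2).neg
  have e1 : (-(C (1 / 2 : ℚ)) : ℚ⟦X⟧) = C (-1 / 2 : ℚ) := by rw [← map_neg]; congr 1; norm_num
  have e2 : (-(C (1 / 2 : ZMod p)) : (ZMod p)⟦X⟧) = C (-1 / 2 : ZMod p) := by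
    rw [← map_neg]; congr 1; ring
  rwa [e1, e2] at h

theorem rd_cA {N : ℕ} (h2 : p ≠ 2) (c : Fin 4) : Rd p N (cA ℚ c) (cA (ZMod p) c) := by
  fin_cases c
  · change Rd p N (X * gR ℚ) (X * gR (ZMod p))
    exact Rd.X.mul rd_gR
  · change Rd p N (C (-1 / 2 : ℚ) * (1 + X)) (C (-1 / 2 : ZMod p) * (1 + X))
    exact (rd_nhalf h2).mul (Rd.one.add Rd.X)
  · change Rd p N (-gR ℚ) (-gR (ZMod p))
    exact rd_gR.neg
  · change Rd p N (C (-1 / 2 : ℚ) * (1 + X)) (C (-1 / 2 : ZMod p) * (1 + X))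
    exact (rd_nhalf h2).mul (Rd.one.add Rd.X)

theorem rd_cB {N : ℕ} (h2 : p ≠ 2) (c : Fin 4) : Rd p N (cB ℚ c) (cB (ZMod p) c) := by
  fin_cases c
  · change Rd p N (gR ℚ) (gR (ZMod p))
    exact rd_gR
  · change Rd p N (C (1 / 2 : ℚ) * (1 - X)) (C (1 / 2 : ZMod p) * (1 - X))
    exact (rd_half h2).mul (Rd.one.sub Rd.X)
  · change Rd p N (-(X * gR ℚ)) (-(X * gR (ZMod p)))
    exact (Rd.X.mul rd_gR).neg
  · change Rd p N (C (-1 / 2 : ℚ) * (1 - X)) (C (-1 / 2 : ZMod p) * (1 - X))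
    exact (rd_nhalf h2).mul (Rd.one.sub Rd.X)

/-- the truncated `K` at the cusps, homogeneous of degree `p - 1` (`e = 0`), and its
`θ`-derivative (`e = 1`) -/
noncomputable def hQ (p e : ℕ) (c : Fin 4) : ℚ⟦X⟧ :=
  ∑ q ∈ Finset.range p, C ((q : ℚ) ^ e * H678.hK q) * cA ℚ c ^ q * cB ℚ c ^ (p - 1 - q)

/-! ### the entries -/

variable {D N : ℕ} {x : ℚ}

theorem ppow_norm (a : ℤ) : padicNorm p ((p : ℚ) ^ a) = (p : ℚ) ^ (-a) := by
  rw [padicNorm_zpow', padicNorm.padicNorm_p hp.out.one_lt, _root_.inv_zpow, _root_.zpow_neg]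

theorem zpow_lt_one' {a : ℤ} (ha : a < 0) : (p : ℚ) ^ a < 1 := by
  have hp1 : (1 : ℚ) < p := by exact_mod_cast hp.out.one_lt
  exact zpow_lt_one_of_neg₀ hp1 ha

/-- the part with `x` of an uncorrected row vanishes modulo `p` -/
theorem xpart_lt (h2 : p ≠ 2) (hx : padicNorm p x ≤ 1) (g : Gp) (j : Fin 8) (k a : ℕ) :
    padicNorm p ((p : ℚ) ^ (wr8 j - H678.wg g) * (x * ent1 D g k a j)) < 1 := by
  by_cases hg : g = .z1
  · rw [hg]
    by_cases hj6 : (j : ℕ) < 6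
    · have h0 : tup1 .z1 j = 0 := by
        fin_cases j <;> first | rfl | (exfalso; revert hj6; decide)
      have : ent1 D .z1 k a j = 0 := by
        rw [ent1, h0, mul_zero, map_zero]
      rw [this, mul_zero, mul_zero, padicNorm.zero]
      exact zero_lt_one
    · have hwj : wr8 j = 2 := by
        have h67 : j = 6 ∨ j = 7 := by omega
        rcases h67 with h | h <;> rw [h] <;> decide
      have hw : H678.wg Gp.z1 = 0 := rfl
      rw [hwj, hw, padicNorm.mul, ppow_norm, padicNorm.mul]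
      have h3 : padicNorm p (ent1 D .z1 k a j) ≤ 1 := H678.O2_ent1 h2 k Gp.z1 a j
      calc (p : ℚ) ^ (-(2 - 0 : ℤ)) * (padicNorm p x * padicNorm p (ent1 D .z1 k a j))
          ≤ (p : ℚ) ^ (-(2 - 0 : ℤ)) * 1 :=
            mul_le_mul_of_nonneg_left (mul_le_one₀ hx (padicNorm.nonneg _) h3) (zpow_pos' _).le
        _ < 1 := by rw [mul_one]; exact zpow_lt_one' (by norm_num)
  · rw [ent1_eq_zero D hg, mul_zero, mul_zero, padicNorm.zero]
    exact zero_lt_one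

/-- the uncorrected rows modulo `p` -/
theorem ent_plain (h2 : p ≠ 2) (hx : padicNorm p x ≤ 1) {g : Gp} {j : Fin 8} {k : ℕ}
    (a : Fin D) (hj : ¬ (j = 7 ∧ (a : ℕ) + p ≤ D)) {Φ : (ZMod p)⟦X⟧}
    (h : Rd p N (C ((p : ℚ) ^ (wr8 j - H678.wg g)) * tup0 g j) Φ) (hk : k < N) :
    ((latRow p D wr8 1 2 H678.hK x (a, j) (g, k) * (p : ℚ) ^ (-H678.wg g) : ℚ) : ZMod p)
      = coeff k (cA (ZMod p) g.cusp ^ (a : ℕ) * cB (ZMod p) g.cusp ^ (D - 1 - a) * Φ) := by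
  have hp0 : (p : ℚ) ≠ 0 := by exact_mod_cast hp.out.ne_zero
  have hE : latE p D wr8 1 2 (a, j) = wr8 j := by
    unfold latE
    by_cases h7 : j = 7
    · have h8 : ¬ (a : ℕ) + p ≤ D := fun h8 => hj ⟨h7, h8⟩
      simp only [h7, if_true, if_neg h8]
      decide
    · simp only [h7, if_false]
  have hm : (a : ℕ) ≤ D - 1 := by have := a.2; omega
  have e1 : latRow p D wr8 1 2 H678.hK x (a, j) (g, k) * (p : ℚ) ^ (-H678.wg g)
      = coeff k (cA ℚ g.cusp ^ (a : ℕ) * cB ℚ g.cusp ^ (D - 1 - a)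
          * (C ((p : ℚ) ^ (wr8 j - H678.wg g)) * tup0 g j))
        + (p : ℚ) ^ (wr8 j - H678.wg g) * (x * ent1 D g k a j) := by
    unfold latRow
    rw [if_neg hj, hE]
    have e2 : cA ℚ g.cusp ^ (a : ℕ) * cB ℚ g.cusp ^ (D - 1 - a)
        * (C ((p : ℚ) ^ (wr8 j - H678.wg g)) * tup0 g j)
        = C ((p : ℚ) ^ (wr8 j - H678.wg g)) * (mon D g.cusp a * tup0 g j) := by
      rw [mon_eq_AB hm]; ring
    rw [e2, coeff_C_mul]
    have e3 : (p : ℚ) ^ (wr8 j - H678.wg g) = (p : ℚ) ^ (wr8 j) * (p : ℚ) ^ (-H678.wg g) := by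
      rw [← zpow_add₀ hp0]; rfl
    rw [e3]
    simp only [ent0]
    ring
  have hR := (((rd_cA (N := N) h2 g.cusp).pow (a : ℕ)).mul
    ((rd_cB (N := N) h2 g.cusp).pow (D - 1 - a))).mul h k hk
  have hx0 := xpart_lt (D := D) h2 hx g j k a
  rw [e1, red_add hR.1 hx0.le, red_eq_zero_of_lt hx0, add_zero]
  exact hR.2

/-- the corrected rows modulo `p` -/
theorem ent_cor (h2 : p ≠ 2) (hx : padicNorm p x ≤ 1) {g : Gp} {k : ℕ}
    (hkp : k + 2 ≤ p ^ 2) (a : Fin D) (ha : (a : ℕ) + p ≤ D) {Φ : (ZMod p)⟦X⟧}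
    (h : Rd p N (C ((p : ℚ) ^ (1 - H678.wg g))
      * (hQ p 0 g.cusp * tup0 g 7 - hQ p 1 g.cusp * tup0 g 6)) Φ) (hk : k < N) :
    ((latRow p D wr8 1 2 H678.hK x (a, 7) (g, k) * (p : ℚ) ^ (-H678.wg g) : ℚ) : ZMod p)
      = coeff k (cA (ZMod p) g.cusp ^ (a : ℕ) * cB (ZMod p) g.cusp ^ (D - p - a) * Φ) := by
  have hp0 : (p : ℚ) ≠ 0 := by exact_mod_cast hp.out.ne_zero
  have hp1 := hp.out.one_lt
  have hR := (((rd_cA (N := N) h2 g.cusp).pow (a : ℕ)).mul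
    ((rd_cB (N := N) h2 g.cusp).pow (D - p - a))).mul h k hk
  set S1 : ℚ := ∑ q ∈ Finset.range p, H678.hK q * ent1 D g k (a + q) 7
    - ∑ q ∈ Finset.range p, (q : ℚ) * H678.hK q * ent1 D g k (a + q) 6 with hS1
  have e1 : latRow p D wr8 1 2 H678.hK x (a, 7) (g, k) * (p : ℚ) ^ (-H678.wg g)
      = coeff k (cA ℚ g.cusp ^ (a : ℕ) * cB ℚ g.cusp ^ (D - p - a)
          * (C ((p : ℚ) ^ (1 - H678.wg g))
            * (hQ p 0 g.cusp * tup0 g 7 - hQ p 1 g.cusp * tup0 g 6)))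
        + (p : ℚ) ^ (1 - H678.wg g) * (x * S1) := by
    unfold latRow
    rw [if_pos ⟨rfl, ha⟩]
    have e2 : cA ℚ g.cusp ^ (a : ℕ) * cB ℚ g.cusp ^ (D - p - a)
          * (C ((p : ℚ) ^ (1 - H678.wg g))
            * (hQ p 0 g.cusp * tup0 g 7 - hQ p 1 g.cusp * tup0 g 6))
        = C ((p : ℚ) ^ (1 - H678.wg g)) *
          (∑ q ∈ Finset.range p, C (H678.hK q) * (mon D g.cusp (a + q) * tup0 g 7)
            - ∑ q ∈ Finset.range p, C ((q : ℚ) * H678.hK q) * (mon D g.cusp (a + q) * tup0 g 6)) := by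
      have e4 : ∀ q ∈ Finset.range p, mon D g.cusp (a + q)
          = cA ℚ g.cusp ^ (a : ℕ) * cB ℚ g.cusp ^ (D - p - a) * (cA ℚ g.cusp ^ q
            * cB ℚ g.cusp ^ (p - 1 - q)) := by
        intro q hq
        have hq' := Finset.mem_range.1 hq
        rw [mon_eq_AB (by omega)]
        have : D - 1 - (a + q) = (D - p - a) + (p - 1 - q) := by omega
        rw [this, pow_add, pow_add]
        ring
      have e5 : ∑ q ∈ Finset.range p, C (H678.hK q) * (mon D g.cusp (a + q) * tup0 g 7)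
          = cA ℚ g.cusp ^ (a : ℕ) * cB ℚ g.cusp ^ (D - p - a) * (hQ p 0 g.cusp * tup0 g 7) := by
        unfold hQ
        rw [Finset.sum_mul, Finset.mul_sum]
        refine Finset.sum_congr rfl fun q hq => ?_
        rw [e4 q hq, pow_zero, one_mul]
        ring
      have e6 : ∑ q ∈ Finset.range p, C ((q : ℚ) * H678.hK q) * (mon D g.cusp (a + q) * tup0 g 6)
          = cA ℚ g.cusp ^ (a : ℕ) * cB ℚ g.cusp ^ (D - p - a) * (hQ p 1 g.cusp * tup0 g 6) := by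
        unfold hQ
        rw [Finset.sum_mul, Finset.mul_sum]
        refine Finset.sum_congr rfl fun q hq => ?_
        rw [e4 q hq, pow_one]
        ring
      rw [e5, e6]
      ring
    rw [e2, coeff_C_mul, map_sub, map_sum, map_sum]
    have e3 : (p : ℚ) ^ (1 - H678.wg g) = (p : ℚ) ^ (1 : ℤ) * (p : ℚ) ^ (-H678.wg g) := by
      rw [← zpow_add₀ hp0]; rfl
    rw [e3, hS1]
    have e7 : ∑ q ∈ Finset.range p, H678.hK q * (ent0 D g k (a + q) 7 + x * ent1 D g k (a + q) 7)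
        = ∑ q ∈ Finset.range p, coeff k (C (H678.hK q) * (mon D g.cusp (a + q) * tup0 g 7))
          + x * ∑ q ∈ Finset.range p, H678.hK q * ent1 D g k (a + q) 7 := by
      rw [Finset.mul_sum, ← Finset.sum_add_distrib]
      refine Finset.sum_congr rfl fun q _ => ?_
      rw [coeff_C_mul]
      simp only [ent0]
      ring
    have e8 : ∑ q ∈ Finset.range p,
        (q : ℚ) * H678.hK q * (ent0 D g k (a + q) 6 + x * ent1 D g k (a + q) 6)
        = ∑ q ∈ Finset.range p, coeff k (C ((q : ℚ) * H678.hK q)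
            * (mon D g.cusp (a + q) * tup0 g 6))
          + x * ∑ q ∈ Finset.range p, (q : ℚ) * H678.hK q * ent1 D g k (a + q) 6 := by
      rw [Finset.mul_sum, ← Finset.sum_add_distrib]
      refine Finset.sum_congr rfl fun q _ => ?_
      rw [coeff_C_mul]
      simp only [ent0]
      ring
    simp only at e7 e8 ⊢
    rw [e7, e8]
    ring
  have hx0 : padicNorm p ((p : ℚ) ^ (1 - H678.wg g) * (x * S1)) < 1 := by
    by_cases hg : g = .z1
    · subst hg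
      have hw : H678.wg Gp.z1 = 0 := rfl
      rw [hw, padicNorm.mul, ppow_norm, padicNorm.mul]
      have h3 : padicNorm p S1 ≤ (p : ℚ) ^ (-(1 : ℤ)) := H678.O1_ent1 h2 ha hkp Gp.z1
      have h4 : padicNorm p S1 ≤ 1 := h3.trans (zpow_lt_one' (by norm_num)).le
      calc (p : ℚ) ^ (-(1 - 0 : ℤ)) * (padicNorm p x * padicNorm p S1)
          ≤ (p : ℚ) ^ (-(1 - 0 : ℤ)) * 1 :=
            mul_le_mul_of_nonneg_left (mul_le_one₀ hx (padicNorm.nonneg _) h4) (zpow_pos' _).le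
        _ < 1 := by rw [mul_one]; exact zpow_lt_one' (by norm_num)
    · have : S1 = 0 := by
        rw [hS1, Finset.sum_eq_zero fun q _ => by rw [ent1_eq_zero D hg, mul_zero],
          Finset.sum_eq_zero fun q _ => by rw [ent1_eq_zero D hg, mul_zero], sub_zero]
      rw [this, mul_zero, mul_zero, padicNorm.zero]
      exact zero_lt_one
  rw [e1, red_add hR.1 hx0.le, red_eq_zero_of_lt hx0, add_zero]
  exact hR.2

end Vale.Agent.P030.H792
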