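import Vale.Agent.P030.H392.Mid
import Vale.Agent.P030.H792.Bridge

/-!
# From the reductions of the series to `MidHyp`
-/

open PowerSeries

namespace Vale.Agent.P030.H792

open Vale.Agent.P030.T

variable {p : ℕ} [hp : Fact p.Prime]

theorem cA_eq (c : Fin 4) : cA (ZMod p) c = H392.cA p c := by
  have h : C (-1 / 2 : ZMod p) * (1 + X) = -(C (1 / 2 : ZMod p) * (1 + X)) := by
    rw [← neg_mul, ← map_neg]
    congr 2
    ring
  fin_cases c
  · rfl
  · exact h
  · rfl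
  · exact h

theorem cB_eq (c : Fin 4) : cB (ZMod p) c = H392.cB p c := by
  have h : C (-1 / 2 : ZMod p) * (1 - X) = -(C (1 / 2 : ZMod p) * (1 - X)) := by
    rw [← neg_mul, ← map_neg]
    congr 2
    ring
  fin_cases c
  · rfl
  · rfl
  · rfl
  · exact h

/-- the literal reduced entries -/
noncomputable def entM (p : ℕ) [Fact p.Prime] (D : ℕ) (x : ℚ) (r : Fin D × Fin 8) (c : Cl) :
    ZMod p :=
  ((latRow p D wr8 1 2 H678.hK x r c * (p : ℚ) ^ (-H678.wg c.1) : ℚ) : ZMod p)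

/-- the table of the reduced series: what `MidHyp` needs -/
structure RdTab (p : ℕ) [Fact p.Prime] (m : H392.MidDat p) (N : Gp → ℕ) : Prop where
  r1 : ∀ (g : Gp) (j : Fin 8) (hj : (j : ℕ) < 6),
    Rd p (N g) (C ((p : ℚ) ^ (wr8 j - H678.wg g)) * tup0 g j) (H392.up p (m.phi g ⟨j, hj⟩))
  r2 : ∀ g : Gp, Rd p (N g) (C ((p : ℚ) ^ (2 - H678.wg g)) * tup0 g 6)
    ((∑ q ∈ Finset.range p, C (m.h q) * (H392.cA p g.cusp ^ q * H392.cB p g.cusp ^ (p - 1 - q)))
      * (H392.cB p g.cusp - H392.cA p g.cusp) * H392.up p (m.beta g))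
  r2' : ∀ g : Gp, Rd p (N g) (C ((p : ℚ) ^ (2 - H678.wg g)) * tup0 g 7)
    ((∑ q ∈ Finset.range p,
        C ((q : ZMod p) * m.h q) * (H392.cA p g.cusp ^ q * H392.cB p g.cusp ^ (p - 1 - q)))
      * (H392.cB p g.cusp - H392.cA p g.cusp) * H392.up p (m.beta g))
  r3 : ∀ g : Gp, Rd p (N g) (C ((p : ℚ) ^ (1 - H678.wg g))
      * (hQ p 0 g.cusp * tup0 g 7 - hQ p 1 g.cusp * tup0 g 6))
    (H392.cY p g.cusp ^ (p - 1) * H392.up p (m.tau g))

/-- **the adapter** -/
theorem midHyp_of_tab (h2 : p ≠ 2) {D : ℕ} {x : ℚ} (hx : padicNorm p x ≤ 1)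
    {m : H392.MidDat p} {N : Gp → ℕ} (hN : ∀ g, N g + 1 ≤ p ^ 2) (h : RdTab p m N) :
    H392.MidHyp p D m N (entM p D x) where
  lo := by
    intro a j hj g k hk
    have hj' : ¬ (j = 7 ∧ (a : ℕ) + p ≤ D) := by
      rintro ⟨h7, _⟩
      rw [h7] at hj
      exact absurd hj (by decide)
    have := ent_plain (D := D) (k := k) h2 hx a hj' (h.r1 g j hj) hk
    rw [cA_eq, cB_eq] at this
    exact this
  six := by
    intro a g k hk
    have hj' : ¬ ((6 : Fin 8) = 7 ∧ (a : ℕ) + p ≤ D) := fun h => absurd h.1 (by decide)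
    have h6 : Rd p (N g) (C ((p : ℚ) ^ (wr8 6 - H678.wg g)) * tup0 g 6) _ := h.r2 g
    have := ent_plain (D := D) (k := k) h2 hx a hj' h6 hk
    rw [cA_eq, cB_eq] at this
    refine this.trans (congrArg _ ?_)
    ring
  top := by
    intro a g k hk ha
    have hj' : ¬ ((7 : Fin 8) = 7 ∧ (a : ℕ) + p ≤ D) := fun h => ha h.2
    have h6 : Rd p (N g) (C ((p : ℚ) ^ (wr8 7 - H678.wg g)) * tup0 g 7) _ := h.r2' g
    have := ent_plain (D := D) (k := k) h2 hx a hj' h6 hk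
    rw [cA_eq, cB_eq] at this
    refine this.trans (congrArg _ ?_)
    ring
  cor := by
    intro a g k hk ha
    have := ent_cor (D := D) (k := k) h2 hx (by have := hN g; omega) a ha (h.r3 g) hk
    rw [cA_eq, cB_eq] at this
    exact this

end Vale.Agent.P030.H792
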