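import Vale.Agent.P030.H792.Lattice

/-!
# Rank of a composite modulo `p`, for arbitrary admissible choices of columns
-/

open Finset Module Matrix

namespace Vale.Agent.P030.H792

open Vale.Agent.P030.T

/-! ### linear algebra -/

section LA

variable {F : Type*} [Field F] {R S : Type*} [AddCommGroup R] [Module F R] [AddCommGroup S]
  [Module F S]

/-- `dim Λ(R) + dim W ≤ dim R + dim Λ(W)` -/
theorem finrank_range_add_le [FiniteDimensional F R] (L : R →ₗ[F] S) (W : Submodule F R) :
    finrank F (LinearMap.range L) + finrank F W ≤ finrank F R + finrank F (W.map L) := by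
  have h1 := LinearMap.finrank_range_add_finrank_ker L
  have h2 := LinearMap.finrank_range_add_finrank_ker (L.domRestrict W)
  have h3 : LinearMap.range (L.domRestrict W) = W.map L := by
    ext y
    simp [LinearMap.mem_range, Submodule.mem_map]
  rw [h3] at h2
  have h4 : finrank F (LinearMap.ker (L.domRestrict W)) ≤ finrank F (LinearMap.ker L) := by
    let f : LinearMap.ker (L.domRestrict W) →ₗ[F] LinearMap.ker L :=
      { toFun := fun v => ⟨(v.1 : R), by
          have := v.2
          rw [LinearMap.mem_ker] at this ⊢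
          exact this⟩
        map_add' := fun _ _ => rfl
        map_smul' := fun _ _ => rfl }
    exact LinearMap.finrank_le_finrank_of_injective (f := f) (by
      intro a b hab
      have : (a.1 : R) = (b.1 : R) := congrArg (fun z : LinearMap.ker L => (z : R)) hab
      exact Subtype.ext (Subtype.ext this))
  omega

/-- the rank of a map is at most the sum of the ranks of its pieces -/
theorem finrank_map_le_of_pieces {ι : Type*} [Fintype ι] {T : ι → Type*}
    [∀ i, AddCommGroup (T i)] [∀ i, Module F (T i)] [FiniteDimensional F R] (L : R →ₗ[F] S)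
    (W : Submodule F R) (q : ∀ i, R →ₗ[F] T i)
    (h : ∀ v ∈ W, (∀ i, q i v = 0) → L v = 0) :
    finrank F (W.map L) ≤ ∑ i, finrank F (W.map (q i)) := by
  classical
  have h2 := LinearMap.finrank_range_add_finrank_ker (L.domRestrict W)
  have h3 : LinearMap.range (L.domRestrict W) = W.map L := by
    ext y
    simp [LinearMap.mem_range, Submodule.mem_map]
  rw [h3] at h2
  let Q : W →ₗ[F] (∀ i, (W.map (q i) : Submodule F (T i))) :=
    LinearMap.pi fun i => ((q i).domRestrict W).codRestrict _ fun v => ⟨v, v.2, rfl⟩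
  have h4 := LinearMap.finrank_range_add_finrank_ker Q
  have h5 : finrank F (LinearMap.range Q) ≤ ∑ i, finrank F (W.map (q i)) := by
    rw [← Module.finrank_pi_fintype F]
    exact Submodule.finrank_le _
  have h6 : LinearMap.ker Q ≤ LinearMap.ker (L.domRestrict W) := by
    intro v hv
    rw [LinearMap.mem_ker] at hv ⊢
    refine h v v.2 fun i => ?_
    have h7 : Q v i = 0 := by rw [hv]; rfl
    exact congrArg Subtype.val h7
  have h8 := Submodule.finrank_mono h6
  omega

/-- jets: the rank of a map into functions on a finite set of size `m` is at most `m` -/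
theorem finrank_map_le_card {ι : Type*} [Fintype ι] (L : R →ₗ[F] (ι → F)) (W : Submodule F R) :
    finrank F (W.map L) ≤ Fintype.card ι := by
  calc finrank F (W.map L) ≤ finrank F (ι → F) := Submodule.finrank_le _
    _ = Fintype.card ι := Module.finrank_fintype_fun_eq_card F

end LA

/-! ### truncation to the pool -/

variable {p : ℕ} [hp : Fact p.Prime]

open Classical in
/-- truncation to the pool -/
noncomputable def tr (p : ℕ) (P : Par) (c0 s : ℕ) : (Cl → ZMod p) →ₗ[ZMod p] (Cl → ZMod p) where
  toFun f c := if c.2 < P.ht c.1 * s + c0 then f c else 0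
  map_add' f g := by
    ext c
    simp only [Pi.add_apply]
    split_ifs <;> simp
  map_smul' a f := by
    ext c
    simp only [Pi.smul_apply, RingHom.id_apply]
    split_ifs <;> simp

theorem tr_apply (P : Par) (c0 s : ℕ) (f : Cl → ZMod p) (c : Cl) :
    tr p P c0 s f c = if c.2 < P.ht c.1 * s + c0 then f c else 0 := rfl

/-- **the lattice bound with a factorisation modulo `p`** -/
theorem le_val_of_comp {P : Par} {c0 s : ℕ} {x : ℚ} {σ : Fin (P.D0 * s) × Fin 8 → Cl}
    (hσ : Adm P c0 s σ) (hdet : (Mx (P.D0 * s) x σ).det ≠ 0)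
    (e : Fin 8 → ℤ) (t0 t1 : ℤ) (H : ℕ → ℚ) (hH : H 0 = 1) (w : Cl → ℤ)
    (hint : ∀ c : Cl, c.2 < P.ht c.1 * s + c0 → ∀ r,
      padicNorm p (latRow p (P.D0 * s) e t0 t1 H x r c) ≤ (p : ℚ) ^ (-w c))
    {R : Type*} [AddCommGroup R] [Module (ZMod p) R] [FiniteDimensional (ZMod p) R]
    (Psi : (Fin (P.D0 * s) × Fin 8 → ZMod p) →ₗ[ZMod p] R) (Lam : R →ₗ[ZMod p] (Cl → ZMod p))
    (hL : ∀ (r : Fin (P.D0 * s) × Fin 8) (c : Cl), c.2 < P.ht c.1 * s + c0 →
      ((latRow p (P.D0 * s) e t0 t1 H x r c * (p : ℚ) ^ (-w c) : ℚ) : ZMod p)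
        = Lam (Psi (Pi.single r 1)) c)
    (W : Submodule (ZMod p) R) :
    ∑ c, w (σ c) + (8 * ((P.D0 * s : ℕ) : ℤ) - finrank (ZMod p) R + finrank (ZMod p) W
        - finrank (ZMod p) (W.map ((tr p P c0 s).comp Lam)))
      - latIdx p (P.D0 * s) e t0 t1 ≤ padicValRat p (Mx (P.D0 * s) x σ).det := by
  classical
  set L := (tr p P c0 s).comp Lam with hLdef
  have h1 := finrank_range_add_le L W
  have h2 := le_val_of_lattice_ker (p := p) hσ hdet e t0 t1 H hH w hint ⊤ (LinearMap.range L)
    (by
      intro v _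
      refine ⟨L (Psi v), ⟨Psi v, rfl⟩, fun c hc => ?_⟩
      have h3 : v = ∑ r, v r • (Pi.single r (1 : ZMod p)) := by
        ext i
        simp [Finset.sum_apply, Pi.single_apply]
      have h4 : Lam (Psi v) c = ∑ r, v r * Lam (Psi (Pi.single r 1)) c := by
        conv_lhs => rw [h3]
        rw [map_sum, map_sum, Finset.sum_apply]
        refine Finset.sum_congr rfl fun r _ => ?_
        rw [map_smul, map_smul, Pi.smul_apply, smul_eq_mul]
      rw [hLdef, LinearMap.comp_apply, tr_apply, if_pos hc, h4]
      exact Finset.sum_congr rfl fun r _ => by rw [hL r c hc])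
  have h5 : finrank (ZMod p) (⊤ : Submodule (ZMod p) (Fin (P.D0 * s) × Fin 8 → ZMod p))
      = 8 * (P.D0 * s) := by
    rw [finrank_top, Module.finrank_fintype_fun_eq_card, Fintype.card_prod, Fintype.card_fin,
      Fintype.card_fin]
    ring
  rw [h5] at h2
  push_cast at h2 ⊢
  have h1' : (finrank (ZMod p) (LinearMap.range L) : ℤ) + finrank (ZMod p) W
      ≤ finrank (ZMod p) R + finrank (ZMod p) (W.map L) := by exact_mod_cast h1
  linarith

end Vale.Agent.P030.H792
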