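import Vale.Agent.P030.H792.MidAdapt

/-!
# The polylogarithmic part of the table of reduced series
-/

open PowerSeries

set_option linter.unusedSectionVars false

namespace Vale.Agent.P030.H792

open Vale.Agent.P030.T Vale.Agent.P030.H678

variable {p : ℕ} [hp : Fact p.Prime] {N : ℕ} {f g : ℚ⟦X⟧}

/-- `p^e f ≡ f(t^p)` -/
def Fr (p N : ℕ) (e : ℤ) (f : ℚ⟦X⟧) : Prop := EqP p N (PowerSeries.C ((p : ℚ) ^ e) * f) (up p f)

theorem Fr.zero (e : ℤ) : Fr p N e 0 := by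
  unfold Fr
  rw [mul_zero, up_zero]
  exact EqP.rfl'

theorem Fr.one : Fr p N 0 1 := by
  unfold Fr
  rw [zpow_zero, map_one, one_mul, up_one]
  exact EqP.rfl'

theorem Fr.cst (q : ℚ) : Fr p N 0 (PowerSeries.C q) := by
  unfold Fr
  rw [zpow_zero, map_one, one_mul, up_C]
  exact EqP.rfl'

theorem Fr.add {e : ℤ} (h1 : Fr p N e f) (h2 : Fr p N e g) : Fr p N e (f + g) := by
  unfold Fr at *
  rw [mul_add, up_add]
  exact h1.add h2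

theorem Fr.neg {e : ℤ} (h1 : Fr p N e f) : Fr p N e (-f) := by
  unfold Fr at *
  rw [mul_neg, up_neg]
  exact h1.neg

theorem Fr.sub {e : ℤ} (h1 : Fr p N e f) (h2 : Fr p N e g) : Fr p N e (f - g) := by
  rw [sub_eq_add_neg]
  exact h1.add h2.neg

theorem Fr.sc {e : ℤ} {q : ℚ} (hq : Vg p 0 q) (h1 : Fr p N e f) : Fr p N e (T.sc q f) := by
  unfold Fr at *
  rw [up_sc]
  have h2 := EqP.mul_left (VB.C (N := N) hq) h1
  unfold T.sc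
  have e1 : PowerSeries.C ((p : ℚ) ^ e) * (PowerSeries.C q * f)
      = PowerSeries.C q * (PowerSeries.C ((p : ℚ) ^ e) * f) := by ring
  rw [e1]
  exact h2

theorem Fr.lgm : Fr p N 1 T.lgm := by
  unfold Fr
  rw [zpow_one]
  exact red_lgm

theorem Fr.lgp (h2 : p ≠ 2) : Fr p N 1 T.lgp := by
  unfold Fr
  rw [zpow_one]
  exact red_lgp h2

theorem ppow2 : ((p : ℚ) ^ (2 : ℤ)) = (p : ℚ) ^ (2 : ℕ) := by norm_cast

theorem Fr.li2 : Fr p N 2 T.li2 := by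
  unfold Fr
  rw [ppow2]
  exact red_li2

theorem Fr.igeoa (h2 : p ≠ 2) (hN : N ≤ p ^ 2) : Fr p N 2 (integ (geoa * T.lgm)) := by
  unfold Fr
  rw [ppow2]
  exact red_int_geoa h2 hN

theorem Fr.igeo2 (h2 : p ≠ 2) (hN : N ≤ p ^ 2) : Fr p N 2 (integ (geo2 * T.lgm)) := by
  unfold Fr
  rw [ppow2]
  exact red_int_geo2 h2 hN

theorem Fr.lgm2 (hN : N ≤ p ^ 2) : Fr p N 2 (T.lgm ^ 2) := by
  unfold Fr
  rw [ppow2]
  exact red_lgm_sq hN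

theorem fr_z1 (h2 : p ≠ 2) (hN : N ≤ p ^ 2) :
    ∀ j : Fin 8, (j : ℕ) < 6 → Fr p N (wr8 j - wg .z1) (tup0 .z1 j)
  | 0, _ => (Fr.one : Fr p N 0 1)
  | 1, _ => Fr.zero _
  | 2, _ => (Fr.lgm : Fr p N 1 T.lgm)
  | 3, _ => (Fr.li2 : Fr p N 2 T.li2)
  | 4, _ => (Fr.igeoa h2 hN : Fr p N 2 (integ (geoa * T.lgm)))
  | 5, _ => (Fr.sc (Vg_half h2) (Fr.lgm2 hN) : Fr p N 2 (sc (1 / 2) (T.lgm ^ 2)))
  | 6, h => absurd h (by decide)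
  | 7, h => absurd h (by decide)

theorem fr_zl (h2 : p ≠ 2) :
    ∀ j : Fin 8, (j : ℕ) < 6 → Fr p N (wr8 j - wg .zl) (tup0 .zl j)
  | 0, _ => Fr.zero _
  | 1, _ => (Fr.one : Fr p N 0 1)
  | 2, _ => Fr.zero _
  | 3, _ => Fr.zero _
  | 4, _ => ((Fr.sc (Vg_half h2) Fr.lgm).add (Fr.lgp h2) :
      Fr p N 1 (sc (1 / 2) T.lgm + T.lgp))
  | 5, _ => (Fr.sc (Vg_half h2) Fr.lgm : Fr p N 1 (sc (1 / 2) T.lgm))
  | 6, h => absurd h (by decide)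
  | 7, h => absurd h (by decide)

theorem fr_z8 : ∀ j : Fin 8, (j : ℕ) < 6 → Fr p N (wr8 j - wg .z8) (tup0 .z8 j)
  | 0, _ => Fr.zero _
  | 1, _ => Fr.zero _
  | 2, _ => Fr.zero _
  | 3, _ => Fr.zero _
  | 4, _ => Fr.zero _
  | 5, _ => Fr.zero _
  | 6, h => absurd h (by decide)
  | 7, h => absurd h (by decide)

theorem fr_zab : ∀ j : Fin 8, (j : ℕ) < 6 → Fr p N (wr8 j - wg .zab) (tup0 .zab j)
  | 0, _ => Fr.zero _
  | 1, _ => Fr.zero _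
  | 2, _ => Fr.zero _
  | 3, _ => (Fr.one : Fr p N 0 1)
  | 4, _ => Fr.zero _
  | 5, _ => Fr.zero _
  | 6, h => absurd h (by decide)
  | 7, h => absurd h (by decide)

theorem fr_w1 (h2 : p ≠ 2) (hN : N ≤ p ^ 2) :
    ∀ j : Fin 8, (j : ℕ) < 6 → Fr p N (wr8 j - wg .w1) (tup0 .w1 j)
  | 0, _ => (Fr.one : Fr p N 0 1)
  | 1, _ => Fr.zero _
  | 2, _ => (Fr.lgm.neg : Fr p N 1 (-T.lgm))
  | 3, _ => ((Fr.sc Vg_two (Fr.igeo2 h2 hN)).neg :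
      Fr p N 2 (-sc 2 (integ (geo2 * T.lgm))))
  | 4, _ => (Fr.li2.neg.sub (Fr.sc (Vg_half h2) (Fr.lgm2 hN)) :
      Fr p N 2 (-T.li2 - sc (1 / 2) (T.lgm ^ 2)))
  | 5, _ => (Fr.sc (Vg_half h2) (Fr.lgm2 hN) : Fr p N 2 (sc (1 / 2) (T.lgm ^ 2)))
  | 6, h => absurd h (by decide)
  | 7, h => absurd h (by decide)

theorem fr_wl (h2 : p ≠ 2) :
    ∀ j : Fin 8, (j : ℕ) < 6 → Fr p N (wr8 j - wg .wl) (tup0 .wl j)
  | 0, _ => Fr.zero _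
  | 1, _ => (Fr.one : Fr p N 0 1)
  | 2, _ => (Fr.one.neg : Fr p N 0 (-1))
  | 3, _ => (((Fr.lgp h2).add Fr.lgm).neg : Fr p N 1 (-(T.lgp + T.lgm)))
  | 4, _ => ((Fr.sc (Vg_half h2) Fr.lgm).neg : Fr p N 1 (-sc (1 / 2) T.lgm))
  | 5, _ => (Fr.sc (Vg_half h2) Fr.lgm : Fr p N 1 (sc (1 / 2) T.lgm))
  | 6, h => absurd h (by decide)
  | 7, h => absurd h (by decide)

theorem fr_wy : ∀ j : Fin 8, (j : ℕ) < 6 → Fr p N (wr8 j - wg .wy) (tup0 .wy j)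
  | 0, _ => Fr.zero _
  | 1, _ => Fr.zero _
  | 2, _ => Fr.zero _
  | 3, _ => ((Fr.cst _).neg : Fr p N 0 (-PowerSeries.C (4 / 3)))
  | 4, _ => ((Fr.cst _).neg : Fr p N 0 (-PowerSeries.C (4 / 3)))
  | 5, _ => Fr.zero _
  | 6, h => absurd h (by decide)
  | 7, h => absurd h (by decide)

theorem fr_w8 : ∀ j : Fin 8, (j : ℕ) < 6 → Fr p N (wr8 j - wg .w8) (tup0 .w8 j)
  | 0, _ => Fr.zero _
  | 1, _ => Fr.zero _
  | 2, _ => Fr.zero _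
  | 3, _ => Fr.zero _
  | 4, _ => Fr.zero _
  | 5, _ => Fr.zero _
  | 6, h => absurd h (by decide)
  | 7, h => absurd h (by decide)

theorem fr_wab : ∀ j : Fin 8, (j : ℕ) < 6 → Fr p N (wr8 j - wg .wab) (tup0 .wab j)
  | 0, _ => Fr.zero _
  | 1, _ => Fr.zero _
  | 2, _ => Fr.zero _
  | 3, _ => (Fr.one : Fr p N 0 1)
  | 4, _ => Fr.zero _
  | 5, _ => Fr.zero _
  | 6, h => absurd h (by decide)
  | 7, h => absurd h (by decide)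

theorem fr_wf7 : ∀ j : Fin 8, (j : ℕ) < 6 → Fr p N (wr8 j - wg .wf7) (tup0 .wf7 j)
  | 0, _ => Fr.zero _
  | 1, _ => Fr.zero _
  | 2, _ => Fr.zero _
  | 3, _ => Fr.zero _
  | 4, _ => Fr.zero _
  | 5, _ => (Fr.one : Fr p N 0 1)
  | 6, h => absurd h (by decide)
  | 7, h => absurd h (by decide)

theorem fr_v2 : ∀ j : Fin 8, (j : ℕ) < 6 → Fr p N (wr8 j - wg .v2) (tup0 .v2 j)
  | 0, _ => Fr.zero _
  | 1, _ => Fr.zero _
  | 2, _ => Fr.zero _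
  | 3, _ => (Fr.one.neg : Fr p N 0 (-1))
  | 4, _ => (Fr.one.neg : Fr p N 0 (-1))
  | 5, _ => (Fr.one : Fr p N 0 1)
  | 6, h => absurd h (by decide)
  | 7, h => absurd h (by decide)

theorem fr_vl : ∀ j : Fin 8, (j : ℕ) < 6 → Fr p N (wr8 j - wg .vl) (tup0 .vl j)
  | 0, _ => Fr.zero _
  | 1, _ => Fr.zero _
  | 2, _ => Fr.zero _
  | 3, _ => Fr.zero _
  | 4, _ => (Fr.one.neg : Fr p N 0 (-1))
  | 5, _ => (Fr.one : Fr p N 0 1)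
  | 6, h => absurd h (by decide)
  | 7, h => absurd h (by decide)

theorem fr_v8 : ∀ j : Fin 8, (j : ℕ) < 6 → Fr p N (wr8 j - wg .v8) (tup0 .v8 j)
  | 0, _ => Fr.zero _
  | 1, _ => Fr.zero _
  | 2, _ => Fr.zero _
  | 3, _ => Fr.zero _
  | 4, _ => Fr.zero _
  | 5, _ => Fr.zero _
  | 6, h => absurd h (by decide)
  | 7, h => absurd h (by decide)

theorem fr_vb (h2 : p ≠ 2) : ∀ j : Fin 8, (j : ℕ) < 6 → Fr p N (wr8 j - wg .vb) (tup0 .vb j)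
  | 0, _ => Fr.zero _
  | 1, _ => Fr.zero _
  | 2, _ => (Fr.one : Fr p N 0 1)
  | 3, _ => Fr.zero _
  | 4, _ => (Fr.lgp h2 : Fr p N 1 T.lgp)
  | 5, _ => (Fr.lgm : Fr p N 1 T.lgm)
  | 6, h => absurd h (by decide)
  | 7, h => absurd h (by decide)

theorem fr_x2 : ∀ j : Fin 8, (j : ℕ) < 6 → Fr p N (wr8 j - wg .x2) (tup0 .x2 j)
  | 0, _ => Fr.zero _
  | 1, _ => Fr.zero _
  | 2, _ => Fr.zero _
  | 3, _ => Fr.zero _
  | 4, _ => Fr.zero _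
  | 5, _ => (Fr.cst _ : Fr p N 0 (PowerSeries.C (1 / 2)))
  | 6, h => absurd h (by decide)
  | 7, h => absurd h (by decide)

theorem fr_xl : ∀ j : Fin 8, (j : ℕ) < 6 → Fr p N (wr8 j - wg .xl) (tup0 .xl j)
  | 0, _ => Fr.zero _
  | 1, _ => Fr.zero _
  | 2, _ => Fr.zero _
  | 3, _ => Fr.zero _
  | 4, _ => (Fr.one.neg : Fr p N 0 (-1))
  | 5, _ => (Fr.one : Fr p N 0 1)
  | 6, h => absurd h (by decide)
  | 7, h => absurd h (by decide)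

theorem fr_x1 (h2 : p ≠ 2) : ∀ j : Fin 8, (j : ℕ) < 6 → Fr p N (wr8 j - wg .x1) (tup0 .x1 j)
  | 0, _ => Fr.zero _
  | 1, _ => Fr.zero _
  | 2, _ => (Fr.one.neg : Fr p N 0 (-1))
  | 3, _ => (((Fr.lgp h2).add Fr.lgm).neg : Fr p N 1 (-(T.lgp + T.lgm)))
  | 4, _ => (Fr.lgm.neg : Fr p N 1 (-T.lgm))
  | 5, _ => (Fr.lgm : Fr p N 1 T.lgm)
  | 6, h => absurd h (by decide)
  | 7, h => absurd h (by decide)

/-- **(P)** for all groups -/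
theorem fr_tup0 (h2 : p ≠ 2) (hN : N ≤ p ^ 2) (g : Gp) (j : Fin 8) (hj : (j : ℕ) < 6) :
    Fr p N (wr8 j - wg g) (tup0 g j) := by
  cases g
  · exact fr_z1 h2 hN j hj
  · exact fr_zl h2 j hj
  · exact fr_z8 j hj
  · exact fr_zab j hj
  · exact fr_w1 h2 hN j hj
  · exact fr_wl h2 j hj
  · exact fr_wy j hj
  · exact fr_w8 j hj
  · exact fr_wab j hj
  · exact fr_wf7 j hj
  · exact fr_v2 j hj
  · exact fr_vl j hj
  · exact fr_v8 j hj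
  · exact fr_vb h2 j hj
  · exact fr_x2 j hj
  · exact fr_xl j hj
  · exact fr_x1 h2 j hj

/-! ### transport to `ZMod p` -/

/-- coefficientwise reduction -/
noncomputable def rdS (p : ℕ) [Fact p.Prime] (f : ℚ⟦X⟧) : (ZMod p)⟦X⟧ :=
  mk fun k => ((coeff k f : ℚ) : ZMod p)

theorem coeff_rdS (f : ℚ⟦X⟧) (k : ℕ) : coeff k (rdS p f) = ((coeff k f : ℚ) : ZMod p) :=
  coeff_mk _ _

theorem rd_up_of_vb (h : VB p N 0 (up p f)) : Rd p N (up p f) (H392.up p (rdS p f)) := by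
  intro k hk
  have h1 : padicNorm p (coeff k (up p f)) ≤ (p : ℚ) ^ (-(0 : ℤ)) := h k hk
  rw [neg_zero, zpow_zero] at h1
  refine ⟨h1, ?_⟩
  unfold H678.up H392.up
  rw [coeff_mk, coeff_mk]
  split_ifs with hd
  · rw [coeff_rdS]
  · rw [Rat.cast_zero]

theorem rd_of_eqP (h1 : EqP p N g (up p f)) (h0 : VB p N 0 g) :
    Rd p N g (H392.up p (rdS p f)) :=
  Rd.congr h1 (rd_up_of_vb (h1.symm.vb0 h0))

/-- **(R1)** -/
theorem rd_r1 (h2 : p ≠ 2) (h3 : p ≠ 3) (hN : N + 1 ≤ p ^ 2) (g : Gp) (j : Fin 8)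
    (hj : (j : ℕ) < 6) :
    Rd p N (PowerSeries.C ((p : ℚ) ^ (wr8 j - wg g)) * tup0 g j)
      (H392.up p (rdS p (tup0 g j))) := by
  refine rd_of_eqP (fr_tup0 h2 (by omega) g j hj) ?_
  have h4 : VB p N (wg g - wr8 j) (tup0 g j) := val_tup0 h2 h3 hN g j
  intro k hk
  have h5 : padicNorm p (coeff k (tup0 g j)) ≤ (p : ℚ) ^ (-(wg g - wr8 j)) := h4 k hk
  have hp0 : (p : ℚ) ≠ 0 := by exact_mod_cast hp.out.ne_zero
  change padicNorm p (coeff k (PowerSeries.C ((p : ℚ) ^ (wr8 j - wg g)) * tup0 g j))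
    ≤ (p : ℚ) ^ (-(0 : ℤ))
  rw [coeff_C_mul, padicNorm.mul, ppow_norm]
  calc (p : ℚ) ^ (-(wr8 j - wg g)) * padicNorm p (coeff k (tup0 g j))
      ≤ (p : ℚ) ^ (-(wr8 j - wg g)) * (p : ℚ) ^ (-(wg g - wr8 j)) :=
        mul_le_mul_of_nonneg_left h5 (zpow_pos' _).le
    _ = (p : ℚ) ^ (-(0 : ℤ)) := by rw [← zpow_add₀ hp0]; congr 1; ring

end Vale.Agent.P030.H792
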