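import Vale.Agent.P030.H392.Tab2
import Vale.Agent.P030.H611.KapI
import Vale.Agent.P030.H641.Adapt
import Vale.Agent.P030.H678.RdAll
import Vale.Agent.P030.H778.OdB

/-!
# The odd part of design A, unconditional: `104393 / 60`
-/

open PowerSeries

set_option linter.unusedSectionVars false

namespace Vale.Agent.P030.H792

open Vale.Agent.P030.T Vale.Agent.P030.H678

variable {p : ℕ} [hp : Fact p.Prime]

/-- the factors of the groups modulo `p` -/
noncomputable def eM (p : ℕ) [Fact p.Prime] (g : Gp) : ZMod p := ((sg p g : ℚ) : ZMod p)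

theorem norm_of_VB {N n : ℕ} {f : ℚ⟦X⟧} (h : VB p N 0 f) (hn : n < N) :
    padicNorm p (coeff n f) ≤ 1 := Vg.norm_le (h n hn)

theorem eM_chi (g : Gp) (h1 : g ≠ .z8) (h2 : g ≠ .v8) : eM p g = ((chi p : ℚ) : ZMod p) := by
  unfold eM
  cases g <;> first | rfl | exact absurd rfl h1 | exact absurd rfl h2

theorem eM_v8 : eM p .v8 = 1 := by
  have h : sg p .v8 = 1 := rfl
  unfold eM
  rw [h, Rat.cast_one]

theorem eM_z8 : eM p .z8 = 1 := by
  have h : sg p .z8 = 1 := rfl
  unfold eM
  rw [h, Rat.cast_one]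

theorem eM_sq (g : Gp) : eM p g * eM p g = 1 := by
  unfold eM
  rw [← red_mul (Vsg g).norm_le (Vsg g).norm_le]
  have h : sg p g * sg p g = 1 := by
    cases g <;> first | exact chi_sq p | exact one_mul 1
  rw [h, Rat.cast_one]

theorem bet_eq (g : Gp) : bet p g = C (sg p g) * H611.tF g := by
  have h0 : ∀ q : ℚ, (0 : ℚ⟦X⟧) = C q * 0 := fun q => (mul_zero _).symm
  cases g with
  | z1 =>
    show (1 - X) * (C (chi p) * serB) = C (chi p) * ((1 - X) * serB)
    ring
  | z8 =>
    show (1 - X) * serK = C 1 * ((1 - X) * serK)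
    rw [map_one, one_mul]
  | w1 => rfl
  | wy =>
    show -(C (chi p) * serK) = C (chi p) * (-serK)
    ring
  | w8 => rfl
  | v8 =>
    show -((1 - X) * serK) = C 1 * (-((1 - X) * serK))
    rw [map_one, one_mul]
  | x2 =>
    show C (1 / 8) * (C (chi p) * serK) = C (chi p) * (C (1 / 8) * serK)
    ring
  | xl =>
    show -(C (chi p) * serK) = C (chi p) * (-serK)
    ring
  | x1 =>
    show C (1 / 4) * (C (chi p) * serM) = C (chi p) * (C (1 / 4) * serM)
    ring
  | zl => exact h0 _
  | zab => exact h0 _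
  | wl => exact h0 _
  | wab => exact h0 _
  | wf7 => exact h0 _
  | v2 => exact h0 _
  | vl => exact h0 _
  | vb => exact h0 _

theorem coeff_smul_red {N n : ℕ} {f : ℚ⟦X⟧} (h : VB p N 0 f) (hn : n < N) (g : Gp) :
    coeff n (rdS p (C (sg p g) * f)) = eM p g * ((coeff n f : ℚ) : ZMod p) := by
  rw [coeff_rdS, coeff_C_mul, red_mul (Vsg g).norm_le (norm_of_VB h hn)]
  rfl

/-- the reduced data are the canonical ones -/
theorem canon (hp5 : 5 ≤ p) :
    H392.Canon p (mdat p) (((chi p : ℚ) : ZMod p)) (eM p) where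
  he := eM_chi
  he8 := eM_v8
  hph := fun g j n _ => coeff_rdS _ n
  hbe := fun g n hn => by
    show coeff n (rdS p (bet p g)) = _
    rw [bet_eq]
    exact coeff_smul_red (H611.vb_tF hp5 g) (hn.trans_le (H611.ordk_le g)) g
  hta := fun g n hn => coeff_smul_red (H611.vb_t7 hp5 g) (hn.trans_le (H611.ordk_le g)) g

theorem tabAll : H392.TabAll := fun p _ hp5 N hN _ =>
  ⟨mdat p, _, eM p, rdTab (by omega) (by omega) (fun g => by have := hN g; omega), canon hp5⟩

theorem midIn (c0 : ℕ) : H392.MidIn c0 := H392.midIn_of_tab tabAll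

theorem redAll (c0 : ℕ) : H641.RedAll c0 :=
  H641.redAll_of_tab fun p _ hp5 N hN _ =>
    ⟨mdat p, rdTab (by omega) (by omega) (fun g => by have := hN g; omega)⟩

theorem kapAll (c0 : ℕ) : H611.KapAll c0 := by
  intro p hp hp5 s h1 h2 h3 h4
  have c := canon (p := p) hp5
  refine ⟨mdat p, _, eM p, rdTab (by omega) (by omega) (fun g => ?_),
    H611.kapTab_of hp5 c.he eM_sq c.hph c.hbe c.hta⟩
  have h8 : H579.parA.ht g ≤ 32 := by cases g <;> decide
  have h9 := Nat.mul_le_mul_right s h8
  show H579.parA.ht g * s + c0 + 1 ≤ p ^ 2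
  omega

/-- **the odd part of design A** (`104393 / 60 = 1739.883`), unconditional -/
theorem stOD_best (c0 : ℕ) : StOD H579.parA c0 (104393 / 60) :=
  H778.stOD_final c0 (redAll c0) (kapAll c0) (midIn c0)

/-- the form of the final merge -/
theorem stOD_A7 : StOD H579.parA 7 (104393 / 60) := stOD_best 7

end Vale.Agent.P030.H792
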