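import Mathlib

/-!
# p-adic size of determinants through features (P030, places OD and TWO)

`M = X * Y` with an arbitrary finite set of features; the p-adic norm of `det M` is bounded by the
best (cheapest) injective assignment columns -> features.  Dual certificates are included.
-/

namespace Vale.Agent.P030.H792

open Finset Matrix

section Alg

variable {n κ R : Type*} [Fintype n] [DecidableEq n] [Fintype κ] [CommRing R]

/-- Cauchy-Binet without ordering: the determinant of a product as a sum over all maps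
columns -> features. -/
theorem det_mul_sum (X : Matrix n κ R) (Y : Matrix κ n R) :
    (X * Y).det = ∑ f : n → κ, (∏ c, Y (f c) c) * (X.submatrix id f).det := by
  classical
  have h1 : (X * Y).det = detRowAlternating fun c => ∑ k, Y k c • (fun i => X i k) := by
    rw [← det_transpose]
    change detRowAlternating _ = _
    congr 1
    funext c i
    simp only [transpose_apply, mul_apply, Finset.sum_apply, Pi.smul_apply, smul_eq_mul]
    exact Finset.sum_congr rfl fun k _ => mul_comm _ _
  rw [h1]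
  have h2 := (detRowAlternating (n := n) (R := R)).toMultilinearMap.map_sum
    (fun (c : n) (k : κ) => Y k c • (fun i => X i k))
  have h3 : detRowAlternating (fun c => ∑ k, Y k c • (fun i => X i k))
      = ∑ f : n → κ, detRowAlternating fun c => Y (f c) c • (fun i => X i (f c)) := h2
  rw [h3]
  refine Finset.sum_congr rfl fun f _ => ?_
  have h4 := (detRowAlternating (n := n) (R := R)).toMultilinearMap.map_smul_univ
    (fun c => Y (f c) c) (fun c i => X i (f c))
  have h5 : detRowAlternating (fun c => Y (f c) c • (fun i => X i (f c)))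
      = (∏ c, Y (f c) c) • detRowAlternating (fun c i => X i (f c)) := h4
  rw [h5, smul_eq_mul]
  congr 1
  change Matrix.det _ = _
  rw [← det_transpose]
  rfl

theorem det_submatrix_not_inj (X : Matrix n κ R) {f : n → κ} (hf : ¬ Function.Injective f) :
    (X.submatrix id f).det = 0 := by
  obtain ⟨a, b, hab, hne⟩ := Function.not_injective_iff.mp hf
  exact det_zero_of_column_eq hne fun i => by simp [submatrix_apply, hab]

end Alg

section Norm

variable {p : ℕ} [hp : Fact p.Prime]

theorem padicNorm_sum_le' {ι : Type*} {F : ι → ℚ} {t : ℚ} (s : Finset ι) (ht : 0 ≤ t)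
    (h : ∀ i ∈ s, padicNorm p (F i) ≤ t) : padicNorm p (∑ i ∈ s, F i) ≤ t := by
  classical
  induction s using Finset.induction_on with
  | empty => simpa using ht
  | insert a s ha ih =>
    rw [Finset.sum_insert ha]
    refine le_trans padicNorm.nonarchimedean (max_le (h a (by simp)) (ih fun i hi => h i (by simp [hi])))

theorem padicNorm_prod {ι : Type*} (s : Finset ι) (F : ι → ℚ) :
    padicNorm p (∏ i ∈ s, F i) = ∏ i ∈ s, padicNorm p (F i) := by
  classical
  induction s using Finset.induction_on with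
  | empty => simp
  | insert a s ha ih => rw [Finset.prod_insert ha, Finset.prod_insert ha, padicNorm.mul, ih]

theorem padicNorm_zpow' (x : ℚ) (a : ℤ) : padicNorm p (x ^ a) = padicNorm p x ^ a := by
  cases a with
  | ofNat m =>
    simp only [Int.ofNat_eq_natCast, zpow_natCast]
    induction m with
    | zero => simp
    | succ m ih => rw [pow_succ, padicNorm.mul, ih, pow_succ]
  | negSucc m =>
    have h : ∀ m : ℕ, padicNorm p (x ^ m) = padicNorm p x ^ m := by
      intro m
      induction m with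
      | zero => simp
      | succ m ih => rw [pow_succ, padicNorm.mul, ih, pow_succ]
    rw [zpow_negSucc, zpow_negSucc, ← h]
    have h1 := padicNorm.div (p := p) 1 (x ^ (m + 1))
    rw [one_div, padicNorm.one, one_div] at h1
    exact h1

theorem zpow_pos' (a : ℤ) : (0 : ℚ) < (p : ℚ) ^ a :=
  zpow_pos (by exact_mod_cast hp.out.pos) a

theorem prod_zpow_neg {ι : Type*} (s : Finset ι) (a : ι → ℤ) :
    ∏ i ∈ s, (p : ℚ) ^ (-(a i)) = (p : ℚ) ^ (-(∑ i ∈ s, a i)) := by
  classical
  have hp0 : (p : ℚ) ≠ 0 := by exact_mod_cast hp.out.ne_zero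
  induction s using Finset.induction_on with
  | empty => simp
  | insert b s hb ih => rw [Finset.prod_insert hb, ih, Finset.sum_insert hb, ← zpow_add₀ hp0]; congr 1; ring

variable {n κ : Type*} [Fintype n] [DecidableEq n]

/-- Leibniz bound with column exponents. -/
theorem padicNorm_det_le_cols (A : Matrix n n ℚ) (α : n → ℤ)
    (h : ∀ i c, padicNorm p (A i c) ≤ (p : ℚ) ^ (-(α c))) :
    padicNorm p A.det ≤ (p : ℚ) ^ (-(∑ c, α c)) := by
  rw [det_apply]
  refine padicNorm_sum_le' _ (zpow_pos' _).le fun σ _ => ?_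
  have h1 : padicNorm p (Equiv.Perm.sign σ • ∏ i, A (σ i) i) = padicNorm p (∏ i, A (σ i) i) := by
    rcases Int.units_eq_one_or (Equiv.Perm.sign σ) with h | h <;> simp [h]
  rw [h1, padicNorm_prod, ← prod_zpow_neg]
  exact Finset.prod_le_prod (fun i _ => padicNorm.nonneg _) fun i _ => h (σ i) i

variable [Fintype κ]

/-- **Feature bound.** -/
theorem padicNorm_det_mul_le (X : Matrix n κ ℚ) (Y : Matrix κ n ℚ) (α : κ → ℤ) (β : κ → n → ℤ)
    (a : ℤ) (hX : ∀ i k, padicNorm p (X i k) ≤ (p : ℚ) ^ (-(α k)))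
    (hY : ∀ k c, padicNorm p (Y k c) ≤ (p : ℚ) ^ (-(β k c)))
    (h : ∀ f : n → κ, Function.Injective f → (∀ c, Y (f c) c ≠ 0) →
      a ≤ ∑ c, (α (f c) + β (f c) c)) :
    padicNorm p (X * Y).det ≤ (p : ℚ) ^ (-a) := by
  classical
  have hp1 : (1 : ℚ) ≤ p := by exact_mod_cast hp.out.one_lt.le
  rw [det_mul_sum]
  refine padicNorm_sum_le' _ (zpow_pos' _).le fun f _ => ?_
  by_cases hf : Function.Injective f
  · by_cases h0 : ∀ c, Y (f c) c ≠ 0
    · rw [padicNorm.mul, padicNorm_prod]
      have h1 : padicNorm p (X.submatrix id f).det ≤ (p : ℚ) ^ (-(∑ c, α (f c))) :=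
        padicNorm_det_le_cols _ _ fun i c => hX i (f c)
      have h2 : ∏ c, padicNorm p (Y (f c) c) ≤ (p : ℚ) ^ (-(∑ c, β (f c) c)) := by
        rw [← prod_zpow_neg]
        exact Finset.prod_le_prod (fun i _ => padicNorm.nonneg _) fun c _ => hY (f c) c
      calc (∏ c, padicNorm p (Y (f c) c)) * padicNorm p (X.submatrix id f).det
          ≤ (p : ℚ) ^ (-(∑ c, β (f c) c)) * (p : ℚ) ^ (-(∑ c, α (f c))) :=
            mul_le_mul h2 h1 (padicNorm.nonneg _) (zpow_pos' _).le
        _ = (p : ℚ) ^ (-(∑ c, (α (f c) + β (f c) c))) := by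
            rw [← zpow_add₀ (by exact_mod_cast hp.out.ne_zero), Finset.sum_add_distrib]
            congr 1; ring
        _ ≤ (p : ℚ) ^ (-a) := zpow_le_zpow_right₀ hp1 (by have := h f hf h0; linarith)
    · obtain ⟨c, hc⟩ := not_forall.mp h0
      have hz : (∏ c : n, Y (f c) c) = 0 := Finset.prod_eq_zero (Finset.mem_univ c) (not_not.mp hc)
      rw [hz, zero_mul, padicNorm.zero]
      exact (zpow_pos' _).le
  · rw [det_submatrix_not_inj X hf, mul_zero, padicNorm.zero]
    exact (zpow_pos' _).le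

/-- weak duality for a sum over an injective choice of features -/
theorem sum_inj_ge {f : n → κ} (hf : Function.Injective f) (u : κ → ℤ) (s : ℤ) :
    (Fintype.card n : ℤ) * s + ∑ k, min (u k - s) 0 ≤ ∑ c, u (f c) := by
  classical
  have h1 : ∑ k, min (u k - s) 0 ≤ ∑ c, (u (f c) - s) := by
    calc ∑ k, min (u k - s) 0 ≤ ∑ k ∈ Finset.univ.image f, min (u k - s) 0 := by
          rw [← Finset.sum_sdiff (Finset.subset_univ (Finset.univ.image f))]
          have : ∑ k ∈ Finset.univ \ Finset.univ.image f, min (u k - s) 0 ≤ 0 :=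
            Finset.sum_nonpos fun k _ => min_le_right _ _
          linarith
      _ = ∑ c, min (u (f c) - s) 0 := by
          rw [Finset.sum_image fun a _ b _ h => hf h]
      _ ≤ ∑ c, (u (f c) - s) := Finset.sum_le_sum fun c _ => min_le_left _ _
  rw [Finset.sum_sub_distrib] at h1
  simp only [Finset.sum_const, Finset.card_univ, nsmul_eq_mul] at h1
  linarith

/-- **Dual certificate form.** -/
theorem padicNorm_det_mul_le_dual (X : Matrix n κ ℚ) (Y : Matrix κ n ℚ) (α : κ → ℤ)
    (β : κ → n → ℤ) (hX : ∀ i k, padicNorm p (X i k) ≤ (p : ℚ) ^ (-(α k)))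
    (hY : ∀ k c, padicNorm p (Y k c) ≤ (p : ℚ) ^ (-(β k c)))
    (u : κ → ℤ) (w : n → ℤ) (huw : ∀ k c, Y k c ≠ 0 → u k + w c ≤ α k + β k c) (s : ℤ) :
    padicNorm p (X * Y).det
      ≤ (p : ℚ) ^ (-((Fintype.card n : ℤ) * s + ∑ k, min (u k - s) 0 + ∑ c, w c)) := by
  refine padicNorm_det_mul_le X Y α β _ hX hY fun f hf h0 => ?_
  have h1 := sum_inj_ge hf u s
  have h2 : ∑ c, (u (f c) + w c) ≤ ∑ c, (α (f c) + β (f c) c) :=
    Finset.sum_le_sum fun c _ => huw _ _ (h0 c)
  rw [Finset.sum_add_distrib] at h2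
  linarith

/-- Leibniz/assignment bound with dual potentials (features = rows). -/
theorem padicNorm_det_le_dual (M : Matrix n n ℚ) (β : n → n → ℤ)
    (hM : ∀ i c, padicNorm p (M i c) ≤ (p : ℚ) ^ (-β i c)) (u w : n → ℤ)
    (huw : ∀ i c, M i c ≠ 0 → u i + w c ≤ β i c) :
    padicNorm p M.det ≤ (p : ℚ) ^ (-(∑ i, u i + ∑ c, w c)) := by
  rw [← Matrix.one_mul M]
  refine padicNorm_det_mul_le 1 M (fun _ => 0) β _ (fun i k => ?_) hM fun f hf h0 => ?_
  · rw [neg_zero, zpow_zero, Matrix.one_apply]
    split_ifs <;> simp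
  · have hb : Function.Bijective f := Finite.injective_iff_bijective.mp hf
    have h1 : ∑ i, u i = ∑ c, u (f c) := (Function.Bijective.sum_comp hb u).symm
    rw [h1, ← Finset.sum_add_distrib]
    exact Finset.sum_le_sum fun c _ => by simpa using huw _ _ (h0 c)

/-- **Rank form.**  All entries `p`-integral; in the columns `C`, outside the rows `R`, the matrix is
`A * B` (inner dimension `r`) plus `p * E`.  Then `det M` is divisible by `p ^ (|C| - r - |R|)`. -/
theorem padicNorm_det_le_rank {ρ : Type*} [Fintype ρ] (M : Matrix n n ℚ) (C R : Finset n)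
    (A : Matrix n ρ ℚ) (B : Matrix ρ n ℚ) (E : Matrix n n ℚ)
    (hM : ∀ i c, padicNorm p (M i c) ≤ 1) (hA : ∀ i j, padicNorm p (A i j) ≤ 1)
    (hB : ∀ j c, padicNorm p (B j c) ≤ 1) (hE : ∀ i c, padicNorm p (E i c) ≤ 1)
    (h : ∀ i, i ∉ R → ∀ c ∈ C, M i c = (A * B) i c + p * E i c) :
    padicNorm p M.det
      ≤ (p : ℚ) ^ (-((C.card : ℤ) - (Fintype.card ρ : ℤ) - (R.card : ℤ))) := by
  classical
  have hp0 : (p : ℚ) ≠ 0 := by exact_mod_cast hp.out.ne_zero
  have hp1 : (1 : ℚ) ≤ p := by exact_mod_cast hp.out.one_lt.le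
  -- features : ρ | rows R (in the columns C) | p * e_i (in the columns C) | e_i (outside C)
  let κ' := ρ ⊕ ({i // i ∈ R} ⊕ (n ⊕ n))
  let X : Matrix n κ' ℚ := fun i => Sum.elim (fun j => if i ∈ R then 0 else A i j)
    (Sum.elim (fun k => if i = k.1 then 1 else 0)
      (Sum.elim (fun k => if i = k then (if i ∈ R then 0 else (p : ℚ)) else 0)
        (fun k => if i = k then 1 else 0)))
  let Y : Matrix κ' n ℚ := fun k c => Sum.elim (fun j => if c ∈ C then B j c else 0)
    (Sum.elim (fun k => if c ∈ C then M k.1 c else 0)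
      (Sum.elim (fun k => if c ∈ C then E k c else 0) (fun k => if c ∈ C then 0 else M k c))) k
  let α : κ' → ℤ := Sum.elim (fun _ => 0) (Sum.elim (fun _ => 0) (Sum.elim (fun _ => 1) (fun _ => 0)))
  have hXY : M = X * Y := by
    ext i c
    rw [Matrix.mul_apply, Fintype.sum_sum_type, Fintype.sum_sum_type, Fintype.sum_sum_type]
    simp only [X, Y, Sum.elim_inl, Sum.elim_inr]
    by_cases hc : c ∈ C
    · by_cases hi : i ∈ R
      · simp only [hc, hi, if_true, if_false, zero_mul, Finset.sum_const_zero, mul_zero, add_zero,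
          ite_self, zero_add]
        have h1 : ∑ x : {i // i ∈ R}, (if i = x.1 then (1 : ℚ) else 0) * M x.1 c
            = ∑ x : {i // i ∈ R}, if (⟨i, hi⟩ : {i // i ∈ R}) = x then M x.1 c else 0 := by
          refine Finset.sum_congr rfl fun x _ => ?_
          by_cases hx : i = x.1
          · simp [hx]
          · have : (⟨i, hi⟩ : {i // i ∈ R}) ≠ x := fun h => hx (by rw [← h])
            simp [hx, this]
        rw [h1, Finset.sum_ite_eq]
        simp
      · simp only [hc, hi, if_true, if_false, mul_zero, Finset.sum_const_zero, add_zero]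
        have h1 : ∑ x : {i // i ∈ R}, (if i = x.1 then (1 : ℚ) else 0) * M x.1 c = 0 := by
          refine Finset.sum_eq_zero fun x _ => ?_
          have hx : i ≠ x.1 := fun h => hi (h ▸ x.2)
          simp [hx]
        have h2 : ∑ x : n, (if i = x then (p : ℚ) else 0) * E x c = p * E i c := by
          simp [ite_mul]
        rw [h1, h2, h i hi c hc, Matrix.mul_apply]
        ring
    · simp only [hc, if_false, mul_zero, Finset.sum_const_zero, zero_add]
      simp [ite_mul]
  have hX : ∀ i k, padicNorm p (X i k) ≤ (p : ℚ) ^ (-(α k)) := by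
    intro i k
    rcases k with j | k | k | k
    · simp only [X, α, Sum.elim_inl, neg_zero, zpow_zero]
      split_ifs
      · simp
      · exact hA i j
    · simp only [X, α, Sum.elim_inl, Sum.elim_inr, neg_zero, zpow_zero]
      split_ifs <;> simp
    · simp only [X, α, Sum.elim_inl, Sum.elim_inr]
      have h0 : (0 : ℚ) ≤ (p : ℚ) ^ (-(1 : ℤ)) := (zpow_pos' _).le
      split_ifs
      · rw [padicNorm.zero]; exact h0
      · rw [padicNorm.padicNorm_p hp.out.one_lt, _root_.zpow_neg, zpow_one]
      · rw [padicNorm.zero]; exact h0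
    · simp only [X, α, Sum.elim_inr, neg_zero, zpow_zero]
      split_ifs <;> simp
  have hY : ∀ k c, padicNorm p (Y k c) ≤ (p : ℚ) ^ (-(0 : ℤ)) := by
    intro k c
    rw [neg_zero, zpow_zero]
    rcases k with j | k | k | k
    · simp only [Y, Sum.elim_inl]
      split_ifs
      · exact hB j c
      · simp
    · simp only [Y, Sum.elim_inl, Sum.elim_inr]
      split_ifs
      · exact hM _ _
      · simp
    · simp only [Y, Sum.elim_inl, Sum.elim_inr]
      split_ifs
      · exact hE _ _
      · simp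
    · simp only [Y, Sum.elim_inr]
      split_ifs
      · simp
      · exact hM _ _
  rw [hXY]
  refine padicNorm_det_mul_le X Y α (fun _ _ => 0) _ hX hY fun f hf h0 => ?_
  simp only [add_zero]
  -- count
  have h1 : ∑ c ∈ C, α (f c) ≤ ∑ c, α (f c) := by
    refine Finset.sum_le_sum_of_subset_of_nonneg (Finset.subset_univ _) fun c _ _ => ?_
    rcases hk : f c with j | k | k | k <;> simp [α]
  refine le_trans ?_ h1
  have h2 : ∀ c ∈ C, α (f c) = 1 - (if ∃ k : ρ ⊕ {i // i ∈ R}, f c = Sum.elim (fun j => Sum.inl j)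
      (fun i => Sum.inr (Sum.inl i)) k then 1 else 0) := by
    intro c hc
    have h3 := h0 c
    rcases hk : f c with j | k | k | k
    · rw [if_pos ⟨Sum.inl j, rfl⟩]; simp [α]
    · rw [if_pos ⟨Sum.inr k, rfl⟩]; simp [α]
    · rw [if_neg]
      · simp [α]
      · rintro ⟨k' | k', hk'⟩
        · simp only [Sum.elim_inl] at hk'
          exact absurd hk' (by simp)
        · simp only [Sum.elim_inr] at hk'
          exact absurd (Sum.inr.inj hk') (by simp)
    · exfalso
      apply h3
      rw [hk]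
      simp [Y, hc]
  rw [Finset.sum_congr rfl h2, Finset.sum_sub_distrib]
  simp only [Finset.sum_const, nsmul_eq_mul, mul_one]
  have h4 : (∑ c ∈ C, (if ∃ k : ρ ⊕ {i // i ∈ R}, f c = Sum.elim (fun j => Sum.inl j)
      (fun i => Sum.inr (Sum.inl i)) k then (1 : ℤ) else 0))
      ≤ (Fintype.card (ρ ⊕ {i // i ∈ R}) : ℤ) := by
    rw [← Finset.sum_filter, Finset.sum_const, nsmul_eq_mul, mul_one]
    norm_cast
    let g : κ' → Option (ρ ⊕ {i // i ∈ R}) := fun k => Sum.elim (fun j => some (Sum.inl j))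
      (Sum.elim (fun i => some (Sum.inr i)) (fun _ => none)) k
    have h5 : Finset.card (C.filter fun c => ∃ k : ρ ⊕ {i // i ∈ R}, f c = Sum.elim (fun j => Sum.inl j)
      (fun i => Sum.inr (Sum.inl i)) k) ≤ (Finset.univ.image (some : (ρ ⊕ {i // i ∈ R}) → _)).card := by
      refine Finset.card_le_card_of_injOn (fun c => g (f c)) ?_ ?_
      · intro c hc
        have hc' := (Finset.mem_filter.mp hc).2
        obtain ⟨k | k, hk⟩ := hc'
        · simp only [Sum.elim_inl] at hk
          simp [g, hk]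
        · simp only [Sum.elim_inr] at hk
          simp [g, hk]
      · intro a ha b hb hab
        obtain ⟨k, hk⟩ := (Finset.mem_filter.mp ha).2
        obtain ⟨k', hk'⟩ := (Finset.mem_filter.mp hb).2
        apply hf
        have hgk : ∀ k : ρ ⊕ {i // i ∈ R}, g (Sum.elim (fun j => Sum.inl j)
            (fun i => Sum.inr (Sum.inl i)) k) = some k := by
          rintro (k | k) <;> rfl
        have hab' : g (f a) = g (f b) := hab
        rw [hk, hk', hgk, hgk] at hab'
        rw [hk, hk', Option.some.inj hab']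
    refine h5.trans ?_
    rw [Finset.card_image_of_injective _ (Option.some_injective _), Finset.card_univ]
  have h6 : (Fintype.card (ρ ⊕ {i // i ∈ R}) : ℤ) = Fintype.card ρ + R.card := by
    rw [Fintype.card_sum]; simp
  rw [h6] at h4
  linarith

/-- scaling of rows and columns by powers of `p` -/
theorem padicNorm_det_scale (M : Matrix n n ℚ) (r s : n → ℤ) (a : ℤ)
    (h : padicNorm p (Matrix.det fun i c => (p : ℚ) ^ (r i) * M i c * (p : ℚ) ^ (s c)) ≤
      (p : ℚ) ^ (-a)) :
    padicNorm p M.det ≤ (p : ℚ) ^ (-(a - ∑ i, r i - ∑ c, s c)) := by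
  have hp0 : (p : ℚ) ≠ 0 := by exact_mod_cast hp.out.ne_zero
  have h1 : Matrix.det (fun i c => (p : ℚ) ^ (r i) * M i c * (p : ℚ) ^ (s c))
      = (∏ i, (p : ℚ) ^ (r i)) * M.det * ∏ c, (p : ℚ) ^ (s c) := by
    have h2 : (fun i c => (p : ℚ) ^ (r i) * M i c * (p : ℚ) ^ (s c) : Matrix n n ℚ)
        = Matrix.diagonal (fun i => (p : ℚ) ^ (r i)) * M * Matrix.diagonal (fun c => (p : ℚ) ^ (s c)) := by
      ext i c
      rw [Matrix.mul_diagonal, Matrix.diagonal_mul]
    rw [h2, Matrix.det_mul, Matrix.det_mul, Matrix.det_diagonal, Matrix.det_diagonal]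
  have h3 : ∀ t : n → ℤ, padicNorm p (∏ i, (p : ℚ) ^ (t i)) = (p : ℚ) ^ (-(∑ i, t i)) := by
    intro t
    rw [padicNorm_prod, ← prod_zpow_neg]
    refine Finset.prod_congr rfl fun i _ => ?_
    rw [padicNorm_zpow', padicNorm.padicNorm_p hp.out.one_lt, _root_.inv_zpow, _root_.zpow_neg]
  rw [h1, padicNorm.mul, padicNorm.mul, h3, h3] at h
  have h4 : padicNorm p M.det
      = ((p : ℚ) ^ (-(∑ i, r i)) * padicNorm p M.det * (p : ℚ) ^ (-(∑ c, s c)))
        * (p : ℚ) ^ (∑ i, r i + ∑ c, s c) := by
    rw [zpow_add₀ hp0, _root_.zpow_neg, _root_.zpow_neg]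
    have hr : (p : ℚ) ^ (∑ i, r i) ≠ 0 := zpow_ne_zero _ hp0
    have hs : (p : ℚ) ^ (∑ c, s c) ≠ 0 := zpow_ne_zero _ hp0
    field_simp
  rw [h4]
  calc _ ≤ (p : ℚ) ^ (-a) * (p : ℚ) ^ (∑ i, r i + ∑ c, s c) :=
        mul_le_mul_of_nonneg_right h (zpow_pos' _).le
    _ = _ := by rw [← zpow_add₀ hp0]; congr 1; ring

theorem le_padicValRat_of_norm {x : ℚ} (hx : x ≠ 0) {a : ℤ}
    (h : padicNorm p x ≤ (p : ℚ) ^ (-a)) : a ≤ padicValRat p x := by
  have hp1 : (1 : ℚ) < p := by exact_mod_cast hp.out.one_lt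
  rw [padicNorm.eq_zpow_of_nonzero hx] at h
  have := (zpow_le_zpow_iff_right₀ hp1).mp h
  linarith

theorem norm_le_of_padicValRat {x : ℚ} {a : ℤ} (h : x ≠ 0 → a ≤ padicValRat p x) :
    padicNorm p x ≤ (p : ℚ) ^ (-a) := by
  by_cases hx : x = 0
  · rw [hx, padicNorm.zero]; exact (zpow_pos' _).le
  · have hp1 : (1 : ℚ) < p := by exact_mod_cast hp.out.one_lt
    rw [padicNorm.eq_zpow_of_nonzero hx]
    exact (zpow_le_zpow_iff_right₀ hp1).mpr (by have := h hx; linarith)

end Norm

end Vale.Agent.P030.H792
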